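import Vale.Agent.P163.Gibbs

/-! P163, file Grid: blocks and grids.
Plan: membership by `simp [bU, mem_product]`; `mem_gU` by Euclidean division
(`Int.le_ediv_iff_mul_le`, `Int.ediv_lt_iff_lt_mul`, `Int.ediv_eq_iff...` or
`Int.emod_emod_of_dvd`; the index of the block containing `v` is `((v.1 - b.1) / s, (v.2 - b.2) / s)`).
`grid_sep`: from `s p ≤ x ≤ s p + s` and `s q < x < s q + s` get `p = q` (`nlinarith` on
`p ≤ q - 1` or `q + 1 ≤ p`). `subadd_grid` is `subadd` with these facts. -/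

open MeasureTheory Filter Topology Finset

namespace Vale.Agent.P163

private lemma ediv_iff {s : ℤ} (hs : 0 < s) (x p : ℤ) :
    x / s = p ↔ s * p ≤ x ∧ x < s * p + s := by
  have h1 : p ≤ x / s ↔ p * s ≤ x := Int.le_ediv_iff_mul_le hs
  have h2 : x / s < p + 1 ↔ x < (p + 1) * s := Int.ediv_lt_iff_lt_mul hs
  rw [add_mul, one_mul] at h2
  rw [mul_comm s p, ← h1, ← h2]
  omega

private lemma lt_succ_of {s p q : ℤ} (hs : 0 ≤ s) (h : s * p < s * q + s) : p ≤ q := by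
  have : p < q + 1 := lt_of_mul_lt_mul_left (by rw [mul_add, mul_one]; exact h) hs
  omega

private lemma blk_le {s p M : ℤ} (hs : 0 ≤ s) (h : p < M) : s * p + s ≤ M * s := by
  have := mul_le_mul_of_nonneg_left (show p + 1 ≤ M by omega) hs
  linarith

lemma mem_bU {b v : V} {s : ℕ} :
    v ∈ bU b s ↔ b.1 ≤ v.1 ∧ v.1 < b.1 + s ∧ b.2 ≤ v.2 ∧ v.2 < b.2 + s := by
  simp only [bU, mem_product, mem_Ico, and_assoc]

lemma mem_bI {b v : V} {s : ℕ} :
    v ∈ bI b s ↔ b.1 < v.1 ∧ v.1 < b.1 + s ∧ b.2 < v.2 ∧ v.2 < b.2 + s := by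
  simp only [bI, mem_product, mem_Ioo, and_assoc]

lemma mem_bC {b v : V} {s : ℕ} :
    v ∈ bC b s ↔ b.1 ≤ v.1 ∧ v.1 ≤ b.1 + s ∧ b.2 ≤ v.2 ∧ v.2 ≤ b.2 + s := by
  simp only [bC, mem_product, mem_Icc, and_assoc]

lemma card_bU (b : V) (s : ℕ) : (bU b s).card = s ^ 2 := by
  simp [bU, sq]

lemma touch_bU {b v : V} {s : ℕ} (h : v ∈ touch (bU b s)) : v ∈ bC b s := by
  simp only [touch, Set.mem_ofPred_eq, mem_bU] at h
  rw [mem_bC]
  omega

lemma mem_gU {T : Finset V} {b v : V} {s : ℕ} (hs : 0 < s) :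
    v ∈ gU T b s ↔ ((v.1 - b.1) / (s : ℤ), (v.2 - b.2) / (s : ℤ)) ∈ T := by
  have hs' : (0 : ℤ) < s := by exact_mod_cast hs
  simp only [gU, mem_biUnion, mem_bU, gb]
  constructor
  · rintro ⟨p, hp, h1, h2, h3, h4⟩
    have e1 : (v.1 - b.1) / (s : ℤ) = p.1 := (ediv_iff hs' _ _).2 ⟨by linarith, by linarith⟩
    have e2 : (v.2 - b.2) / (s : ℤ) = p.2 := (ediv_iff hs' _ _).2 ⟨by linarith, by linarith⟩
    rw [e1, e2]; exact hp
  · intro h
    have e1 := (ediv_iff hs' (v.1 - b.1) _).1 rfl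
    have e2 := (ediv_iff hs' (v.2 - b.2) _).1 rfl
    exact ⟨_, h, by linarith [e1.1], by linarith [e1.2], by linarith [e2.1], by linarith [e2.2]⟩

lemma gU_box (b : V) {s : ℕ} (hs : 0 < s) (M : ℕ) :
    gU (Ico (0 : ℤ) M ×ˢ Ico (0 : ℤ) M) b s = bU b (M * s) := by
  have hs' : (0 : ℤ) < s := by exact_mod_cast hs
  ext v
  rw [mem_gU hs, mem_bU]
  simp only [mem_product, mem_Ico, Int.le_ediv_iff_mul_le hs', Int.ediv_lt_iff_lt_mul hs']
  push_cast
  generalize (M : ℤ) * s = w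
  omega

lemma gU_ann (b : V) {s : ℕ} (hs : 0 < s) (M : ℕ) :
    gU ((Ico (0 : ℤ) (3 * M) ×ˢ Ico (0 : ℤ) (3 * M)) \
      (Ico (M : ℤ) (2 * M) ×ˢ Ico (M : ℤ) (2 * M))) b s = annU b (M * s) := by
  have hs' : (0 : ℤ) < s := by exact_mod_cast hs
  ext v
  rw [mem_gU hs, annU, Finset.mem_sdiff, Finset.mem_sdiff, mem_bU, mem_bU]
  simp only [mem_product, mem_Ico, Int.le_ediv_iff_mul_le hs', Int.ediv_lt_iff_lt_mul hs', gb,
    mul_assoc]
  push_cast
  generalize (M : ℤ) * s = w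
  omega

lemma bI_subset_box (b : V) (s M : ℕ) {p : V} (hp : p ∈ Ico (0 : ℤ) M ×ˢ Ico (0 : ℤ) M) :
    bI (gb b s p) s ⊆ bI b (M * s) := by
  have hs : (0 : ℤ) ≤ s := Int.natCast_nonneg s
  simp only [mem_product, mem_Ico] at hp
  intro v hv
  simp only [mem_bI, gb] at hv ⊢
  have h1 := mul_nonneg hs hp.1.1
  have h2 := mul_nonneg hs hp.2.1
  have h3 := blk_le hs hp.1.2
  have h4 := blk_le hs hp.2.2
  push_cast
  omega

lemma bI_subset_ann (b : V) (s M : ℕ) {p : V}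
    (hp : p ∈ (Ico (0 : ℤ) (3 * M) ×ˢ Ico (0 : ℤ) (3 * M)) \
      (Ico (M : ℤ) (2 * M) ×ˢ Ico (M : ℤ) (2 * M))) :
    bI (gb b s p) s ⊆ annI b (M * s) := by
  have hs : (0 : ℤ) ≤ s := Int.natCast_nonneg s
  simp only [Finset.mem_sdiff, mem_product, mem_Ico] at hp
  obtain ⟨hp, hq⟩ := hp
  intro v hv
  simp only [annI, Finset.mem_sdiff, mem_bI, mem_bC, gb] at hv ⊢
  have h1 := mul_nonneg hs hp.1.1
  have h2 := mul_nonneg hs hp.2.1
  have h3 := blk_le hs hp.1.2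
  have h4 := blk_le hs hp.2.2
  push_cast
  refine ⟨⟨by linarith, by linarith, by linarith, by linarith⟩, fun h => hq ⟨⟨?_, ?_⟩, ?_, ?_⟩⟩
  · exact lt_succ_of hs (by linarith)
  · exact lt_of_mul_lt_mul_left (by linarith) hs
  · exact lt_succ_of hs (by linarith)
  · exact lt_of_mul_lt_mul_left (by linarith) hs

lemma grid_sep (b : V) (s : ℕ) {p q v : V} (hp : v ∈ bC (gb b s p) s)
    (hq : v ∈ bI (gb b s q) s) : p = q := by
  have hs : (0 : ℤ) ≤ s := Int.natCast_nonneg s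
  simp only [mem_bI, mem_bC, gb] at hp hq
  refine Prod.ext (le_antisymm ?_ ?_) (le_antisymm ?_ ?_) <;> exact lt_succ_of hs (by linarith)

lemma grid_disj (b : V) (s : ℕ) {p q : V} (h : p ≠ q) :
    Disjoint (bU (gb b s p) s) (bU (gb b s q) s) := by
  have hs : (0 : ℤ) ≤ s := Int.natCast_nonneg s
  rw [Finset.disjoint_left]
  intro v hp hq
  simp only [mem_bU, gb] at hp hq
  refine h (Prod.ext (le_antisymm ?_ ?_) (le_antisymm ?_ ?_)) <;> exact lt_succ_of hs (by linarith)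

lemma grad2_le {U : Finset V} {ψ : V → ℝ} {a : ℝ}
    (h : ∀ v ∈ U, |ψ (rt v) - ψ v| ≤ a ∧ |ψ (up v) - ψ v| ≤ a) :
    grad2 U ψ ≤ 2 * a ^ 2 * U.card := by
  have h1 : grad2 U ψ ≤ U.card • (2 * a ^ 2) := by
    refine Finset.sum_le_card_nsmul _ _ _ fun v hv => ?_
    have h2 := pow_le_pow_left₀ (abs_nonneg _) (h v hv).1 2
    have h3 := pow_le_pow_left₀ (abs_nonneg _) (h v hv).2 2
    rw [sq_abs] at h2 h3
    linarith
  rw [nsmul_eq_mul] at h1
  linarith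

lemma grad2_co (U : Finset V) (d : Bool) (τ : ℝ) :
    grad2 U (fun v => τ * (co d v : ℝ)) = τ ^ 2 * U.card := by
  have h1 : grad2 U (fun v => τ * (co d v : ℝ)) = ∑ _v ∈ U, τ ^ 2 := by
    refine Finset.sum_congr rfl fun v _ => ?_
    cases d <;> simp only [co, rt, up] <;> push_cast <;> simp <;> ring
  rw [h1, sum_const, nsmul_eq_mul, mul_comm]

theorem subadd_grid {m : ℕ} (β : ℝ) (T : Finset V) (b : V) (s : ℕ) (I : Finset V)
    (hI : ∀ p ∈ T, bI (gb b s p) s ⊆ I) (ψ : V → ℝ) (σ : Cfg (m + 3)) :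
    D β (gU T b s) I ψ σ ≤ Ex β (gU T b s) I
      (fun τ => ∑ p ∈ T, D β (bU (gb b s p) s) (bI (gb b s p) s) ψ τ) σ := by
  exact subadd T (fun p => bU (gb b s p) s) (fun p => bI (gb b s p) s)
    (fun p _ q _ h => grid_disj b s h) hI
    (fun p _ q _ h v hv ht => h (grid_sep b s (touch_bU ht) hv)) ψ σ

end Vale.Agent.P163
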