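import Vale.Agent.P163.Cheap
import Vale.Agent.P163.Grid

/-! P163, file Annulus: a rotation by `π` across an annulus is cheap when the stiffness is small.
Plan: `s = 3 ^ k`, `M = 3 ^ (j - k)`, `w = M * s = 3 ^ j`, `τ = π / w`. `gU_ann`,
`bI_subset_ann`, `subadd_grid`, then `Ex_le_const` (`D_cont`). For `p` in the index set:
if `p.1 = p.2` or `p.1 + p.2 = 3 M - 1` (at most `6 M` such `p`, `card_diag`) use `bare` and
`grad2_le` with `annA_lip`: `D_p ≤ β * 2 τ ^ 2 s ^ 2`; otherwise `annA_affine`, `D_congr`,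
`D_neg`, `touch_bU` reduce to `Kap` with `i = j`: `D_p ≤ ε τ ^ 2 s ^ 2`. There are at most
`9 M ^ 2` indices and `τ ^ 2 s ^ 2 M ^ 2 = π ^ 2`.
`annA_affine`: four triangles, e.g. `p.1 < p.2` and `p.1 + p.2 < 3 M - 1` forces `p.1 < M` (else
`p` is in the centre) and then `annA v = v.1 - b.1` on the closed block; first derive the linear
inequalities such as `s * p.1 + s ≤ s * p.2` by `nlinarith`/`mul_le_mul`, set the products as
atoms (`generalize`), finish with `omega`. -/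

open MeasureTheory Filter Topology Finset

namespace Vale.Agent.P163

variable {m : ℕ} {β : ℝ}

lemma annA_lip (b : V) (w : ℕ) (v : V) :
    |annA b w (rt v) - annA b w v| ≤ 1 ∧ |annA b w (up v) - annA b w v| ≤ 1 := by
  unfold annA rt up
  simp only [abs_le]
  omega

lemma annA_affine (b : V) (s M : ℕ) {p : V}
    (hp : p ∈ (Ico (0 : ℤ) (3 * M) ×ˢ Ico (0 : ℤ) (3 * M)) \
      (Ico (M : ℤ) (2 * M) ×ˢ Ico (M : ℤ) (2 * M)))
    (h1 : p.1 ≠ p.2) (h2 : p.1 + p.2 ≠ 3 * M - 1) :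
    ∃ (d : Bool) (c : ℤ), (∀ v ∈ bC (gb b s p) s, annA b (M * s) v = co d v + c) ∨
      (∀ v ∈ bC (gb b s p) s, annA b (M * s) v = -co d v + c) := by
  obtain ⟨p1, p2⟩ := p
  simp only [Finset.mem_sdiff, Finset.mem_product, Finset.mem_Ico] at hp h1 h2
  have hs : (0 : ℤ) ≤ s := Int.natCast_nonneg s
  have mono : ∀ x y : ℤ, x ≤ y → (s : ℤ) * x ≤ s * y :=
    fun x y h => mul_le_mul_of_nonneg_left h hs
  have hv : ∀ v ∈ bC (gb b s (p1, p2)) s, b.1 + s * p1 ≤ v.1 ∧ v.1 ≤ b.1 + s * p1 + s ∧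
      b.2 + s * p2 ≤ v.2 ∧ v.2 ≤ b.2 + s * p2 + s := fun v hv => by
    simpa only [mem_bC, gb] using hv
  have hMs : ((M * s : ℕ) : ℤ) = s * M := by push_cast; ring
  rcases lt_or_gt_of_ne h1 with a | a <;> rcases lt_or_gt_of_ne h2 with c | c
  · refine ⟨true, -b.1, Or.inl fun v hv' => ?_⟩
    have q := hv v hv'
    have e1 := mono (p1 + 1) p2 (by omega)
    have e2 := mono (p1 + p2 + 2) (3 * M) (by omega)
    have e3 := mono (p1 + 1) M (by omega)
    have e4 := mono 0 p1 (by omega)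
    simp only [mul_add, mul_one, mul_zero, mul_left_comm (s : ℤ) 3] at e1 e2 e3 e4
    unfold annA co
    rw [hMs]
    generalize (s : ℤ) * p1 = A at *
    generalize (s : ℤ) * p2 = B at *
    generalize (s : ℤ) * M = W at *
    simp only [if_true]
    omega
  · refine ⟨false, b.2 + 3 * (s * M), Or.inr fun v hv' => ?_⟩
    have q := hv v hv'
    have e1 := mono (p1 + 1) p2 (by omega)
    have e2 := mono (3 * M) (p1 + p2) (by omega)
    have e3 := mono (2 * M) p2 (by omega)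
    have e4 := mono (p2 + 1) (3 * M) (by omega)
    simp only [mul_add, mul_one, mul_zero, mul_left_comm (s : ℤ) 3, mul_left_comm (s : ℤ) 2]
      at e1 e2 e3 e4
    unfold annA co
    rw [hMs]
    generalize (s : ℤ) * p1 = A at *
    generalize (s : ℤ) * p2 = B at *
    generalize (s : ℤ) * M = W at *
    simp only [Bool.false_eq_true, if_false]
    omega
  · refine ⟨false, -b.2, Or.inl fun v hv' => ?_⟩
    have q := hv v hv'
    have e1 := mono (p2 + 1) p1 (by omega)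
    have e2 := mono (p1 + p2 + 2) (3 * M) (by omega)
    have e3 := mono (p2 + 1) M (by omega)
    have e4 := mono 0 p2 (by omega)
    simp only [mul_add, mul_one, mul_zero, mul_left_comm (s : ℤ) 3] at e1 e2 e3 e4
    unfold annA co
    rw [hMs]
    generalize (s : ℤ) * p1 = A at *
    generalize (s : ℤ) * p2 = B at *
    generalize (s : ℤ) * M = W at *
    simp only [Bool.false_eq_true, if_false]
    omega
  · refine ⟨true, b.1 + 3 * (s * M), Or.inr fun v hv' => ?_⟩
    have q := hv v hv'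
    have e1 := mono (p2 + 1) p1 (by omega)
    have e2 := mono (3 * M) (p1 + p2) (by omega)
    have e3 := mono (2 * M) p1 (by omega)
    have e4 := mono (p1 + 1) (3 * M) (by omega)
    simp only [mul_add, mul_one, mul_zero, mul_left_comm (s : ℤ) 3, mul_left_comm (s : ℤ) 2]
      at e1 e2 e3 e4
    unfold annA co
    rw [hMs]
    generalize (s : ℤ) * p1 = A at *
    generalize (s : ℤ) * p2 = B at *
    generalize (s : ℤ) * M = W at *
    simp only [if_true]
    omega

lemma card_diag (M : ℕ) :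
    ((Ico (0 : ℤ) (3 * M) ×ˢ Ico (0 : ℤ) (3 * M)).filter
      fun p : V => p.1 = p.2 ∨ p.1 + p.2 = 3 * M - 1).card ≤ 6 * M := by
  have hsub : ((Ico (0 : ℤ) (3 * M) ×ˢ Ico (0 : ℤ) (3 * M)).filter
      fun p : V => p.1 = p.2 ∨ p.1 + p.2 = 3 * M - 1)
      ⊆ (Ico (0 : ℤ) (3 * M)).image (fun x => (x, x))
        ∪ (Ico (0 : ℤ) (3 * M)).image (fun x => (x, 3 * M - 1 - x)) := by
    rintro ⟨p1, p2⟩ hp
    simp only [Finset.mem_filter, Finset.mem_product] at hp
    simp only [Finset.mem_union, Finset.mem_image, Prod.mk.injEq]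
    rcases hp.2 with h | h
    · exact Or.inl ⟨p1, hp.1.1, rfl, h⟩
    · exact Or.inr ⟨p1, hp.1.1, rfl, by omega⟩
  refine (Finset.card_le_card hsub).trans ((Finset.card_union_le _ _).trans ?_)
  have h1 := Finset.card_image_le (s := Ico (0 : ℤ) (3 * M)) (f := fun x => ((x, x) : V))
  have h2 := Finset.card_image_le (s := Ico (0 : ℤ) (3 * M))
    (f := fun x => ((x, 3 * M - 1 - x) : V))
  have h3 : (Ico (0 : ℤ) (3 * M)).card = 3 * M := by
    rw [Int.card_Ico]; omega
  omega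

theorem annulus (hβ : 0 ≤ β) {k j : ℕ} (hkj : k ≤ j) {ε : ℝ} (hε : 0 ≤ ε) (h : Kap m β k ε)
    (b : V) (σ : Cfg (m + 3)) :
    D β (annU b (3 ^ j)) (annI b (3 ^ j))
        (fun v => Real.pi / 3 ^ j * (annA b (3 ^ j) v : ℝ)) σ
      ≤ 9 * Real.pi ^ 2 * ε + 12 * Real.pi ^ 2 * β / 3 ^ (j - k) := by
  set s : ℕ := 3 ^ k with hs
  set M : ℕ := 3 ^ (j - k) with hM
  have hw : 3 ^ j = M * s := by
    rw [hM, hs, ← pow_add, Nat.sub_add_cancel hkj]
  have hs0 : 0 < s := by positivity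
  have hM0 : 0 < M := by positivity
  have hsr : (s : ℝ) = 3 ^ k := by rw [hs]; push_cast; rfl
  have hMr : (M : ℝ) = 3 ^ (j - k) := by rw [hM]; push_cast; rfl
  have hwr : (3 : ℝ) ^ j = M * s := by exact_mod_cast hw
  have hs9 : (9 : ℝ) ^ k = (s : ℝ) ^ 2 := by
    rw [hsr, ← pow_mul, mul_comm, pow_mul]; norm_num
  set τ : ℝ := Real.pi / 3 ^ j with hτ
  have hτ0 : 0 ≤ τ := by positivity
  set T : Finset V := (Ico (0 : ℤ) (3 * M) ×ˢ Ico (0 : ℤ) (3 * M)) \
      (Ico (M : ℤ) (2 * M) ×ˢ Ico (M : ℤ) (2 * M)) with hT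
  rw [hw, ← gU_ann b hs0 M, ← hT]
  set ψ : V → ℝ := fun v => τ * (annA b (M * s) v : ℝ) with hψ
  refine (subadd_grid β T b s _ (fun p hp => bI_subset_ann b s M hp) ψ σ).trans ?_
  refine Ex_le_const (continuous_finsetSum T fun p _ => D_cont _ _ _ _) (fun σ' => ?_) σ
  have hb : ∀ p ∈ T, D β (bU (gb b s p) s) (bI (gb b s p) s) ψ σ'
      ≤ ε * τ ^ 2 * (s : ℝ) ^ 2
        + if p.1 = p.2 ∨ p.1 + p.2 = 3 * M - 1 then β * (2 * τ ^ 2 * (s : ℝ) ^ 2) else 0 := by
    intro p hp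
    split_ifs with hd
    · have h1 := bare (U := bU (gb b s p) s) (I := bI (gb b s p) s) hβ ψ σ'
      have h2 : grad2 (bU (gb b s p) s) ψ ≤ 2 * τ ^ 2 * ((bU (gb b s p) s).card : ℝ) := by
        refine grad2_le fun v _ => ?_
        have h3 := annA_lip b (M * s) v
        have h4 : |(annA b (M * s) (rt v) : ℝ) - annA b (M * s) v| ≤ 1 := by
          exact_mod_cast h3.1
        have h5 : |(annA b (M * s) (up v) : ℝ) - annA b (M * s) v| ≤ 1 := by
          exact_mod_cast h3.2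
        simp only [hψ, ← mul_sub, abs_mul, abs_of_nonneg hτ0]
        exact ⟨mul_le_of_le_one_right hτ0 h4, mul_le_of_le_one_right hτ0 h5⟩
      rw [card_bU] at h2
      push_cast at h2
      have h3 := mul_le_mul_of_nonneg_left h2 hβ
      have h4 : 0 ≤ ε * τ ^ 2 * (s : ℝ) ^ 2 := by positivity
      linarith
    · rw [not_or] at hd
      obtain ⟨d, c, hc⟩ := annA_affine b s M hp hd.1 hd.2
      have hk := h (gb b s p) d j hkj σ'
      rw [hs9, ← hτ, ← hs] at hk
      rw [add_zero]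
      rcases hc with hc | hc
      · rw [D_congr (ψ' := fun v => τ * (co d v : ℝ)) (τ * c) (fun v hv _ => ?_)]
        · exact hk
        · simp only [hψ, hc v (touch_bU hv)]
          push_cast
          ring
      · rw [D_congr (ψ' := fun v => -(τ * (co d v : ℝ))) (τ * c) (fun v hv _ => ?_), D_neg]
        · exact hk
        · simp only [hψ, hc v (touch_bU hv)]
          push_cast
          ring
  refine (Finset.sum_le_sum hb).trans ?_
  rw [Finset.sum_add_distrib, Finset.sum_const, ← Finset.sum_filter, Finset.sum_const,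
    nsmul_eq_mul, nsmul_eq_mul]
  have c1 : (T.card : ℝ) ≤ 9 * (M : ℝ) ^ 2 := by
    have h1 : T.card ≤ (Ico (0 : ℤ) (3 * M) ×ˢ Ico (0 : ℤ) (3 * M)).card :=
      Finset.card_le_card Finset.sdiff_subset
    have h3 : (Ico (0 : ℤ) (3 * M)).card = 3 * M := by
      rw [Int.card_Ico]; omega
    rw [Finset.card_product, h3] at h1
    have h2 : (T.card : ℝ) ≤ ((3 * M * (3 * M) : ℕ) : ℝ) := by exact_mod_cast h1
    push_cast at h2
    linarith
  have c2 : ((T.filter fun p : V => p.1 = p.2 ∨ p.1 + p.2 = 3 * M - 1).card : ℝ) ≤ 6 * M := by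
    have h1 := (Finset.card_le_card (Finset.filter_subset_filter
      (fun p : V => p.1 = p.2 ∨ p.1 + p.2 = 3 * M - 1)
      (Finset.sdiff_subset : T ⊆ _))).trans (card_diag M)
    exact_mod_cast h1
  have hMp : (0 : ℝ) < M := by exact_mod_cast hM0
  have hsp : (0 : ℝ) < s := by exact_mod_cast hs0
  have e1 : τ ^ 2 * (s : ℝ) ^ 2 = Real.pi ^ 2 / (M : ℝ) ^ 2 := by
    rw [hτ, hwr]; field_simp
  have d1 := mul_le_mul_of_nonneg_right c1 (show 0 ≤ ε * τ ^ 2 * (s : ℝ) ^ 2 by positivity)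
  have d2 := mul_le_mul_of_nonneg_right c2
    (show 0 ≤ β * (2 * τ ^ 2 * (s : ℝ) ^ 2) by positivity)
  have f1 : 9 * (M : ℝ) ^ 2 * (ε * τ ^ 2 * (s : ℝ) ^ 2) = 9 * Real.pi ^ 2 * ε := by
    rw [mul_assoc ε, e1]; field_simp
  have f2 : 6 * (M : ℝ) * (β * (2 * τ ^ 2 * (s : ℝ) ^ 2)) = 12 * Real.pi ^ 2 * β / M := by
    rw [mul_assoc 2, e1]; field_simp; ring
  rw [← hMr]
  linarith

end Vale.Agent.P163
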