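import Vale.Agent.P163.Meas

/-! P163, file Avg: the averaging operator `Av`.
Plan: `Av_cont`: `continuous_parametric_integral_of_continuous` (compact set `univ`,
`Measure.restrict_univ`) with `continuous_piecewise`.
`Av_tower`: for `J ⊆ I`, `J.piecewise z (I.piecewise y σ) = I.piecewise (J.piecewise z y) σ`, then
`integral_Av J` for `y ↦ F (I.piecewise y σ)`.
`Av_act`: `act_piecewise` and `integral_act` for `y ↦ F (I.piecewise y (act g σ))`.
`Av_act_inside`: `act g (I.piecewise y σ) = I.piecewise (act g y) σ` when `g = 1` off `I`.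
`Indep.av`: `Indep I F` means `F τ = F τ'` when `τ, τ'` agree off `I` (`τ = I.piecewise τ τ'`).
`Av_jensen`: with `c = Av (q h) / Av q`, `exp x ≥ exp c * (1 + x - c)` (`Real.add_one_le_exp`), so
`Av (q exp h) ≥ exp c * Av q`.
`Av_prod`: induction on `T` generalizing `G`: apply the hypothesis to `G * F p`, then
`Av_tower` with `J p` and `Av_pull` (`G * ∏ Av (J q) (F q)` is `Indep (J p)` by `Indep.av`). -/

open MeasureTheory Filter Topology Finset

namespace Vale.Agent.P163

variable {n : ℕ} {I J : Finset V} {F G : Cfg n → ℝ}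

lemma Indep.mul (hF : Indep I F) (hG : Indep I G) : Indep I fun σ => F σ * G σ := by
  intro y σ
  simp only [hF y σ, hG y σ]

lemma Indep.eq_of_agree (hF : Indep I F) {τ τ' : Cfg n} (h : ∀ v, v ∉ I → τ v = τ' v) :
    F τ = F τ' := by
  have e : τ = I.piecewise τ τ' := by
    funext v
    by_cases hv : v ∈ I
    · rw [Finset.piecewise_eq_of_mem _ _ _ hv]
    · rw [Finset.piecewise_eq_of_notMem _ _ _ hv, h v hv]
  rw [e, hF]

lemma Indep.av (hF : Indep I F) (J : Finset V) : Indep I (Av J F) := by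
  intro y σ
  unfold Av
  refine integral_congr_ae (Filter.Eventually.of_forall fun z => ?_)
  refine hF.eq_of_agree fun v hv => ?_
  by_cases hJ : v ∈ J
  · rw [Finset.piecewise_eq_of_mem _ _ _ hJ, Finset.piecewise_eq_of_mem _ _ _ hJ]
  · rw [Finset.piecewise_eq_of_notMem _ _ _ hJ, Finset.piecewise_eq_of_notMem _ _ _ hJ,
      Finset.piecewise_eq_of_notMem _ _ _ hv]

lemma indep_Av (I : Finset V) (F : Cfg n → ℝ) : Indep I (Av I F) := by
  intro y σ
  unfold Av
  refine integral_congr_ae (Filter.Eventually.of_forall fun z => ?_)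
  refine congrArg F ?_
  funext v
  by_cases hv : v ∈ I
  · rw [Finset.piecewise_eq_of_mem _ _ _ hv, Finset.piecewise_eq_of_mem _ _ _ hv]
  · rw [Finset.piecewise_eq_of_notMem _ _ _ hv, Finset.piecewise_eq_of_notMem _ _ _ hv,
      Finset.piecewise_eq_of_notMem _ _ _ hv]

lemma indep_of_dep {K : Set V} (hF : DependsOn F K) (h : ∀ v ∈ I, v ∉ K) : Indep I F := by
  intro y σ
  refine hF fun v hv => ?_
  exact Finset.piecewise_eq_of_notMem _ _ _ fun hI => h v hI hv

lemma Av_dep {K : Set V} (hF : DependsOn F K) (I : Finset V) :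
    DependsOn (Av I F) (K \ (I : Set V)) := by
  intro σ σ' hσ
  unfold Av
  refine integral_congr_ae (Filter.Eventually.of_forall fun z => ?_)
  refine hF fun v hv => ?_
  by_cases hI : v ∈ I
  · rw [Finset.piecewise_eq_of_mem _ _ _ hI, Finset.piecewise_eq_of_mem _ _ _ hI]
  · rw [Finset.piecewise_eq_of_notMem _ _ _ hI, Finset.piecewise_eq_of_notMem _ _ _ hI]
    exact hσ v ⟨hv, by simpa using hI⟩

lemma Av_pull (hG : Indep I G) (F : Cfg n → ℝ) (σ : Cfg n) :
    Av I (fun τ => G τ * F τ) σ = G σ * Av I F σ := by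
  unfold Av
  rw [← integral_const_mul]
  refine integral_congr_ae (Filter.Eventually.of_forall fun z => ?_)
  simp only [hG z σ]

lemma Av_const_mul (c : ℝ) (F : Cfg n → ℝ) (σ : Cfg n) :
    Av I (fun τ => c * F τ) σ = c * Av I F σ := by
  unfold Av
  rw [integral_const_mul]

lemma Av_neg (F : Cfg n → ℝ) (σ : Cfg n) : Av I (fun τ => -F τ) σ = -Av I F σ := by
  unfold Av
  rw [integral_neg]

lemma Av_nonneg (h : ∀ τ, 0 ≤ F τ) (σ : Cfg n) : 0 ≤ Av I F σ := by
  exact integral_nonneg fun y => h _

lemma abs_Av_le (F : Cfg n → ℝ) (σ : Cfg n) : |Av I F σ| ≤ Av I (fun τ => |F τ|) σ := by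
  exact abs_integral_le_integral_abs

lemma cont_pw (hF : Continuous F) (I : Finset V) (σ : Cfg n) :
    Continuous fun y : Cfg n => F (I.piecewise y σ) :=
  hF.comp ((continuous_piecewise I).comp (Continuous.prodMk_right σ))

variable [NeZero n]

lemma integrable_pw (hF : Continuous F) (I : Finset V) (σ : Cfg n) :
    Integrable (fun y : Cfg n => F (I.piecewise y σ)) (ref n) :=
  integrable_cont (cont_pw hF I σ)

lemma Av_const (c : ℝ) (σ : Cfg n) : Av I (fun _ => c) σ = c := by
  simp [Av]

lemma Av_cont (hF : Continuous F) : Continuous (Av I F) := by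
  have h : Continuous (Function.uncurry fun (σ y : Cfg n) => F (I.piecewise y σ)) :=
    hF.comp (continuous_piecewise I)
  have := continuous_parametric_integral_of_continuous (μ := ref n) h isCompact_univ
  simp only [Measure.restrict_univ] at this
  exact this

lemma Av_add (hF : Continuous F) (hG : Continuous G) (σ : Cfg n) :
    Av I (fun τ => F τ + G τ) σ = Av I F σ + Av I G σ := by
  exact integral_add (integrable_pw hF I σ) (integrable_pw hG I σ)

lemma Av_sub (hF : Continuous F) (hG : Continuous G) (σ : Cfg n) :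
    Av I (fun τ => F τ - G τ) σ = Av I F σ - Av I G σ := by
  exact integral_sub (integrable_pw hF I σ) (integrable_pw hG I σ)

lemma Av_sum {κ : Type*} (T : Finset κ) {f : κ → Cfg n → ℝ} (hf : ∀ p ∈ T, Continuous (f p))
    (σ : Cfg n) : Av I (fun τ => ∑ p ∈ T, f p τ) σ = ∑ p ∈ T, Av I (f p) σ := by
  exact integral_finsetSum T fun p hp => integrable_pw (hf p hp) I σ

lemma Av_mono (hF : Continuous F) (hG : Continuous G) (h : ∀ τ, F τ ≤ G τ) (σ : Cfg n) :
    Av I F σ ≤ Av I G σ := by
  exact integral_mono (integrable_pw hF I σ) (integrable_pw hG I σ) fun y => h _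

lemma Av_pos (hF : Continuous F) (h : ∀ τ, 0 < F τ) (σ : Cfg n) : 0 < Av I F σ := by
  exact integral_pos_cont (cont_pw hF I σ) fun y => h _

lemma Av_tower (hJ : J ⊆ I) (hF : Continuous F) (σ : Cfg n) :
    Av I (Av J F) σ = Av I F σ := by
  have h := integral_Av J (cont_pw hF I σ)
  refine Eq.trans ?_ h
  unfold Av
  refine integral_congr_ae (Filter.Eventually.of_forall fun y => ?_)
  refine integral_congr_ae (Filter.Eventually.of_forall fun z => ?_)
  refine congrArg F ?_
  funext v
  by_cases hv : v ∈ J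
  · rw [Finset.piecewise_eq_of_mem _ _ _ hv, Finset.piecewise_eq_of_mem _ _ _ (hJ hv),
      Finset.piecewise_eq_of_mem _ _ _ hv]
  · rw [Finset.piecewise_eq_of_notMem _ _ _ hv]
    by_cases hI : v ∈ I
    · rw [Finset.piecewise_eq_of_mem _ _ _ hI, Finset.piecewise_eq_of_mem _ _ _ hI,
        Finset.piecewise_eq_of_notMem _ _ _ hv]
    · rw [Finset.piecewise_eq_of_notMem _ _ _ hI, Finset.piecewise_eq_of_notMem _ _ _ hI]

lemma Av_act (g : V → Iso n) (hF : Continuous F) (σ : Cfg n) :
    Av I F (act g σ) = Av I (fun τ => F (act g τ)) σ := by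
  have h := integral_act g (cont_pw hF I (act g σ))
  unfold Av
  rw [← h]
  refine integral_congr_ae (Filter.Eventually.of_forall fun y => ?_)
  simp only [act_piecewise]

lemma Av_act_inside {g : V → Iso n} (hg : ∀ v, v ∉ I → g v = 1) (hF : Continuous F) (σ : Cfg n) :
    Av I (fun τ => F (act g τ)) σ = Av I F σ := by
  have h := integral_act g (cont_pw hF I σ)
  unfold Av
  rw [← h]
  refine integral_congr_ae (Filter.Eventually.of_forall fun y => ?_)
  refine congrArg F ?_
  rw [act_piecewise]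
  funext v
  by_cases hv : v ∈ I
  · rw [Finset.piecewise_eq_of_mem _ _ _ hv, Finset.piecewise_eq_of_mem _ _ _ hv]
  · rw [Finset.piecewise_eq_of_notMem _ _ _ hv, Finset.piecewise_eq_of_notMem _ _ _ hv,
      act_apply_of_eq_one σ (hg v hv)]

lemma Av_jensen {q h : Cfg n → ℝ} (hq : Continuous q) (hh : Continuous h) (hq0 : ∀ τ, 0 < q τ)
    (σ : Cfg n) :
    Av I (fun τ => q τ * h τ) σ / Av I q σ
      ≤ Real.log (Av I (fun τ => q τ * Real.exp (h τ)) σ) - Real.log (Av I q σ) := by
  have hA : 0 < Av I q σ := Av_pos hq hq0 σ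
  set c := Av I (fun τ => q τ * h τ) σ / Av I q σ with hc
  have hqh : Continuous fun τ => q τ * h τ := hq.mul hh
  have hqe : Continuous fun τ => q τ * Real.exp (h τ) := hq.mul (Real.continuous_exp.comp hh)
  have h1 : Av I (fun τ => Real.exp c * ((1 - c) * q τ + q τ * h τ)) σ
      ≤ Av I (fun τ => q τ * Real.exp (h τ)) σ := by
    refine Av_mono (by fun_prop) hqe (fun τ => ?_) σ
    have e1 := Real.add_one_le_exp (h τ - c)
    have e2 : Real.exp (h τ) = Real.exp c * Real.exp (h τ - c) := by
      rw [← Real.exp_add]; congr 1; ring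
    have e3 := hq0 τ
    have e4 := Real.exp_pos c
    rw [e2]
    have : q τ * (h τ - c + 1) ≤ q τ * Real.exp (h τ - c) := mul_le_mul_of_nonneg_left e1 e3.le
    nlinarith [mul_le_mul_of_nonneg_left this e4.le]
  have hcq : Continuous fun τ => (1 - c) * q τ := by fun_prop
  rw [Av_const_mul, Av_add hcq hqh, Av_const_mul] at h1
  have h2 : Av I (fun τ => q τ * h τ) σ = c * Av I q σ := by
    rw [hc]; field_simp
  rw [h2] at h1
  have h3 : Real.exp c * Av I q σ ≤ Av I (fun τ => q τ * Real.exp (h τ)) σ := by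
    calc Real.exp c * Av I q σ = Real.exp c * ((1 - c) * Av I q σ + c * Av I q σ) := by ring
      _ ≤ _ := h1
  have h4 := Real.log_le_log (mul_pos (Real.exp_pos c) hA) h3
  rw [Real.log_mul (Real.exp_pos c).ne' hA.ne', Real.log_exp] at h4
  linarith

lemma Av_prod {κ : Type*} (T : Finset κ) (J : κ → Finset V) (f : κ → Cfg n → ℝ)
    (hJ : ∀ p ∈ T, J p ⊆ I) (hf : ∀ p ∈ T, Continuous (f p))
    (hfi : ∀ p ∈ T, ∀ q ∈ T, p ≠ q → Indep (J q) (f p))
    (hG : Continuous G) (hGi : ∀ p ∈ T, Indep (J p) G) (σ : Cfg n) :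
    Av I (fun τ => G τ * ∏ p ∈ T, f p τ) σ
      = Av I (fun τ => G τ * ∏ p ∈ T, Av (J p) (f p) τ) σ := by
  classical
  induction T using Finset.induction_on generalizing G with
  | empty => simp
  | insert p T hp ih =>
    have hfp : Continuous (f p) := hf p (mem_insert_self _ _)
    have h1 := ih (G := fun τ => G τ * f p τ) (fun q hq => hJ q (mem_insert_of_mem hq))
      (fun q hq => hf q (mem_insert_of_mem hq))
      (fun q hq r hr => hfi q (mem_insert_of_mem hq) r (mem_insert_of_mem hr))
      (hG.mul hfp)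
      (fun q hq => (hGi q (mem_insert_of_mem hq)).mul
        (hfi p (mem_insert_self _ _) q (mem_insert_of_mem hq) fun e => hp (e ▸ hq)))
    simp only [prod_insert hp]
    have e1 : (fun τ => G τ * (f p τ * ∏ q ∈ T, f q τ))
        = fun τ => G τ * f p τ * ∏ q ∈ T, f q τ := by
      funext τ; ring
    rw [e1, h1]
    set H : Cfg n → ℝ := fun τ => G τ * ∏ q ∈ T, Av (J q) (f q) τ with hH
    have hHc : Continuous H :=
      hG.mul (continuous_finsetProd T fun q hq => Av_cont (hf q (mem_insert_of_mem hq)))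
    have hHi : Indep (J p) H := by
      refine (hGi p (mem_insert_self _ _)).mul fun y τ => ?_
      refine Finset.prod_congr rfl fun q hq => ?_
      exact (hfi q (mem_insert_of_mem hq) p (mem_insert_self _ _)
        fun e => hp (e ▸ hq)).av (J q) y τ
    have e2 : (fun τ => G τ * f p τ * ∏ q ∈ T, Av (J q) (f q) τ) = fun τ => H τ * f p τ := by
      funext τ; simp only [hH]; ring
    have e3 : (fun τ => G τ * (Av (J p) (f p) τ * ∏ q ∈ T, Av (J q) (f q) τ))
        = Av (J p) fun τ => H τ * f p τ := by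
      funext τ; rw [Av_pull hHi]; simp only [hH]; ring
    have hc : Continuous fun τ => H τ * f p τ := hHc.mul hfp
    rw [e2, e3, Av_tower (hJ p (mem_insert_self _ _)) hc]

end Vale.Agent.P163
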