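import Vale.Agent.P163.Defs

/-! Internal definitions for the proof of P163 (see notes/P163.md). -/

open MeasureTheory Filter Topology Finset

namespace Vale.Agent.P163

abbrev V : Type := ℤ × ℤ
abbrev Euc (n : ℕ) : Type := EuclideanSpace ℝ (Fin n)
/-- Orthogonal maps; a group with `(g * h) z = g (h z)`. -/
abbrev Iso (n : ℕ) : Type := Euc n ≃ₗᵢ[ℝ] Euc n

variable {n : ℕ}

/-- Action of an orthogonal map on the sphere. -/
noncomputable def actS (g : Iso n) (z : Sph n) : Sph n :=
  ⟨g z, by
    have := z.2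
    rw [mem_sphere_zero_iff_norm] at this ⊢
    rw [g.norm_map]; exact this⟩

/-- Site-wise action on configurations. -/
noncomputable def act (g : V → Iso n) (σ : Cfg n) : Cfg n := fun v => actS (g v) (σ v)

@[simp] lemma act_coe (g : V → Iso n) (σ : Cfg n) (v : V) :
    (act g σ v : Euc n) = g v (σ v : Euc n) := rfl

/-- The `l`-th coordinate of the spin at `v`. -/
noncomputable def sc (l : Fin n) (v : V) (σ : Cfg n) : ℝ := (σ v : Euc n) l

/-- Rotation by `θ` in the plane of the coordinates `i`, `j`, as a linear map. -/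
noncomputable def rotL (i j : Fin n) (θ : ℝ) : Euc n →ₗ[ℝ] Euc n where
  toFun z := WithLp.toLp 2 fun l =>
    if l = i then Real.cos θ * z i - Real.sin θ * z j
    else if l = j then Real.sin θ * z i + Real.cos θ * z j else z l
  map_add' x y := by
    ext l
    simp only [PiLp.add_apply]
    split_ifs <;> ring
  map_smul' c x := by
    ext l
    simp only [PiLp.smul_apply, smul_eq_mul, RingHom.id_apply]
    split_ifs <;> ring

lemma rotL_apply (i j : Fin n) (θ : ℝ) (z : Euc n) (l : Fin n) :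
    rotL i j θ z l = if l = i then Real.cos θ * z i - Real.sin θ * z j
      else if l = j then Real.sin θ * z i + Real.cos θ * z j else z l := rfl

lemma sum_split_two {i j : Fin n} (h : i ≠ j) (f : Fin n → ℝ) :
    ∑ l, f l = f i + f j + ∑ l ∈ (univ.erase i).erase j, f l := by
  rw [← Finset.add_sum_erase univ f (mem_univ i),
    ← Finset.add_sum_erase (univ.erase i) f (mem_erase.2 ⟨h.symm, mem_univ j⟩)]
  ring

lemma inner_eq_sum (a b : Euc n) : inner ℝ a b = ∑ l, a l * b l := by
  rw [PiLp.inner_apply]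
  refine Finset.sum_congr rfl fun l _ => ?_
  simp [mul_comm]

lemma rotL_inner {i j : Fin n} (h : i ≠ j) (θ φ : ℝ) (a b : Euc n) :
    inner ℝ (rotL i j θ a) (rotL i j φ b) = inner ℝ a b
      + (Real.cos (θ - φ) - 1) * (a i * b i + a j * b j)
      + Real.sin (θ - φ) * (a i * b j - a j * b i) := by
  rw [inner_eq_sum, inner_eq_sum, sum_split_two h, sum_split_two h (fun l => a l * b l)]
  have : ∑ l ∈ (univ.erase i).erase j, rotL i j θ a l * rotL i j φ b l
      = ∑ l ∈ (univ.erase i).erase j, a l * b l := by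
    refine Finset.sum_congr rfl fun l hl => ?_
    simp only [mem_erase] at hl
    simp [rotL_apply, hl.1, hl.2.1]
  rw [this]
  simp only [rotL_apply, if_true, h.symm, if_false, Real.cos_sub, Real.sin_sub]
  ring

/-- Rotation by `θ` in the plane of the coordinates `i ≠ j`. -/
noncomputable def rot (i j : Fin n) (h : i ≠ j) (θ : ℝ) : Iso n :=
  LinearIsometry.toLinearIsometryEquiv
    ((rotL i j θ).isometryOfInner fun a b => by
      rw [rotL_inner h]; simp) rfl

lemma rot_apply {i j : Fin n} (h : i ≠ j) (θ : ℝ) (z : Euc n) :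
    rot i j h θ z = rotL i j θ z := rfl

/-- The diagonal sign change: coordinates `l` with `ε l = true` change sign. -/
noncomputable def sgn (ε : Fin n → Bool) : Iso n :=
  LinearIsometryEquiv.piLpCongrRight 2 fun l =>
    if ε l then LinearIsometryEquiv.neg ℝ else LinearIsometryEquiv.refl ℝ ℝ

lemma sgn_apply (ε : Fin n → Bool) (z : Euc n) (l : Fin n) :
    sgn ε z l = (if ε l then -1 else 1) * z l := by
  simp only [sgn, LinearIsometryEquiv.piLpCongrRight_apply]
  split_ifs <;> simp

lemma ne01 (m : ℕ) : (0 : Fin (m + 3)) ≠ 1 := by simp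
lemma ne12 (m : ℕ) : (1 : Fin (m + 3)) ≠ 2 := by
  intro h; have := congrArg Fin.val h; simp at this
  rw [Nat.mod_eq_of_lt (by omega)] at this; omega
lemma ne02 (m : ℕ) : (0 : Fin (m + 3)) ≠ 2 := by
  intro h; have := congrArg Fin.val h; simp at this
  rw [Nat.mod_eq_of_lt (by omega)] at this; omega

/-- Rotation in the plane of the coordinates 0, 1. -/
noncomputable def Rz (m : ℕ) (θ : ℝ) : Iso (m + 3) := rot 0 1 (ne01 m) θ
/-- Rotation in the plane of the coordinates 1, 2. -/
noncomputable def Rx (m : ℕ) (θ : ℝ) : Iso (m + 3) := rot 1 2 (ne12 m) θ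

/-- Twist: rotate the spin at `v` by the angle `ψ v` in the 0-1 plane. -/
noncomputable def tw {m : ℕ} (ψ : V → ℝ) (σ : Cfg (m + 3)) : Cfg (m + 3) :=
  act (fun v => Rz m (ψ v)) σ

/-- Average over the spins in `I`, the others being frozen to `σ`. -/
noncomputable def Av (I : Finset V) (F : Cfg n → ℝ) (σ : Cfg n) : ℝ :=
  ∫ y, F (I.piecewise y σ) ∂(ref n)

/-- `F` does not depend on the spins in `I`. -/
def Indep (I : Finset V) (F : Cfg n → ℝ) : Prop := ∀ y σ, F (I.piecewise y σ) = F σ

/-- Right and upper neighbours. -/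
def rt (v : V) : V := (v.1 + 1, v.2)
def up (v : V) : V := (v.1, v.2 + 1)

/-- Energy of the bonds going right and up from the points of `U`. -/
noncomputable def hU (U : Finset V) (σ : Cfg n) : ℝ :=
  ∑ v ∈ U, (dot σ v (rt v) + dot σ v (up v))

/-- The sites touched by the bonds of `U`. -/
def touch (U : Finset V) : Set V := {v | v ∈ U ∨ (v.1 - 1, v.2) ∈ U ∨ (v.1, v.2 - 1) ∈ U}

noncomputable def bw (β : ℝ) (U : Finset V) (σ : Cfg n) : ℝ := Real.exp (β * hU U σ)

/-- Partition function of the region with bonds `U`, free spins `I`, boundary condition `σ`. -/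
noncomputable def Z (β : ℝ) (U I : Finset V) (σ : Cfg n) : ℝ := Av I (bw β U) σ

/-- Gibbs expectation in the region with boundary condition `σ`. -/
noncomputable def Ex (β : ℝ) (U I : Finset V) (F : Cfg n → ℝ) (σ : Cfg n) : ℝ :=
  Av I (fun σ' => bw β U σ' * F σ') σ / Z β U I σ

/-- Second difference of the free energy under the twist `ψ` of the boundary condition. -/
noncomputable def D {m : ℕ} (β : ℝ) (U I : Finset V) (ψ : V → ℝ) (σ : Cfg (m + 3)) : ℝ :=
  2 * Real.log (Z β U I σ) - Real.log (Z β U I (tw ψ σ))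
    - Real.log (Z β U I (tw (fun v => -ψ v) σ))

/-- Squared gradient of `ψ` on the bonds of `U`. -/
noncomputable def grad2 (U : Finset V) (ψ : V → ℝ) : ℝ :=
  ∑ v ∈ U, ((ψ (rt v) - ψ v) ^ 2 + (ψ (up v) - ψ v) ^ 2)

/-- Base points of the bonds of the block with corner `b` and side `s`. -/
noncomputable def bU (b : V) (s : ℕ) : Finset V := Ico b.1 (b.1 + s) ×ˢ Ico b.2 (b.2 + s)
/-- Interior of the block. -/
noncomputable def bI (b : V) (s : ℕ) : Finset V := Ioo b.1 (b.1 + s) ×ˢ Ioo b.2 (b.2 + s)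
/-- The closed block. -/
noncomputable def bC (b : V) (s : ℕ) : Finset V := Icc b.1 (b.1 + s) ×ˢ Icc b.2 (b.2 + s)

/-- Corner of the block number `p` of the grid of mesh `s` based at `b`. -/
def gb (b : V) (s : ℕ) (p : V) : V := (b.1 + s * p.1, b.2 + s * p.2)
/-- Union of the blocks of the grid with index in `T`. -/
noncomputable def gU (T : Finset V) (b : V) (s : ℕ) : Finset V :=
  T.biUnion fun p => bU (gb b s p) s

/-- A coordinate of a site. -/
def co (d : Bool) (v : V) : ℤ := if d then v.1 else v.2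

/-- Stiffness at scale `3 ^ k` is at most `c`. -/
def Kap (m : ℕ) (β : ℝ) (k : ℕ) (c : ℝ) : Prop :=
  ∀ (b : V) (d : Bool) (i : ℕ), k ≤ i → ∀ σ : Cfg (m + 3),
    D β (bU b (3 ^ k)) (bI b (3 ^ k)) (fun v => Real.pi / 3 ^ i * (co d v : ℝ)) σ
      ≤ c * (Real.pi / 3 ^ i) ^ 2 * 9 ^ k

/-- Base points of the bonds of the annulus between the block `(b, 3w)` and its centre. -/
noncomputable def annU (b : V) (w : ℕ) : Finset V := bU b (3 * w) \ bU (gb b w (1, 1)) w
/-- Free spins of the annulus. -/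
noncomputable def annI (b : V) (w : ℕ) : Finset V := bI b (3 * w) \ bC (gb b w (1, 1)) w
/-- Distance to the outside of the block `(b, 3w)`, cut off at `w`. -/
def annA (b : V) (w : ℕ) (v : V) : ℤ :=
  max 0 (min w (min (min (v.1 - b.1) (b.1 + 3 * w - v.1)) (min (v.2 - b.2) (b.2 + 3 * w - v.2))))

/-! ### Ising model with spins encoded by the set of minus sites -/

section Ising
variable {ι : Type} [DecidableEq ι]

/-- The spin at `v` of the configuration whose minus sites are `A`. -/
def sp (A : Finset ι) (v : ι) : ℝ := if v ∈ A then -1 else 1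

/-- High-temperature form of the Ising weight. -/
noncomputable def W (t : ι × ι → ℝ) (G : Finset (ι × ι)) (A : Finset ι) : ℝ :=
  ∏ e ∈ G, (1 + t e * (sp A e.1 * sp A e.2))

noncomputable def ZI (Λ : Finset ι) (t : ι × ι → ℝ) (G : Finset (ι × ι)) (f : Finset ι → ℝ) : ℝ :=
  ∑ A ∈ Λ.powerset, f A * W t G A

/-- Two-point function. -/
noncomputable def corr (Λ : Finset ι) (t : ι × ι → ℝ) (G : Finset (ι × ι)) (x y : ι) : ℝ :=
  ZI Λ t G (fun A => sp A x * sp A y) / ZI Λ t G (fun _ => 1)

/-- Characters of the group of finite sets under symmetric difference. -/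
def Ch (χ : Finset ι → ℝ) : Prop :=
  (∀ A B, χ (symmDiff A B) = χ A * χ B) ∧ ∀ A, χ A = 1 ∨ χ A = -1

open Classical in
/-- Induced subgraph. -/
noncomputable def ind (G : Finset (ι × ι)) (S : Set ι) : Finset (ι × ι) :=
  G.filter fun e => e.1 ∈ S ∧ e.2 ∈ S

open Classical in
/-- Edges with exactly one endpoint in `S`. -/
noncomputable def cross (G : Finset (ι × ι)) (S : Set ι) : Finset (ι × ι) :=
  G.filter fun e => ¬ (e.1 ∈ S ↔ e.2 ∈ S)

open Classical in
/-- Endpoint in `S` of a crossing edge. -/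
noncomputable def inE (S : Set ι) (e : ι × ι) : ι := if e.1 ∈ S then e.1 else e.2

open Classical in
/-- Endpoint outside `S` of a crossing edge. -/
noncomputable def outE (S : Set ι) (e : ι × ι) : ι := if e.1 ∈ S then e.2 else e.1

end Ising

/-- `tanh J`. -/
noncomputable def tJ (J : ℝ) : ℝ := (1 - Real.exp (-2 * J)) / (1 + Real.exp (-2 * J))

/-- Absolute value of the coordinate 0 of the spin at `v`. -/
noncomputable def ab {m : ℕ} (σ : Cfg (m + 3)) (v : V) : ℝ := |sc 0 v σ|

/-- Couplings of the embedded Ising model. -/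
noncomputable def tt {m : ℕ} (β : ℝ) (σ : Cfg (m + 3)) (e : V × V) : ℝ :=
  tJ (β * (ab σ e.1 * ab σ e.2))

/-- `Ψ` depends only on the absolute values of the coordinate 0 of the spins in `S`. -/
def AbsDep {m : ℕ} (Ψ : Cfg (m + 3) → ℝ) (S : Set V) : Prop :=
  ∀ σ σ' : Cfg (m + 3), (∀ v ∈ S, ab σ v = ab σ' v) → Ψ σ = Ψ σ'

/-- `v` is at sup-distance at most `r` from `x`. -/
def near (x : V) (r : ℕ) (v : V) : Prop :=
  x.1 - r ≤ v.1 ∧ v.1 ≤ x.1 + r ∧ x.2 - r ≤ v.2 ∧ v.2 ≤ x.2 + r

/-- Near `x` the bond set `E` is the nearest-neighbour lattice. -/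
def Good (E : Finset (V × V)) (x : V) (r : ℕ) : Prop :=
  ∀ e : V × V, (near x r e.1 ∨ near x r e.2) → (e ∈ E ↔ (e.2 = rt e.1 ∨ e.2 = up e.1))

/-- Uniform bound on the magnetization at the point `(h, h)` of a block of side `s`. -/
def MagBd (m : ℕ) (β : ℝ) (s h : ℕ) (η : ℝ) : Prop :=
  ∀ (x : V) (σ : Cfg (m + 3)),
    |Ex β (bU (x.1 - h, x.2 - h) s) (bI (x.1 - h, x.2 - h) s) (sc 0 x) σ| ≤ η

end Vale.Agent.P163
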