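import Vale.Agent.P163.Rot

/-! P163, file Meas: the reference measure.
Plan: `unif_prob`: `toSphere` is finite and nonzero (`Measure.toSphere_ne_zero`, `Nontrivial`).
`unif_inv`: for measurable `s`, `Measure.toSphere_apply'` expresses the measure through the volume
of the cone `Ioo 0 1 • (Subtype.val '' s)`; the cone of `actS g ⁻¹' s` is the preimage under `g`
of the cone of `s`; `g.measurePreserving` with the measurable equivalence
(`MeasurePreserving.measure_preimage_equiv` or `measure_preimage_emb`, `g.toHomeomorph`), so that
no measurability of the cone is needed.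
`ref_inv`: `Measure.infinitePi_map_pi`.
`ref_piecewise`: `Measure.eq_infinitePi`; the preimage of a box `Set.pi s t` is the product of the
box over `s.filter (· ∉ J)` and the box over `s.filter (· ∈ J)`; `Measure.prod_prod`,
`Measure.infinitePi_pi`, `Finset.prod_filter_mul_prod_filter_not`.
`integrable_cont`: continuous on a compact space (`Continuous.integrable_of_hasCompactSupport`,
`HasCompactSupport.of_compactSpace`). `integral_Av`: `integral_prod` + `ref_piecewise`
(`MeasurePreserving.integral_comp'`-like via `integral_map`). -/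

open MeasureTheory Filter Topology Finset

namespace Vale.Agent.P163

variable {n : ℕ}

instance unif_prob [NeZero n] : IsProbabilityMeasure (unif n) := by
  have : NeZero (volume : Measure (Euc n)).toSphere := ⟨Measure.toSphere_ne_zero _⟩
  unfold unif
  infer_instance

instance ref_prob [NeZero n] : IsProbabilityMeasure (ref n) := by
  unfold ref; infer_instance

open scoped Pointwise in
lemma unif_inv (g : Iso n) : MeasurePreserving (actS g) (unif n) (unif n) := by
  refine MeasurePreserving.smul_measure ⟨(continuous_actS g).measurable, ?_⟩ _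
  ext s hs
  rw [Measure.map_apply (continuous_actS g).measurable hs, Measure.toSphere_apply' _ hs,
    Measure.toSphere_apply' _ ((continuous_actS g).measurable hs),
    ← g.measurePreserving.measure_preimage_emb g.toHomeomorph.measurableEmbedding
      (Set.Ioo (0 : ℝ) 1 • Subtype.val '' s)]
  congr 2
  ext z
  constructor
  · rintro ⟨r, hr, _, ⟨y, hy, rfl⟩, rfl⟩
    exact ⟨r, hr, _, ⟨_, hy, rfl⟩, (g.map_smul r y).symm⟩
  · rintro ⟨r, hr, _, ⟨y, hy, rfl⟩, h⟩
    refine ⟨r, hr, _, ⟨actS g.symm y, ?_, rfl⟩, g.injective ?_⟩
    · simpa [actS] using hy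
    · simpa [actS] using h

lemma ref_inv [NeZero n] (g : V → Iso n) : MeasurePreserving (act g) (ref n) (ref n) := by
  refine ⟨(continuous_act g).measurable, ?_⟩
  have := Measure.infinitePi_map_pi (fun _ : V => unif n) (f := fun v => actS (g v))
    fun v => (continuous_actS _).measurable
  simp only [(unif_inv _).map_eq] at this
  exact this

lemma integrable_cont [NeZero n] {F : Cfg n → ℝ} (hF : Continuous F) : Integrable F (ref n) := by
  exact hF.integrable_of_hasCompactSupport (HasCompactSupport.of_compactSpace _)

lemma integral_act [NeZero n] (g : V → Iso n) {F : Cfg n → ℝ} (hF : Continuous F) :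
    ∫ σ, F (act g σ) ∂(ref n) = ∫ σ, F σ ∂(ref n) := by
  rw [← integral_map (ref_inv g).aemeasurable hF.aestronglyMeasurable, (ref_inv g).map_eq]

lemma continuous_piecewise (J : Finset V) :
    Continuous fun p : Cfg n × Cfg n => J.piecewise p.2 p.1 := by
  refine continuous_pi fun v => ?_
  by_cases h : v ∈ J <;> simp only [Finset.piecewise, h, if_true, if_false] <;> fun_prop

lemma ref_piecewise [NeZero n] (J : Finset V) :
    MeasurePreserving (fun p : Cfg n × Cfg n => J.piecewise p.2 p.1)
      ((ref n).prod (ref n)) (ref n) := by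
  refine ⟨(continuous_piecewise J).measurable, Measure.eq_infinitePi _ fun s t ht => ?_⟩
  have e : (fun p : Cfg n × Cfg n => J.piecewise p.2 p.1) ⁻¹' Set.pi s t =
      Set.pi (s.filter (· ∉ J)) t ×ˢ Set.pi (s.filter (· ∈ J)) t := by
    ext p
    simp only [Set.mem_preimage, Set.mem_pi, Set.mem_prod, mem_coe, mem_filter]
    refine ⟨fun h => ⟨fun v hv => ?_, fun v hv => ?_⟩, fun h v hv => ?_⟩
    · simpa [hv.2] using h v hv.1
    · simpa [hv.2] using h v hv.1
    · by_cases h' : v ∈ J
      · simpa [h'] using h.2 v ⟨hv, h'⟩
      · simpa [h'] using h.1 v ⟨hv, h'⟩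
  rw [Measure.map_apply (continuous_piecewise J).measurable
    (MeasurableSet.pi s.countable_toSet fun v _ => ht v), e, Measure.prod_prod, ref,
    Measure.infinitePi_pi _ fun v _ => ht v, Measure.infinitePi_pi _ fun v _ => ht v, mul_comm,
    prod_filter_mul_prod_filter_not]

lemma integral_Av [NeZero n] (J : Finset V) {F : Cfg n → ℝ} (hF : Continuous F) :
    ∫ σ, Av J F σ ∂(ref n) = ∫ σ, F σ ∂(ref n) := by
  have h := (ref_piecewise J).integrable_comp_of_integrable (integrable_cont hF)
  refine (integral_prod _ h).symm.trans ?_
  conv_rhs => rw [← (ref_piecewise J).map_eq,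
    integral_map (ref_piecewise J).aemeasurable hF.aestronglyMeasurable]
  rfl

lemma integral_pos_cont [NeZero n] {F : Cfg n → ℝ} (hF : Continuous F) (h : ∀ σ, 0 < F σ) :
    0 < ∫ σ, F σ ∂(ref n) := by
  rw [integral_pos_iff_support_of_nonneg (fun σ => (h σ).le) (integrable_cont hF),
    Function.support_eq_univ fun σ => (h σ).ne']
  simp

end Vale.Agent.P163
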