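import Vale.Agent.P163.Ising
import Vale.Agent.P163.Meas

/-! P163, file Embed: the Ising model embedded in the signs of the coordinate 0.
Plan: `flp A` changes the sign of the coordinate 0 at the sites of `A`:
`sc 0 v (flp A σ) = sp A v * sc 0 v σ`, other coordinates unchanged (`sgn_apply`), so
`dot (flp A σ) x y = dot σ x y + (sp A x * sp A y - 1) * (sc 0 x σ * sc 0 y σ)` (`dot_eq_sum`,
`Fin.sum_univ_succ`). `exp_sp`: check `s = 1` and `s = -1`.
`sum_flp`: let `B = Λ.filter (sc 0 · σ < 0)`, so `sc 0 v σ = sp B v * ab σ v` on `Λ`. Then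
`weight (flp A σ) = K * W (tt β σ) E (symmDiff A B)` with
`K = ∏ e ∈ E, exp (β (dot - sc sc)) * (exp J + exp (-J)) / 2`, `J = β * (ab * ab)`
(`Real.exp_sum`, `exp_sp`, `sp_symmDiff`); `sum_shift` turns both sums into `ZI`s;
`ZI_one_pos` and the definition of `corr`.
`embed`: by `integral_act`, `∫ F = ∫ F ∘ flp A` for every `A`; sum over `A ∈ Λ.powerset`
(`integral_finset_sum`, `integrable_cont`), use `sum_flp` and the invariance of `ab`, `tt`, `Ψ`
under `flp A`, cancel the factor `card Λ.powerset`. -/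

open MeasureTheory Filter Topology Finset

namespace Vale.Agent.P163

variable {m : ℕ} {β : ℝ}

lemma tJ_nonneg {J : ℝ} (hJ : 0 ≤ J) : 0 ≤ tJ J := by
  have h : Real.exp (-2 * J) ≤ 1 := Real.exp_le_one_iff.2 (by linarith)
  exact div_nonneg (by linarith) (by positivity)

lemma tJ_le_one (J : ℝ) : tJ J ≤ 1 := by
  have h := Real.exp_pos (-2 * J)
  rw [tJ, div_le_one (by linarith)]
  linarith

lemma tJ_le {J : ℝ} (hJ : 0 ≤ J) : tJ J ≤ 2 * J := by
  have h := Real.exp_pos (-2 * J)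
  have h1 := Real.add_one_le_exp (-2 * J)
  rw [tJ, div_le_iff₀ (by linarith)]
  nlinarith

lemma continuous_tJ : Continuous tJ := by
  unfold tJ
  exact Continuous.div (by fun_prop) (by fun_prop) fun J => by positivity

lemma exp_sp (J s : ℝ) (hs : s = 1 ∨ s = -1) :
    Real.exp (J * s) = (Real.exp J + Real.exp (-J)) / 2 * (1 + tJ J * s) := by
  have h1 : Real.exp (-2 * J) = Real.exp (-J) * Real.exp (-J) := by
    rw [← Real.exp_add]; ring_nf
  have h2 : Real.exp J * Real.exp (-J) = 1 := by rw [← Real.exp_add]; simp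
  have h3 : 0 < Real.exp (-J) := Real.exp_pos _
  unfold tJ
  rw [h1]
  rcases hs with rfl | rfl
  · rw [mul_one]
    field_simp
    linear_combination (2 * Real.exp (-J)) * h2
  · rw [mul_neg_one]
    field_simp
    linear_combination (-2 * Real.exp (-J)) * h2

lemma ab_nonneg (σ : Cfg (m + 3)) (v : V) : 0 ≤ ab σ v := by
  exact abs_nonneg _

lemma ab_le_one (σ : Cfg (m + 3)) (v : V) : ab σ v ≤ 1 := by
  exact abs_sc_le 0 v σ

lemma continuous_ab (v : V) : Continuous fun σ : Cfg (m + 3) => ab σ v := by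
  exact (continuous_sc 0 v).abs

lemma tt_mem (hβ : 0 ≤ β) (σ : Cfg (m + 3)) (e : V × V) : 0 ≤ tt β σ e ∧ tt β σ e ≤ 1 := by
  exact ⟨tJ_nonneg (mul_nonneg hβ (mul_nonneg (ab_nonneg _ _) (ab_nonneg _ _))), tJ_le_one _⟩

lemma tt_le (hβ : 0 ≤ β) (σ : Cfg (m + 3)) (e : V × V) :
    tt β σ e ≤ 2 * β * ab σ e.1 ∧ tt β σ e ≤ 2 * β * ab σ e.2 := by
  have h := tJ_le (mul_nonneg hβ (mul_nonneg (ab_nonneg σ e.1) (ab_nonneg σ e.2)))
  have h1 := mul_le_mul_of_nonneg_left (ab_le_one σ e.2) (mul_nonneg hβ (ab_nonneg σ e.1))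
  have h2 := mul_le_mul_of_nonneg_left (ab_le_one σ e.1) (mul_nonneg hβ (ab_nonneg σ e.2))
  unfold tt
  constructor <;> linarith

lemma continuous_corr (hβ : 0 ≤ β) (Λ : Finset V) (G : Finset (V × V)) (x y : V) :
    Continuous fun σ : Cfg (m + 3) => corr Λ (tt β σ) G x y := by
  have hZ : ∀ f, Continuous fun σ : Cfg (m + 3) => ZI Λ (tt β σ) G f := fun f =>
    continuous_finsetSum _ fun A _ => continuous_const.mul (continuous_finsetProd _ fun e _ =>
      continuous_const.add ((continuous_tJ.comp (continuous_const.mul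
        ((continuous_ab e.1).mul (continuous_ab e.2)))).mul continuous_const))
  exact (hZ _).div (hZ _) fun σ => (ZI_one_pos fun e _ => (tt_mem hβ σ e).1).ne'

/-- Flip the coordinate 0 at the sites of `A`. -/
noncomputable def flp (A : Finset V) (σ : Cfg (m + 3)) : Cfg (m + 3) :=
  act (fun v => sgn fun l => decide (l = 0 ∧ v ∈ A)) σ

lemma sc_flp (A : Finset V) (σ : Cfg (m + 3)) (v : V) :
    sc 0 v (flp A σ) = sp A v * sc 0 v σ := by
  simp only [sc, flp, act_coe, sgn_apply, sp, true_and, decide_eq_true_eq]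

lemma ab_flp (A : Finset V) (σ : Cfg (m + 3)) (v : V) : ab (flp A σ) v = ab σ v := by
  unfold ab
  rw [sc_flp, abs_mul]
  rcases (ch_sp v).2 A with h | h <;> simp only [h] <;> simp

lemma dot_flp (A : Finset V) (σ : Cfg (m + 3)) (x y : V) :
    dot (flp A σ) x y = dot σ x y + (sp A x * sp A y - 1) * (sc 0 x σ * sc 0 y σ) := by
  rw [dot_eq_sum, dot_eq_sum, Fin.sum_univ_succ, Fin.sum_univ_succ (n := m + 2), sc_flp, sc_flp]
  have h : ∀ (l : Fin (m + 2)) v, sc l.succ v (flp A σ) = sc l.succ v σ := fun l v => by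
    simp [sc, flp, sgn_apply]
  simp only [h]
  ring

lemma sum_flp (hβ : 0 ≤ β) {Λ : Finset V} {E : Finset (V × V)}
    (hE : ∀ e ∈ E, e.1 ∈ Λ ∧ e.2 ∈ Λ) {x y : V} (hx : x ∈ Λ) (hy : y ∈ Λ) (σ : Cfg (m + 3)) :
    ∑ A ∈ Λ.powerset, weight β E (flp A σ) * (sc 0 x (flp A σ) * sc 0 y (flp A σ))
      = ab σ x * ab σ y * corr Λ (tt β σ) E x y * ∑ A ∈ Λ.powerset, weight β E (flp A σ) := by
  set B : Finset V := Λ.filter fun v => sc 0 v σ < 0 with hB
  have hBΛ : B ⊆ Λ := filter_subset _ _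
  have hs : ∀ v ∈ Λ, sc 0 v σ = sp B v * ab σ v := fun v hv => by
    unfold sp ab
    by_cases h : sc 0 v σ < 0
    · rw [if_pos (mem_filter.2 ⟨hv, h⟩), abs_of_neg h]; ring
    · rw [if_neg fun h' : v ∈ B => h (mem_filter.1 h').2, abs_of_nonneg (not_lt.1 h)]; ring
  set K : ℝ := ∏ e ∈ E, Real.exp (β * (dot σ e.1 e.2 - sc 0 e.1 σ * sc 0 e.2 σ)) *
    ((Real.exp (β * (ab σ e.1 * ab σ e.2)) + Real.exp (-(β * (ab σ e.1 * ab σ e.2)))) / 2)
    with hK
  have hw : ∀ A, weight β E (flp A σ) = K * W (tt β σ) E (symmDiff A B) := fun A => by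
    rw [weight, Finset.mul_sum, Real.exp_sum, hK, W, ← Finset.prod_mul_distrib]
    refine Finset.prod_congr rfl fun e he => ?_
    have hq : sp (symmDiff A B) e.1 * sp (symmDiff A B) e.2 = 1 ∨
        sp (symmDiff A B) e.1 * sp (symmDiff A B) e.2 = -1 := ((ch_sp e.1).mul (ch_sp e.2)).2 _
    rw [mul_assoc, tt, ← exp_sp _ _ hq, ← Real.exp_add, dot_flp,
      sp_symmDiff, sp_symmDiff, hs _ (hE e he).1, hs _ (hE e he).2]
    congr 1
    ring
  have h1 : ∑ A ∈ Λ.powerset, weight β E (flp A σ) = K * ZI Λ (tt β σ) E fun _ => 1 := by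
    simp only [hw]
    rw [sum_shift hBΛ fun A => K * W (tt β σ) E A, ZI, Finset.mul_sum]
    simp only [one_mul]
  have h2 : ∑ A ∈ Λ.powerset, weight β E (flp A σ) * (sc 0 x (flp A σ) * sc 0 y (flp A σ)) =
      ab σ x * ab σ y * K * ZI Λ (tt β σ) E fun A => sp A x * sp A y := by
    rw [ZI, ← sum_shift hBΛ fun A => sp A x * sp A y * W (tt β σ) E A, Finset.mul_sum]
    refine Finset.sum_congr rfl fun A _ => ?_
    rw [hw, sc_flp, sc_flp, hs x hx, hs y hy, sp_symmDiff, sp_symmDiff]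
    ring
  have hp := (ZI_one_pos (Λ := Λ) fun e (_ : e ∈ E) => (tt_mem hβ σ e).1).ne'
  rw [h1, h2, corr]
  field_simp

theorem embed (hβ : 0 ≤ β) {Λ : Finset V} {E : Finset (V × V)}
    (hE : ∀ e ∈ E, e.1 ∈ Λ ∧ e.2 ∈ Λ) {x y : V} (hx : x ∈ Λ) (hy : y ∈ Λ)
    {Ψ : Cfg (m + 3) → ℝ} (hΨ : Continuous Ψ) (hΨd : AbsDep Ψ Set.univ) :
    ∫ σ, weight β E σ * (sc 0 x σ * sc 0 y σ * Ψ σ) ∂(ref (m + 3))
      = ∫ σ, weight β E σ * (ab σ x * ab σ y * corr Λ (tt β σ) E x y * Ψ σ) ∂(ref (m + 3)) := by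
  have hav : ∀ {F : Cfg (m + 3) → ℝ}, Continuous F →
      ∫ σ, ∑ A ∈ Λ.powerset, F (flp A σ) ∂(ref (m + 3)) =
        (Λ.powerset.card : ℝ) * ∫ σ, F σ ∂(ref (m + 3)) := fun {F} hF => by
    rw [integral_finsetSum (f := fun A σ => F (flp A σ)) _ fun A _ =>
      integrable_cont (hF.comp (continuous_act _))]
    simp only [flp, integral_act _ hF, Finset.sum_const, nsmul_eq_mul]
  have hc : (Λ.powerset.card : ℝ) ≠ 0 := by
    rw [Finset.card_powerset]; positivity
  refine mul_left_cancel₀ hc ?_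
  rw [← hav (F := fun σ => weight β E σ * (sc 0 x σ * sc 0 y σ * Ψ σ))
      ((continuous_weight β E).mul (((continuous_sc 0 x).mul (continuous_sc 0 y)).mul hΨ)),
    ← hav (F := fun σ => weight β E σ * (ab σ x * ab σ y * corr Λ (tt β σ) E x y * Ψ σ))
      ((continuous_weight β E).mul ((((continuous_ab x).mul (continuous_ab y)).mul
      (continuous_corr hβ Λ E x y)).mul hΨ))]
  refine integral_congr_ae (Eventually.of_forall fun σ => ?_)
  have h1 : ∀ A, Ψ (flp A σ) = Ψ σ := fun A => hΨd _ _ fun v _ => ab_flp A σ v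
  have h2 : ∀ A, tt β (flp A σ) = tt β σ := fun A => funext fun e => by simp only [tt, ab_flp]
  simp only [h1, h2, ab_flp, ← mul_assoc]
  rw [← Finset.sum_mul, ← Finset.sum_mul, ← Finset.sum_mul, ← Finset.sum_mul, ← Finset.sum_mul]
  congr 1
  have h3 := sum_flp hβ hE hx hy σ
  simp only [← mul_assoc] at h3
  rw [h3]
  ring

end Vale.Agent.P163
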