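import Vale.Agent.P163.Ising

/-! P163, file SL: the Simon-Lieb inequality.
Plan: write `Z_G (u v) = ZI Λ t G (fun A => sp A u * sp A v)`. Prove the unnormalized form
`sl_aux` by strong induction on `G.card` (generalizing `x`).
If no edge of `G` contains `x`: `Z_G (x y) = 0` (`ZI_isolated`: `sum_shift` with `B = {x}`,
`x ≠ y` as `x ∈ S`, `y ∉ S`), and the right side is nonnegative (`gks1`, `corr_nonneg`).
Otherwise `G = insert e G'` with `e = (x, z)` or `(z, x)`, and `ZI_insert`, `sp_mul_self` give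
`Z_G (x y) = Z_G' (x y) + t e * Z_G' (z y)`; also `Z_G' (u v) ≤ Z_G (u v)` (`ZI_insert`, `gks1`).
Case `z ∉ S`: `ind G S = ind G' S`, `cross G S = insert e (cross G' S)`, `inE S e = x`,
`outE S e = z`, `corr_self`; use the hypothesis for `(G', x)`.
Case `z ∈ S`: `cross G S = cross G' S`, `ind G S = insert e (ind G' S)`; use the hypothesis for
`(G', x)` and `(G', z)`; with `H' = ind G' S`, `H = insert e H'`:
`corr H' x u + t e * corr H' z u = Z_H (x u) / Z_H' 1 = corr H x u * (Z_H 1 / Z_H' 1)` and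
`(Z_H 1 / Z_H' 1) * Z_G' (v y) ≤ Z_G (v y)`, because
`Z_H 1 / Z_H' 1 = 1 + t e * (Z_H' (s e) / Z_H' 1) ≤ 1 + t e * (Z_G' (s e) / Z_G' 1)`
(`gks_mono`) and `Z_G' (v y) * Z_G' (s e) ≤ Z_G' (v y s e) * Z_G' 1` (`gks2`). -/

open Finset

namespace Vale.Agent.P163

variable {ι : Type} [DecidableEq ι] {Λ : Finset ι} {t : ι × ι → ℝ} {G : Finset (ι × ι)}

lemma mem_ind {S : Set ι} {e : ι × ι} : e ∈ ind G S ↔ e ∈ G ∧ e.1 ∈ S ∧ e.2 ∈ S := by
  simp [ind]

lemma mem_cross {S : Set ι} {e : ι × ι} : e ∈ cross G S ↔ e ∈ G ∧ ¬ (e.1 ∈ S ↔ e.2 ∈ S) := by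
  simp only [cross, Finset.mem_filter]

lemma ind_subset (G : Finset (ι × ι)) (S : Set ι) : ind G S ⊆ G := by
  exact fun _ he => (mem_ind.1 he).1

lemma cross_cases {S : Set ι} {e : ι × ι} (he : e ∈ cross G S) :
    e ∈ G ∧ inE S e ∈ S ∧ outE S e ∉ S ∧
      ((inE S e = e.1 ∧ outE S e = e.2) ∨ (inE S e = e.2 ∧ outE S e = e.1)) := by
  obtain ⟨h1, h2⟩ := mem_cross.1 he
  unfold inE outE
  by_cases h : e.1 ∈ S
  · rw [if_pos h, if_pos h]
    exact ⟨h1, h, fun h' => h2 (iff_of_true h h'), Or.inl ⟨rfl, rfl⟩⟩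
  · rw [if_neg h, if_neg h]
    exact ⟨h1, not_not.1 fun h' => h2 (iff_of_false h h'), h, Or.inr ⟨rfl, rfl⟩⟩

lemma ZI_isolated {x y : ι} (hx : x ∈ Λ) (hxy : x ≠ y) (h : ∀ e ∈ G, e.1 ≠ x ∧ e.2 ≠ x) :
    ZI Λ t G (fun A => sp A x * sp A y) = 0 := by
  have hs : ∀ v, v ≠ x → sp ({x} : Finset ι) v = 1 := fun v hv => by simp [sp, hv]
  have hx1 : sp ({x} : Finset ι) x = -1 := by simp [sp]
  have h1 := sum_shift (singleton_subset_iff.2 hx) fun A => sp A x * sp A y * W t G A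
  have h2 : ∀ A, W t G (symmDiff A {x}) = W t G A := fun A =>
    Finset.prod_congr rfl fun e he => by
      rw [sp_symmDiff, sp_symmDiff, hs _ (h e he).1, hs _ (h e he).2, mul_one, mul_one]
  simp only [h2, sp_symmDiff, hx1, hs y hxy.symm, mul_one, mul_neg, neg_mul,
    Finset.sum_neg_distrib] at h1
  unfold ZI
  linarith

lemma sl_step {H : Finset (ι × ι)} {e : ι × ι} {χ : Finset ι → ℝ} (he : e ∉ G)
    (ht : ∀ e' ∈ insert e G, 0 ≤ t e' ∧ t e' ≤ 1) (hH : H ⊆ G) (h : Ch χ) :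
    ZI Λ t (insert e H) (fun _ => 1) * ZI Λ t G χ ≤
      ZI Λ t H (fun _ => 1) * ZI Λ t (insert e G) χ := by
  have ht' := fun e' he' => ht e' (mem_insert_of_mem he')
  have hs := (ch_sp e.1).mul (ch_sp e.2)
  have p1 := ZI_one_pos (Λ := Λ) fun e' he' => (ht' e' (hH he')).1
  have p2 := ZI_one_pos (Λ := Λ) fun e' he' => (ht' e' he').1
  have h1 := (div_le_div_iff₀ p1 p2).1 (gks_mono ht' hH hs)
  have h2 := gks2 (Λ := Λ) ht' h hs
  have h3 := gks1 (Λ := Λ) (fun e' he' => (ht' e' he').1) h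
  have h4 : ZI Λ t H (fun A => sp A e.1 * sp A e.2) * ZI Λ t G χ ≤
      ZI Λ t H (fun _ => 1) * ZI Λ t G fun A => χ A * (sp A e.1 * sp A e.2) := by
    refine le_of_mul_le_mul_right ?_ p2
    linarith [mul_le_mul_of_nonneg_left h1 h3, mul_le_mul_of_nonneg_left h2 p1.le]
  rw [ZI_insert fun h' => he (hH h'), ZI_insert he]
  simp only [one_mul]
  linarith [mul_le_mul_of_nonneg_left h4 (ht e (mem_insert_self _ _)).1]

theorem sl_aux (S : Set ι) {y : ι} (hy : y ∉ S) (G : Finset (ι × ι))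
    (ht : ∀ e ∈ G, 0 ≤ t e ∧ t e ≤ 1) (hG : ∀ e ∈ G, e.1 ∈ Λ ∧ e.2 ∈ Λ) (x : ι) (hx : x ∈ S)
    (hxΛ : x ∈ Λ) :
    ZI Λ t G (fun A => sp A x * sp A y) ≤ ∑ e ∈ cross G S,
      t e * (corr Λ t (ind G S) x (inE S e) * ZI Λ t G fun A => sp A (outE S e) * sp A y) := by
  induction hn : G.card using Nat.strong_induction_on generalizing G x with
  | _ n ih =>
  have ht0 := fun e he => (ht e he).1
  by_cases hex : ∃ e ∈ G, e.1 = x ∨ e.2 = x
  swap
  · rw [ZI_isolated hxΛ (fun h : x = y => hy (h ▸ hx)) fun e he =>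
      ⟨fun h => hex ⟨e, he, Or.inl h⟩, fun h => hex ⟨e, he, Or.inr h⟩⟩]
    exact Finset.sum_nonneg fun e he => mul_nonneg (ht0 e (mem_cross.1 he).1)
      (mul_nonneg (corr_nonneg (fun e' he' => ht0 e' (ind_subset G S he')) _ _)
        (gks1 ht0 ((ch_sp _).mul (ch_sp _))))
  obtain ⟨e, heG, hex⟩ := hex
  obtain ⟨z, hz⟩ : ∃ z, (e.1 = x ∧ e.2 = z) ∨ (e.1 = z ∧ e.2 = x) :=
    hex.elim (fun h => ⟨e.2, Or.inl ⟨h, rfl⟩⟩) fun h => ⟨e.1, Or.inr ⟨rfl, h⟩⟩
  obtain ⟨G', he, rfl⟩ : ∃ G', e ∉ G' ∧ G = insert e G' :=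
    ⟨G.erase e, notMem_erase e G, (insert_erase heG).symm⟩
  have ht' := fun e' he' => ht e' (mem_insert_of_mem he')
  have hte := ht0 e heG
  have hzΛ : z ∈ Λ := hz.elim (fun h => h.2 ▸ (hG e heG).2) fun h => h.1 ▸ (hG e heG).1
  have IH := fun w hw hwΛ => ih G'.card (by rw [← hn, card_insert_of_notMem he]; omega) G' ht'
    (fun e' he' => hG e' (mem_insert_of_mem he')) w hw hwΛ rfl
  have hins : ∀ H : Finset (ι × ι), e ∉ H → ∀ u,
      ZI Λ t (insert e H) (fun A => sp A x * sp A u) = ZI Λ t H (fun A => sp A x * sp A u) +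
        t e * ZI Λ t H fun A => sp A z * sp A u := fun H hH u => by
    rw [ZI_insert hH]
    congr 3
    funext A
    rcases hz with h | h <;> rw [h.1, h.2] <;>
      linear_combination (sp A z * sp A u) * sp_mul_self A x
  have hmono : ∀ u v, ZI Λ t G' (fun A => sp A u * sp A v) ≤
      ZI Λ t (insert e G') fun A => sp A u * sp A v := fun u v => by
    rw [ZI_insert he]
    exact le_add_of_nonneg_right (mul_nonneg hte (gks1 (fun e' he' => (ht' e' he').1)
      (((ch_sp u).mul (ch_sp v)).mul ((ch_sp _).mul (ch_sp _)))))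
  have htH : ∀ e' ∈ ind G' S, 0 ≤ t e' := fun e' he' => (ht' e' (ind_subset G' S he')).1
  rw [hins G' he]
  by_cases hzS : z ∈ S
  · have h12 : e.1 ∈ S ∧ e.2 ∈ S := by rcases hz with h | h <;> rw [h.1, h.2] <;> simp [hx, hzS]
    have hc : cross (insert e G') S = cross G' S := Finset.ext fun e' => by
      rw [mem_cross, mem_cross, mem_insert]
      exact ⟨fun h => ⟨h.1.resolve_left fun h' => h.2 (h' ▸ iff_of_true h12.1 h12.2), h.2⟩,
        fun h => ⟨Or.inr h.1, h.2⟩⟩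
    have hi : ind (insert e G') S = insert e (ind G' S) := Finset.ext fun e' => by
      rw [mem_ind, mem_insert, mem_insert, mem_ind]
      exact ⟨fun h => h.1.imp id fun h' => ⟨h', h.2⟩,
        fun h => h.elim (fun h' => ⟨Or.inl h', h' ▸ h12⟩) fun h' => ⟨Or.inr h'.1, h'.2⟩⟩
    have heH : e ∉ ind G' S := fun h => he (ind_subset G' S h)
    rw [hc, hi]
    refine (add_le_add (IH x hx hxΛ) (mul_le_mul_of_nonneg_left (IH z hzS hzΛ) hte)).trans ?_
    rw [Finset.mul_sum, ← Finset.sum_add_distrib]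
    refine Finset.sum_le_sum fun e' he' => ?_
    have htI : ∀ e' ∈ insert e (ind G' S), 0 ≤ t e' := fun e' he' =>
      ht0 e' (insert_subset_insert e (ind_subset G' S) he')
    have p1 := ZI_one_pos (Λ := Λ) htH
    have p2 := ZI_one_pos (Λ := Λ) htI
    have h1 := sl_step (Λ := Λ) he ht (ind_subset G' S) ((ch_sp (outE S e')).mul (ch_sp y))
    have h2 := gks1 (Λ := Λ) htI ((ch_sp x).mul (ch_sp (inE S e')))
    have h3 : (corr Λ t (ind G' S) x (inE S e') + t e * corr Λ t (ind G' S) z (inE S e')) *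
        ZI Λ t G' (fun A => sp A (outE S e') * sp A y) ≤
        corr Λ t (insert e (ind G' S)) x (inE S e') *
          ZI Λ t (insert e G') fun A => sp A (outE S e') * sp A y := by
      unfold corr
      rw [← mul_div_assoc, ← add_div, ← hins _ heH, div_mul_eq_mul_div, div_mul_eq_mul_div,
        div_le_div_iff₀ p1 p2]
      linarith [mul_le_mul_of_nonneg_left h1 h2]
    linarith [mul_le_mul_of_nonneg_left h3 (ht' e' (mem_cross.1 he').1).1]
  · have h12 : ¬ (e.1 ∈ S ↔ e.2 ∈ S) := by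
      rcases hz with h | h <;> rw [h.1, h.2] <;> simp [hx, hzS]
    have hc : cross (insert e G') S = insert e (cross G' S) := Finset.ext fun e' => by
      rw [mem_cross, mem_insert, mem_insert, mem_cross]
      exact ⟨fun h => h.1.imp id fun h' => ⟨h', h.2⟩,
        fun h => h.elim (fun h' => ⟨Or.inl h', h' ▸ h12⟩) fun h' => ⟨Or.inr h'.1, h'.2⟩⟩
    have hi : ind (insert e G') S = ind G' S := Finset.ext fun e' => by
      rw [mem_ind, mem_ind, mem_insert]
      exact ⟨fun h => ⟨h.1.resolve_left fun h' => h12 (h' ▸ iff_of_true h.2.1 h.2.2), h.2⟩,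
        fun h => ⟨Or.inr h.1, h.2⟩⟩
    have hio : inE S e = x ∧ outE S e = z := by
      unfold inE outE
      rcases hz with h | h <;> rw [h.1, h.2] <;> simp [hx, hzS]
    rw [hc, hi, Finset.sum_insert fun h => he (mem_cross.1 h).1, hio.1, hio.2, corr_self htH,
      one_mul, add_comm]
    refine add_le_add (mul_le_mul_of_nonneg_left (hmono z y) hte) ((IH x hx hxΛ).trans ?_)
    exact Finset.sum_le_sum fun e' he' => mul_le_mul_of_nonneg_left
      (mul_le_mul_of_nonneg_left (hmono _ _) (corr_nonneg htH _ _)) (ht' e' (mem_cross.1 he').1).1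

theorem simon_lieb (ht : ∀ e ∈ G, 0 ≤ t e ∧ t e ≤ 1) (hG : ∀ e ∈ G, e.1 ∈ Λ ∧ e.2 ∈ Λ)
    (S : Set ι) {x y : ι} (hx : x ∈ S) (hxΛ : x ∈ Λ) (hy : y ∉ S) :
    corr Λ t G x y ≤ ∑ e ∈ cross G S,
      t e * (corr Λ t (ind G S) x (inE S e) * corr Λ t G (outE S e) y) := by
  have h1 := div_le_div_of_nonneg_right (sl_aux S hy G ht hG x hx hxΛ)
    (ZI_one_pos (Λ := Λ) fun e he => (ht e he).1).le
  refine h1.trans (le_of_eq ?_)
  rw [Finset.sum_div]
  refine Finset.sum_congr rfl fun e _ => ?_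
  rw [mul_div_assoc, mul_div_assoc]
  rfl

end Vale.Agent.P163
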