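import Vale.Agent.P163.Grid
import Vale.Agent.P163.SL
import Vale.Agent.P163.Embed

/-! P163, file ChainPt: two Simon-Lieb steps (pointwise), and counting of crossing bonds.
Plan: `card_cross_le`: an edge of `G ⊆ E` with an endpoint `near x r` is `(v, rt v)` or
`(v, up v)` with `v` in the square `Icc (x.1 - r - 1) (x.1 + r + 1) ×ˢ Icc ..` of cardinality
`(2 r + 3) ^ 2`; `card_le_card` into the union of two images.
`chain_pt`: `G = ind E Wd`, `B = bC (x - h) s ⊆ near x s`, `X = near x (s + 1)`, `t = tt β σ`.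
First `simon_lieb` with `S = B` (`y ∉ B`): for `e ∈ cross G B`, `t e ≤ 2 β ab (inE B e)`
(`tt_le`, `cross_cases`), `corr (ind G B) ≤ corr (ind E B)` (`corr_mono`), and `cross G B ⊆
cross E B` (terms nonnegative). The point `v' = outE B e` is `near x (s + 1)` (`Good`), so
`simon_lieb` with `S = Xᶜ`, source `y`, target `v'` (`corr_symm`) bounds `corr G v' y` by
`∑ e' ∈ cross G Xᶜ, t e' * corr (ind G Xᶜ) y (inE Xᶜ e') * 1` (`corr_le_one`), with
`t e' ≤ 2 β ab (inE Xᶜ e')` and `ind G Xᶜ = ind E (Wd ∩ Xᶜ)`. -/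

open MeasureTheory Filter Topology Finset

namespace Vale.Agent.P163

variable {m : ℕ} {β : ℝ}

lemma cp_mem {s h : ℕ} (hh : h ≤ s) (x : V) : x ∈ (bC (x.1 - h, x.2 - h) s : Set V) := by
  refine mem_coe.2 (mem_bC.2 ?_)
  simp only
  omega

lemma cp_tt (hβ : 0 ≤ β) (σ : Cfg (m + 3)) {G : Finset (V × V)} {S : Set V} {e : V × V}
    (he : e ∈ cross G S) : tt β σ e ≤ 2 * β * ab σ (inE S e) := by
  rcases (cross_cases he).2.2.2 with c | c <;> rw [c.1]
  exacts [(tt_le hβ σ e).1, (tt_le hβ σ e).2]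

lemma Good.mono {E : Finset (V × V)} {x v : V} {r r' a : ℕ} (h : Good E x r) (hv : near x a v)
    (hr : r' + a ≤ r) : Good E v r' := by
  intro e he
  refine h e (he.imp (fun h' => ?_) fun h' => ?_) <;>
  · unfold near at *
    omega

lemma card_near_le {E G : Finset (V × V)} {x : V} {r : ℕ} (hE : Good E x r) (hG : G ⊆ E)
    (h : ∀ e ∈ G, near x r e.1 ∨ near x r e.2) : G.card ≤ 2 * (2 * r + 3) ^ 2 := by
  set Q : Finset V := Icc (x.1 - r - 1) (x.1 + r + 1) ×ˢ Icc (x.2 - r - 1) (x.2 + r + 1) with hQ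
  have hc : Q.card = (2 * r + 3) ^ 2 := by
    rw [hQ, card_product, Int.card_Icc, Int.card_Icc,
      show x.1 + r + 1 + 1 - (x.1 - r - 1) = ((2 * r + 3 : ℕ) : ℤ) by push_cast; ring,
      show x.2 + r + 1 + 1 - (x.2 - r - 1) = ((2 * r + 3 : ℕ) : ℤ) by push_cast; ring,
      Int.toNat_natCast, sq]
  have hs : G ⊆ Q.image (fun v => (v, rt v)) ∪ Q.image fun v => (v, up v) := fun e he => by
    have h1 := (hE e (h e he)).1 (hG he)
    have h2 : e.1 ∈ Q := by
      have h3 := h e he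
      simp only [hQ, mem_product, mem_Icc]
      rcases h1 with h1 | h1 <;> rw [h1] at h3 <;> simp only [near, rt, up] at h3 <;> omega
    rcases h1 with h1 | h1
    · exact mem_union_left _ (mem_image.2 ⟨e.1, h2, by rw [← h1]⟩)
    · exact mem_union_right _ (mem_image.2 ⟨e.1, h2, by rw [← h1]⟩)
  refine (card_le_card hs).trans ((card_union_le _ _).trans ?_)
  have h4 := card_image_le (s := Q) (f := fun v => (v, rt v))
  have h5 := card_image_le (s := Q) (f := fun v => (v, up v))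
  omega

/-- The local factor attached to the block around `x`. -/
noncomputable def phi (β : ℝ) (Λ : Finset V) (E : Finset (V × V)) (s h : ℕ) (x : V)
    (σ : Cfg (m + 3)) : ℝ :=
  ∑ e ∈ cross E (bC (x.1 - h, x.2 - h) s : Set V),
    ab σ x * ab σ (inE (bC (x.1 - h, x.2 - h) s : Set V) e) *
      corr Λ (tt β σ) (ind E (bC (x.1 - h, x.2 - h) s : Set V)) x
        (inE (bC (x.1 - h, x.2 - h) s : Set V) e)

lemma phi_nonneg (hβ : 0 ≤ β) (Λ : Finset V) (E : Finset (V × V)) (s h : ℕ) (x : V)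
    (σ : Cfg (m + 3)) : 0 ≤ phi β Λ E s h x σ := by
  exact Finset.sum_nonneg fun e _ => mul_nonneg (mul_nonneg (ab_nonneg _ _) (ab_nonneg _ _))
    (corr_nonneg (fun e' _ => (tt_mem hβ σ e').1) _ _)

lemma continuous_phi (hβ : 0 ≤ β) (Λ : Finset V) (E : Finset (V × V)) (s h : ℕ) (x : V) :
    Continuous (phi β Λ E s h x : Cfg (m + 3) → ℝ) := by
  exact continuous_finsetSum _ fun e _ => ((continuous_ab _).mul (continuous_ab _)).mul
    (continuous_corr hβ _ _ _ _)

lemma phi_dep (β : ℝ) (Λ : Finset V) (E : Finset (V × V)) {s h : ℕ} (hh : h ≤ s) (x : V) :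
    AbsDep (phi β Λ E s h x : Cfg (m + 3) → ℝ) (bC (x.1 - h, x.2 - h) s : Set V) := by
  intro σ σ' hσ
  refine Finset.sum_congr rfl fun e he => ?_
  rw [hσ x (cp_mem hh x), hσ _ (cross_cases he).2.1, corr_congr (t' := tt β σ') fun e' he' => by
    simp only [tt, hσ _ (mem_ind.1 he').2.1, hσ _ (mem_ind.1 he').2.2]]

theorem chain_pt (hβ : 0 ≤ β) {Λ : Finset V} {E : Finset (V × V)}
    (hEΛ : ∀ e ∈ E, e.1 ∈ Λ ∧ e.2 ∈ Λ) {x y : V} (hx : x ∈ Λ) (hy : y ∈ Λ) {s h : ℕ}
    (hh : h ≤ s) (hE : Good E x (s + 1)) (hxy : ¬ near x (s + 1) y) (Wd : Set V)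
    (σ : Cfg (m + 3)) :
    ab σ x * corr Λ (tt β σ) (ind E Wd) x y
      ≤ (2 * β) ^ 2 * phi β Λ E s h x σ *
        ∑ e ∈ cross (ind E Wd) {v | ¬ near x (s + 1) v},
          ab σ (inE {v | ¬ near x (s + 1) v} e) *
            corr Λ (tt β σ) (ind E (Wd ∩ {v | ¬ near x (s + 1) v}))
              (inE {v | ¬ near x (s + 1) v} e) y := by
  set B : Set V := (bC (x.1 - h, x.2 - h) s : Set V) with hB
  set X : Set V := {v | ¬ near x (s + 1) v} with hX
  set R : ℝ := ∑ e ∈ cross (ind E Wd) X,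
    ab σ (inE X e) * corr Λ (tt β σ) (ind E (Wd ∩ X)) (inE X e) y with hR
  have ht : ∀ G : Finset (V × V), ∀ e ∈ G, 0 ≤ tt β σ e ∧ tt β σ e ≤ 1 :=
    fun _ e _ => tt_mem hβ σ e
  have hcn : ∀ G u v, 0 ≤ corr Λ (tt β σ) G u v := fun G u v =>
    corr_nonneg (fun e he => (ht G e he).1) u v
  have hG : ∀ e ∈ ind E Wd, e.1 ∈ Λ ∧ e.2 ∈ Λ := fun e he => hEΛ e (ind_subset E Wd he)
  have hR0 : 0 ≤ R := Finset.sum_nonneg fun e _ => mul_nonneg (ab_nonneg _ _) (hcn _ _ _)
  have hBn : ∀ v ∈ B, near x s v := fun v hv => by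
    have := mem_bC.1 (mem_coe.1 hv)
    unfold near
    simp only at this
    omega
  have hA : ∀ v, near x (s + 1) v → corr Λ (tt β σ) (ind E Wd) v y ≤ 2 * β * R := fun v hv => by
    rw [corr_symm]
    refine (simon_lieb (ht _) hG X (x := y) (y := v) hxy hy (not_not.2 hv)).trans ?_
    rw [hR, Finset.mul_sum]
    refine Finset.sum_le_sum fun e he => ?_
    have hi : ind (ind E Wd) X = ind E (Wd ∩ X) := Finset.ext fun e' => by
      simp only [mem_ind, Set.mem_inter_iff]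
      tauto
    rw [hi, corr_symm y, ← mul_assoc (2 * β)]
    exact mul_le_mul (cp_tt hβ σ he) (mul_le_of_le_one_right (hcn _ _ _) (corr_le_one (ht _) _ _))
      (mul_nonneg (hcn _ _ _) (hcn _ _ _)) (mul_nonneg (by linarith) (ab_nonneg _ _))
  have hyB : y ∉ B := fun h' => hxy (by
    have := hBn y h'
    unfold near at *
    omega)
  have h1 := simon_lieb (ht _) hG B (cp_mem hh x) hx hyB
  have h2 : ∑ e ∈ cross (ind E Wd) B, tt β σ e * (corr Λ (tt β σ) (ind (ind E Wd) B) x (inE B e) *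
      corr Λ (tt β σ) (ind E Wd) (outE B e) y) ≤ ∑ e ∈ cross E B,
        2 * β * ab σ (inE B e) * (corr Λ (tt β σ) (ind E B) x (inE B e) * (2 * β * R)) := by
    refine le_trans (Finset.sum_le_sum fun e he => ?_) (Finset.sum_le_sum_of_subset_of_nonneg
      (fun e he => mem_cross.2 ⟨ind_subset E Wd (mem_cross.1 he).1, (mem_cross.1 he).2⟩)
      fun e _ _ => mul_nonneg (mul_nonneg (by linarith) (ab_nonneg _ _))
        (mul_nonneg (hcn _ _ _) (mul_nonneg (by linarith) hR0)))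
    obtain ⟨c1, c2, -, c4⟩ := cross_cases he
    have c5 := hBn _ c2
    have hn : near x (s + 1) (outE B e) := by
      have c6 := (hE e (by
        rcases c4 with c | c <;> rw [c.1] at c5 <;> unfold near at * <;> omega)).1
          (ind_subset E Wd c1)
      rcases c4 with c | c <;> rw [c.1] at c5 <;> rw [c.2] <;> rcases c6 with c6 | c6 <;>
        simp only [c6, near, rt, up] at c5 ⊢ <;> omega
    refine mul_le_mul (cp_tt hβ σ he) (mul_le_mul (corr_mono (ht _) (fun e' he' => ?_) _ _)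
      (hA _ hn) (hcn _ _ _) (hcn _ _ _)) (mul_nonneg (hcn _ _ _) (hcn _ _ _))
      (mul_nonneg (by linarith) (ab_nonneg _ _))
    exact mem_ind.2 ⟨ind_subset E Wd (mem_ind.1 he').1, (mem_ind.1 he').2⟩
  refine (mul_le_mul_of_nonneg_left (h1.trans h2) (ab_nonneg σ x)).trans (le_of_eq ?_)
  rw [phi, ← hB, Finset.mul_sum, Finset.mul_sum _ _ ((2 * β) ^ 2), Finset.sum_mul]
  refine Finset.sum_congr rfl fun e _ => ?_
  ring

end Vale.Agent.P163
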