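import Vale.Agent.P163.DLR
import Vale.Agent.P163.ChainPt

/-! P163, file Chain: iteration of the two Simon-Lieb steps.
Plan: `phi_bound`: `integral_finset_sum`, `local_bound` for each crossing edge `e`
(`u = inE B e` lies in `Λ`, and not in `bI` since its neighbour `outE B e` is outside `bC`:
`cross_cases`, `Good`), `card_near_le` (with `r = s`, weakened to the constant below).
`chain`: induction on `k` generalizing `x Wd S Ψ`. `k = 0`: `ab ≤ 1`, `corr ≤ 1`.
Step: `chain_pt` (multiply by `weight * Ψ ≥ 0`, `integral_mono`), `integral_finset_sum`; for each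
`e ∈ cross (ind E Wd) Xᶜ` the point `v = inE Xᶜ e` lies in `Λ`, in `Wd ∩ Xᶜ`, and is
`near x (s + 2)` (its neighbour `outE` is `near x (s+1)`, `Good`); apply the hypothesis with
`Wd ∩ Xᶜ`, `S ∪ bC (x - h) s`, `Ψ' = phi x * Ψ` (`phi_dep`, `phi_nonneg`, `continuous_phi`,
`Good.mono`; for `z ∉ X` the blocks around `z` and `x` are disjoint); then `phi_bound`,
`card_near_le` with `r = s + 1`. -/

open MeasureTheory Filter Topology Finset

namespace Vale.Agent.P163

variable {m : ℕ} {β : ℝ}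

theorem phi_bound (hβ : 0 ≤ β) {Λ : Finset V} {E : Finset (V × V)}
    (hEΛ : ∀ e ∈ E, e.1 ∈ Λ ∧ e.2 ∈ Λ) {x : V} (hx : x ∈ Λ) {s h : ℕ}
    (hh : h ≤ s) (hE : Good E x s) {η : ℝ} (hη : MagBd m β s h η)
    {Ψ : Cfg (m + 3) → ℝ} (hΨ : Continuous Ψ) (hΨ0 : ∀ σ, 0 ≤ Ψ σ) {S : Set V}
    (hΨd : AbsDep Ψ S) (hS : ∀ v ∈ bC (x.1 - h, x.2 - h) s, v ∉ S) :
    ∫ σ, weight β E σ * (phi β Λ E s h x σ * Ψ σ) ∂(ref (m + 3))
      ≤ 2 * (2 * (s : ℝ) + 5) ^ 2 * η * ∫ σ, weight β E σ * Ψ σ ∂(ref (m + 3)) := by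
  have hη0 : 0 ≤ η := (abs_nonneg _).trans (hη x fun _ => ⟨EuclideanSpace.single 0 1, by simp⟩)
  have hI : 0 ≤ ∫ σ, weight β E σ * Ψ σ ∂(ref (m + 3)) :=
    integral_nonneg fun σ => mul_nonneg (weight_pos β E σ).le (hΨ0 σ)
  set B : Set V := (bC (x.1 - h, x.2 - h) s : Set V) with hB
  have hnear : ∀ v ∈ B, near x s v := fun v hv => by
    have := mem_bC.1 (Finset.mem_coe.1 hv)
    simp only [near] at this ⊢
    omega
  have hsum : ∫ σ, weight β E σ * (phi β Λ E s h x σ * Ψ σ) ∂(ref (m + 3))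
      = ∑ e ∈ cross E B, ∫ σ, weight β E σ * (ab σ x * ab σ (inE B e) *
          corr Λ (tt β σ) (ind E B) x (inE B e) * Ψ σ) ∂(ref (m + 3)) := by
    rw [← integral_finsetSum (f := fun (e : V × V) (σ : Cfg (m + 3)) =>
      weight β E σ * (ab σ x * ab σ (inE B e) * corr Λ (tt β σ) (ind E B) x (inE B e) * Ψ σ)) _
      fun e _ => integrable_cont ((continuous_weight β E).mul ((((continuous_ab x).mul
        (continuous_ab _)).mul (continuous_corr hβ _ _ _ _)).mul hΨ))]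
    refine integral_congr_ae (Eventually.of_forall fun σ => ?_)
    simp only [phi, Finset.sum_mul, Finset.mul_sum, hB]
  have hcard : (cross E B).card ≤ 2 * (2 * s + 3) ^ 2 := by
    refine card_near_le hE (fun e he => (mem_cross.1 he).1) fun e he => ?_
    obtain ⟨-, h1, -, h2 | h2⟩ := cross_cases he
    · exact Or.inl (hnear _ (h2.1 ▸ h1))
    · exact Or.inr (hnear _ (h2.1 ▸ h1))
  have hcard' : ((cross E B).card : ℝ) ≤ 2 * (2 * (s : ℝ) + 5) ^ 2 := by
    have h1 : ((cross E B).card : ℝ) ≤ 2 * (2 * (s : ℝ) + 3) ^ 2 := by exact_mod_cast hcard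
    have h2 : (0 : ℝ) ≤ s := Nat.cast_nonneg s
    nlinarith
  rw [hsum]
  refine (Finset.sum_le_card_nsmul _ _ (η * ∫ σ, weight β E σ * Ψ σ ∂(ref (m + 3)))
    fun e he => ?_).trans ?_
  · obtain ⟨heE, h1, h2, h3⟩ := cross_cases he
    have hu : inE B e ∈ Λ := by
      rcases h3 with h3 | h3 <;> rw [h3.1]
      exacts [(hEΛ e heE).1, (hEΛ e heE).2]
    refine local_bound hβ hEΛ hx hu hh hE hη (fun hI' => h2 ?_) hΨ hΨ0 hΨd hS
    have hn : near x s e.1 ∨ near x s e.2 := by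
      rcases h3 with h3 | h3
      exacts [Or.inl (hnear _ (h3.1 ▸ h1)), Or.inr (hnear _ (h3.1 ▸ h1))]
    have h4 := (hE e hn).1 heE
    have h5 := mem_bI.1 hI'
    rw [hB, Finset.mem_coe, mem_bC, ← hB]
    rcases h3 with h3 | h3 <;> rw [h3.1] at h5 <;> rw [h3.2] <;> rcases h4 with h4 | h4 <;>
      simp only [rt, up, Prod.ext_iff] at h4 h5 ⊢ <;> omega
  · rw [nsmul_eq_mul, mul_assoc (2 * (2 * (s : ℝ) + 5) ^ 2)]
    exact mul_le_mul_of_nonneg_right hcard' (mul_nonneg hη0 hI)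

theorem chain (hβ : 0 ≤ β) {Λ : Finset V} {E : Finset (V × V)}
    (hEΛ : ∀ e ∈ E, e.1 ∈ Λ ∧ e.2 ∈ Λ) {y : V} (hy : y ∈ Λ) {s h : ℕ} (hh : h ≤ s) {η : ℝ}
    (hη : MagBd m β s h η) (k : ℕ) :
    ∀ (x : V) (Wd S : Set V) (Ψ : Cfg (m + 3) → ℝ), x ∈ Λ → x ∈ Wd → Good E x (k * (s + 2)) →
      ((k * (s + 2) : ℕ) : ℤ) ≤ max |x.1 - y.1| |x.2 - y.2| → Continuous Ψ → (∀ σ, 0 ≤ Ψ σ) →
      AbsDep Ψ S → (∀ z ∈ Wd, ∀ v ∈ bC (z.1 - h, z.2 - h) s, v ∉ S) →
      ∫ σ, weight β E σ * (ab σ x * corr Λ (tt β σ) (ind E Wd) x y * Ψ σ) ∂(ref (m + 3))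
        ≤ ((2 * β * (2 * (2 * (s : ℝ) + 5) ^ 2)) ^ 2 * η) ^ k *
          ∫ σ, weight β E σ * Ψ σ ∂(ref (m + 3)) := by
  have hη0 : ∀ x : V, 0 ≤ η := fun x =>
    (abs_nonneg _).trans (hη x fun _ => ⟨EuclideanSpace.single 0 1, by simp⟩)
  induction k with
  | zero =>
    intro x Wd S Ψ hx _ _ _ hΨ hΨ0 _ _
    rw [pow_zero, one_mul]
    refine integral_mono (integrable_cont ((continuous_weight β E).mul (((continuous_ab x).mul
      (continuous_corr hβ _ _ _ _)).mul hΨ))) (integrable_cont ((continuous_weight β E).mul hΨ))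
      fun σ => ?_
    refine mul_le_mul_of_nonneg_left (mul_le_of_le_one_left (hΨ0 σ) ?_) (weight_pos β E σ).le
    exact mul_le_one₀ (ab_le_one σ x) (corr_nonneg (fun e _ => (tt_mem hβ σ e).1) x y)
      (corr_le_one (fun e _ => tt_mem hβ σ e) x y)
  | succ k ih =>
    intro x Wd S Ψ hx hxW hG hd hΨ hΨ0 hΨd hS
    have hxx : near x 0 x := by simp [near]
    have hG1 : Good E x (s + 1) := hG.mono hxx (by nlinarith)
    have hG0 : Good E x s := hG.mono hxx (by nlinarith)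
    have hd' : ((k * (s + 2) : ℕ) : ℤ) + (s + 2) ≤ max |x.1 - y.1| |x.2 - y.2| := by
      refine le_trans (le_of_eq ?_) hd
      push_cast; ring
    have hk0 : (0 : ℤ) ≤ ((k * (s + 2) : ℕ) : ℤ) := Int.natCast_nonneg _
    have hxy : ¬ near x (s + 1) y := by
      intro hn
      simp only [near] at hn
      have h1 : |x.1 - y.1| ≤ s + 1 := abs_le.2 ⟨by omega, by omega⟩
      have h2 : |x.2 - y.2| ≤ s + 1 := abs_le.2 ⟨by omega, by omega⟩
      have := max_le h1 h2
      omega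
    set X : Set V := {v | ¬ near x (s + 1) v} with hX
    set θ : ℝ := (2 * β * (2 * (2 * (s : ℝ) + 5) ^ 2)) ^ 2 * η with hθ
    have hθ0 : 0 ≤ θ := mul_nonneg (sq_nonneg _) (hη0 x)
    have hφ := continuous_phi (m := m) hβ Λ E s h x
    have hI : 0 ≤ ∫ σ, weight β E σ * Ψ σ ∂(ref (m + 3)) :=
      integral_nonneg fun σ => mul_nonneg (weight_pos β E σ).le (hΨ0 σ)
    have hI' : 0 ≤ ∫ σ, weight β E σ * (phi β Λ E s h x σ * Ψ σ) ∂(ref (m + 3)) :=
      integral_nonneg fun σ => mul_nonneg (weight_pos β E σ).le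
        (mul_nonneg (phi_nonneg hβ Λ E s h x σ) (hΨ0 σ))
    have hint : ∀ e : V × V, Integrable (fun σ : Cfg (m + 3) => weight β E σ * (ab σ (inE X e) *
        corr Λ (tt β σ) (ind E (Wd ∩ X)) (inE X e) y * (phi β Λ E s h x σ * Ψ σ)))
        (ref (m + 3)) := fun e =>
      integrable_cont ((continuous_weight β E).mul (((continuous_ab _).mul
        (continuous_corr hβ _ _ _ _)).mul (hφ.mul hΨ)))
    have hnb : ∀ e ∈ cross (ind E Wd) X, near x (s + 1) e.1 ∨ near x (s + 1) e.2 := by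
      intro e he
      obtain ⟨-, -, h2, h3 | h3⟩ := cross_cases he
      · exact Or.inr (not_not.1 (h3.2 ▸ h2 :))
      · exact Or.inl (not_not.1 (h3.2 ▸ h2 :))
    have hcard : (cross (ind E Wd) X).card ≤ 2 * (2 * (s + 1) + 3) ^ 2 :=
      card_near_le hG1 (fun e he => ind_subset _ _ (mem_cross.1 he).1) hnb
    have hcard' : ((cross (ind E Wd) X).card : ℝ) ≤ 2 * (2 * (s : ℝ) + 5) ^ 2 := by
      have h1 : ((cross (ind E Wd) X).card : ℝ) ≤ 2 * (2 * ((s : ℝ) + 1) + 3) ^ 2 := by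
        exact_mod_cast hcard
      refine h1.trans (le_of_eq ?_)
      ring
    have step : ∀ e ∈ cross (ind E Wd) X, ∫ σ, weight β E σ * (ab σ (inE X e) *
        corr Λ (tt β σ) (ind E (Wd ∩ X)) (inE X e) y * (phi β Λ E s h x σ * Ψ σ)) ∂(ref (m + 3))
        ≤ θ ^ k * ∫ σ, weight β E σ * (phi β Λ E s h x σ * Ψ σ) ∂(ref (m + 3)) := by
      intro e he
      obtain ⟨heG, h1, h2, h3⟩ := cross_cases he
      obtain ⟨heE, hW1, hW2⟩ := mem_ind.1 heG
      have h4 := (hG1 e (hnb e he)).1 heE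
      have h2' : near x (s + 1) (outE X e) := not_not.1 h2
      have hv : near x (s + 2) (inE X e) := by
        rcases h3 with h3 | h3 <;> rw [h3.2] at h2' <;> rw [h3.1] <;> rcases h4 with h4 | h4 <;>
          simp only [near, rt, up, Prod.ext_iff] at h4 h2' ⊢ <;> omega
      refine ih (inE X e) (Wd ∩ X) (S ∪ (bC (x.1 - h, x.2 - h) s : Set V))
        (fun σ => phi β Λ E s h x σ * Ψ σ) ?_ ⟨?_, h1⟩ (hG.mono hv (by nlinarith)) ?_
        (hφ.mul hΨ) (fun σ => mul_nonneg (phi_nonneg hβ Λ E s h x σ) (hΨ0 σ)) ?_ ?_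
      · rcases h3 with h3 | h3 <;> rw [h3.1]
        exacts [(hEΛ e heE).1, (hEΛ e heE).2]
      · rcases h3 with h3 | h3 <;> rw [h3.1]
        exacts [hW1, hW2]
      · simp only [near] at hv
        have e1 := le_abs_self ((inE X e).1 - y.1)
        have e2 := neg_abs_le ((inE X e).1 - y.1)
        have e3 := le_abs_self ((inE X e).2 - y.2)
        have e4 := neg_abs_le ((inE X e).2 - y.2)
        have e5 := le_max_left |(inE X e).1 - y.1| |(inE X e).2 - y.2|
        have e6 := le_max_right |(inE X e).1 - y.1| |(inE X e).2 - y.2|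
        have h5 : |x.1 - y.1| ≤ max |(inE X e).1 - y.1| |(inE X e).2 - y.2| + (s + 2) :=
          abs_le.2 ⟨by omega, by omega⟩
        have h6 : |x.2 - y.2| ≤ max |(inE X e).1 - y.1| |(inE X e).2 - y.2| + (s + 2) :=
          abs_le.2 ⟨by omega, by omega⟩
        have := max_le h5 h6
        omega
      · intro σ σ' hσ
        simp only
        rw [phi_dep β Λ E hh x σ σ' fun v hv => hσ v (Or.inr hv),
          hΨd σ σ' fun v hv => hσ v (Or.inl hv)]
      · rintro z ⟨hzW, hzX⟩ v hv (hv' | hv')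
        · exact hS z hzW v hv hv'
        · refine hzX ?_
          have e1 := mem_bC.1 hv
          have e2 := mem_bC.1 (Finset.mem_coe.1 hv')
          simp only [near] at e1 e2 ⊢
          omega
    have hpb := phi_bound hβ hEΛ hx hh hG0 hη hΨ hΨ0 hΨd (hS x hxW)
    calc ∫ σ, weight β E σ * (ab σ x * corr Λ (tt β σ) (ind E Wd) x y * Ψ σ) ∂(ref (m + 3))
        ≤ ∫ σ, (2 * β) ^ 2 * ∑ e ∈ cross (ind E Wd) X, weight β E σ * (ab σ (inE X e) *
            corr Λ (tt β σ) (ind E (Wd ∩ X)) (inE X e) y * (phi β Λ E s h x σ * Ψ σ))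
            ∂(ref (m + 3)) := by
          refine integral_mono (integrable_cont ((continuous_weight β E).mul
            (((continuous_ab x).mul (continuous_corr hβ _ _ _ _)).mul hΨ)))
            ((integrable_finsetSum _ fun e _ => hint e).const_mul _) fun σ => ?_
          have h1 := mul_le_mul_of_nonneg_left (mul_le_mul_of_nonneg_right
            (chain_pt hβ hEΛ hx hy hh hG1 hxy Wd σ) (hΨ0 σ)) (weight_pos β E σ).le
          refine h1.trans (le_of_eq ?_)
          simp only [Finset.mul_sum, Finset.sum_mul]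
          refine Finset.sum_congr rfl fun e _ => ?_
          ring
      _ = (2 * β) ^ 2 * ∑ e ∈ cross (ind E Wd) X, ∫ σ, weight β E σ * (ab σ (inE X e) *
            corr Λ (tt β σ) (ind E (Wd ∩ X)) (inE X e) y * (phi β Λ E s h x σ * Ψ σ))
            ∂(ref (m + 3)) := by
          rw [integral_const_mul, integral_finsetSum _ fun e _ => hint e]
      _ ≤ (2 * β) ^ 2 * (2 * (2 * (s : ℝ) + 5) ^ 2 * (θ ^ k *
            (2 * (2 * (s : ℝ) + 5) ^ 2 * η * ∫ σ, weight β E σ * Ψ σ ∂(ref (m + 3))))) := by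
          refine mul_le_mul_of_nonneg_left ((Finset.sum_le_card_nsmul _ _ _ step).trans ?_)
            (sq_nonneg _)
          rw [nsmul_eq_mul]
          exact mul_le_mul hcard' (mul_le_mul_of_nonneg_left hpb (pow_nonneg hθ0 k))
            (mul_nonneg (pow_nonneg hθ0 k) hI') (by positivity)
      _ = θ ^ (k + 1) * ∫ σ, weight β E σ * Ψ σ ∂(ref (m + 3)) := by
          rw [pow_succ θ k]
          conv_rhs => enter [1, 2]; rw [hθ]
          ring

end Vale.Agent.P163
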