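import Vale.Agent.P163.Gibbs

/-! P163, file Cheap: a twist of the boundary condition costs at most the Dirichlet energy of any
orthogonal gauge field `k` extending it.
Plan: `sum_sgn_sgn`: for `i ≠ j` use the involution flipping `ε i` (`Finset.sum_involution` or
`Equiv.sum_comp` with `Function.update ε i (!ε i)`); for `i = j` each term is 1.
`sum_sgn_inner`: expand `sgn ε a = ∑ i, (s i * a i) • e i` (`e i = EuclideanSpace.single i 1`,
`EuclideanSpace.basisFun`), bilinearity, `sum_sgn_sgn`.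
`sum_sgn_ge`: `inner (g e) (h e) = 1 - ‖h e - g e‖ ^ 2 / 2 ≥ 1 - δ ^ 2 / 2`, it is `≤ 1`, and
`∑ |a i| |b i| ≤ 1` (from `2 |a i| |b i| ≤ a i ^ 2 + b i ^ 2`), so
`∑ a i b i (c i - 1) ≥ - δ ^ 2 / 2`.
`cheapAbs`: for every `ε` apply `gauge` to `g v = sgn ε * k v * sgn ε`; by `sgn_conj` and
`Z_act_congr`, `Z (act g σ)` is `Z (tw ψ σ)` if `ε 0 = ε 1` and `Z (tw (-ψ) σ)` otherwise;
`dot (act g τ) x y = inner (k x (sgn ε (τ x))) (k y (sgn ε (τ y)))` (`inner_map_map`). Sum over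
`ε` (`Ex_sum`); the involution flipping `ε 1` shows that twice the sum of the right sides is
`2 ^ n * (log Z₊ + log Z₋ - 2 log Z)`; the sum of the left sides is at least
`- 2 ^ n * β * ∑ (δ₁ ^ 2 + δ₂ ^ 2) / 2` by `const_le_Ex`, `sum_sgn_ge`.
`bare`: `cheapAbs` with `k v = Rz (ψ v)`, `Rz_lip`, `sq_abs`. -/

open MeasureTheory Filter Topology Finset

namespace Vale.Agent.P163

variable {n : ℕ}

/-- Flip the sign number `i`. -/
def flipE (i : Fin n) : (Fin n → Bool) ≃ (Fin n → Bool) :=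
  Function.Involutive.toPerm (fun ε => Function.update ε i (!ε i)) fun ε => by
    funext l
    by_cases h : l = i
    · subst h; simp
    · simp [Function.update_of_ne h]

lemma flipE_self (i : Fin n) (ε : Fin n → Bool) : flipE i ε i = !ε i :=
  Function.update_self (β := fun _ => Bool) i (!ε i) ε

lemma flipE_ne {i j : Fin n} (h : j ≠ i) (ε : Fin n → Bool) : flipE i ε j = ε j :=
  Function.update_of_ne (β := fun _ => Bool) h (!ε i) ε

lemma sum_sgn_sgn (i j : Fin n) :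
    ∑ ε : Fin n → Bool, ((if ε i then -1 else 1) * (if ε j then -1 else 1) : ℝ)
      = if i = j then 2 ^ n else 0 := by
  split_ifs with h
  · subst h
    have : ∀ ε : Fin n → Bool,
        ((if ε i then -1 else 1) * (if ε i then -1 else 1) : ℝ) = 1 := by
      intro ε; split_ifs <;> norm_num
    simp only [this]
    simp
  · have h1 := Equiv.sum_comp (flipE i) fun ε : Fin n → Bool =>
      ((if ε i then -1 else 1) * (if ε j then -1 else 1) : ℝ)
    have h2 : ∀ ε : Fin n → Bool,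
        ((if flipE i ε i then -1 else 1) * (if flipE i ε j then -1 else 1) : ℝ)
          = -((if ε i then -1 else 1) * (if ε j then -1 else 1) : ℝ) := by
      intro ε
      rw [flipE_self, flipE_ne (Ne.symm h)]
      cases ε i <;> cases ε j <;> simp
    simp only [h2, sum_neg_distrib] at h1
    linarith

lemma sgn_expand (ε : Fin n → Bool) (a : Euc n) :
    sgn ε a = ∑ i, ((if ε i then -1 else 1) * a i) • EuclideanSpace.single i (1 : ℝ) := by
  ext l
  rw [sgn_apply]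
  generalize hc : (fun i => (if ε i then -1 else 1) * a i) = c
  have h1 : ∀ i, (if ε i then -1 else 1) * a i = c i := fun i => congrFun hc i
  simp only [h1]
  simp [Finset.sum_apply, Pi.single_apply]

lemma sum_sgn_inner (g h : Iso n) (a b : Euc n) :
    ∑ ε : Fin n → Bool, inner ℝ (g (sgn ε a)) (h (sgn ε b))
      = 2 ^ n * ∑ i, a i * b i *
          inner ℝ (g (EuclideanSpace.single i (1 : ℝ))) (h (EuclideanSpace.single i (1 : ℝ))) := by
  have h1 : ∀ ε : Fin n → Bool, inner ℝ (g (sgn ε a)) (h (sgn ε b))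
      = ∑ i, ∑ j, ((if ε i then -1 else 1) * (if ε j then -1 else 1) : ℝ) * (a i * b j *
        inner ℝ (g (EuclideanSpace.single i (1 : ℝ))) (h (EuclideanSpace.single j (1 : ℝ)))) := by
    intro ε
    rw [sgn_expand ε a, sgn_expand ε b, map_sum, map_sum, sum_inner]
    refine sum_congr rfl fun i _ => ?_
    rw [inner_sum]
    refine sum_congr rfl fun j _ => ?_
    rw [map_smul, map_smul, real_inner_smul_left, real_inner_smul_right]
    ring
  simp only [h1]
  rw [sum_comm, mul_sum]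
  refine sum_congr rfl fun i _ => ?_
  rw [sum_comm]
  simp only [← sum_mul, sum_sgn_sgn]
  simp

lemma sum_sgn_ge (g h : Iso n) (δ : ℝ) (hδ : ∀ z, ‖h z - g z‖ ≤ δ * ‖z‖) (a b : Sph n) :
    -(2 ^ n * (δ ^ 2 / 2)) ≤ ∑ ε : Fin n → Bool,
      (inner ℝ (g (sgn ε (a : Euc n))) (h (sgn ε (b : Euc n))) - inner ℝ (a : Euc n) (b : Euc n)) := by
  rw [sum_sub_distrib, sum_sgn_inner, inner_eq_sum]
  simp only [sum_const, card_univ, Fintype.card_fun, Fintype.card_bool, Fintype.card_fin,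
    nsmul_eq_mul, Nat.cast_pow, Nat.cast_ofNat]
  rw [← mul_sub, ← mul_neg, ← sum_sub_distrib]
  refine mul_le_mul_of_nonneg_left ?_ (by positivity)
  have hna : ∑ i, (a : Euc n) i ^ 2 = 1 := by
    have := EuclideanSpace.real_norm_sq_eq (a : Euc n)
    rw [sph_norm] at this; linarith
  have hnb : ∑ i, (b : Euc n) i ^ 2 = 1 := by
    have := EuclideanSpace.real_norm_sq_eq (b : Euc n)
    rw [sph_norm] at this; linarith
  have hpt : ∀ i, -(δ ^ 2 / 4 * ((a : Euc n) i ^ 2 + (b : Euc n) i ^ 2)) ≤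
      (a : Euc n) i * (b : Euc n) i * inner ℝ (g (EuclideanSpace.single i (1 : ℝ)))
        (h (EuclideanSpace.single i (1 : ℝ))) - (a : Euc n) i * (b : Euc n) i := by
    intro i
    set e : Euc n := EuclideanSpace.single i (1 : ℝ) with he
    have hen : ‖e‖ = 1 := by simp [he]
    have h1 := hδ e
    rw [hen, mul_one] at h1
    have h2 := norm_sub_sq_real (h e) (g e)
    rw [h.norm_map, g.norm_map, hen, real_inner_comm] at h2
    have h3 : ‖h e - g e‖ ^ 2 ≤ δ ^ 2 := pow_le_pow_left₀ (norm_nonneg _) h1 2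
    have h4 : 0 ≤ ‖h e - g e‖ ^ 2 := by positivity
    set c := inner ℝ (g e) (h e)
    have h5 : 0 ≤ 1 - c := by linarith
    have h6 : 1 - c ≤ δ ^ 2 / 2 := by linarith
    have h7 : (a : Euc n) i * (b : Euc n) i ≤ ((a : Euc n) i ^ 2 + (b : Euc n) i ^ 2) / 2 := by
      nlinarith [sq_nonneg ((a : Euc n) i - (b : Euc n) i)]
    have h8 : 0 ≤ ((a : Euc n) i ^ 2 + (b : Euc n) i ^ 2) / 2 := by positivity
    nlinarith [mul_le_mul_of_nonneg_left h7 h5, mul_le_mul_of_nonneg_right h6 h8]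
  refine le_trans (le_of_eq ?_) (sum_le_sum fun i _ => hpt i)
  rw [sum_neg_distrib, ← mul_sum, sum_add_distrib, hna, hnb]
  ring

variable {m : ℕ} {β : ℝ} {U I : Finset V}

theorem cheapAbs (hβ : 0 ≤ β) (ψ : V → ℝ) (k : V → Iso (m + 3))
    (hk : ∀ v ∈ touch U, v ∉ I → k v = Rz m (ψ v)) (δ₁ δ₂ : V → ℝ)
    (h₁ : ∀ v ∈ U, ∀ z, ‖k (rt v) z - k v z‖ ≤ δ₁ v * ‖z‖)
    (h₂ : ∀ v ∈ U, ∀ z, ‖k (up v) z - k v z‖ ≤ δ₂ v * ‖z‖) (σ : Cfg (m + 3)) :
    D β U I ψ σ ≤ β * ∑ v ∈ U, (δ₁ v ^ 2 + δ₂ v ^ 2) := by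
  set g : (Fin (m + 3) → Bool) → V → Iso (m + 3) := fun ε v => sgn ε * k v * sgn ε with hg
  set Lp := Real.log (Z β U I (tw ψ σ)) with hLp
  set Lm := Real.log (Z β U I (tw (fun v => -ψ v) σ)) with hLm
  have hZ : ∀ ε, Real.log (Z β U I (act (g ε) σ)) = if ε 0 = ε 1 then Lp else Lm := by
    intro ε
    split_ifs with h
    · rw [hLp, tw, Z_act_congr (g' := fun v => Rz m (ψ v)) fun v hv hI => by
        simp only [hg]; rw [hk v hv hI, sgn_conj, if_pos h]]
    · rw [hLm, tw, Z_act_congr (g' := fun v => Rz m (-ψ v)) fun v hv hI => by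
        simp only [hg]; rw [hk v hv hI, sgn_conj, if_neg h]]
  have hcount : 2 * ∑ ε : Fin (m + 3) → Bool, (if ε 0 = ε 1 then Lp else Lm)
      = 2 ^ (m + 3) * (Lp + Lm) := by
    have h1 := Equiv.sum_comp (flipE (1 : Fin (m + 3))) fun ε : Fin (m + 3) → Bool =>
      (if ε 0 = ε 1 then Lp else Lm)
    have h2 : ∀ ε : Fin (m + 3) → Bool,
        (if flipE 1 ε 0 = flipE 1 ε 1 then Lp else Lm) + (if ε 0 = ε 1 then Lp else Lm)
          = Lp + Lm := by
      intro ε
      rw [flipE_self, flipE_ne (ne01 m)]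
      cases ε 0 <;> cases ε 1 <;> simp [add_comm]
    rw [two_mul]
    nth_rewrite 1 [← h1]
    rw [← sum_add_distrib]
    simp only [h2]
    simp [mul_add]
  have hdot : ∀ ε (τ : Cfg (m + 3)) (x y : V), dot (act (g ε) τ) x y
      = inner ℝ (k x (sgn ε (τ x : Euc (m + 3)))) (k y (sgn ε (τ y : Euc (m + 3)))) := by
    intro ε τ x y
    simp only [dot, act_coe, hg]
    exact (sgn ε).inner_map_map _ _
  have hc : ∀ ε, Continuous fun τ : Cfg (m + 3) => β * (hU U (act (g ε) τ) - hU U τ) :=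
    fun ε => continuous_const.mul (((hU_cont U).comp (continuous_act _)).sub (hU_cont U))
  have hlow : -(2 ^ (m + 3) * (β * ∑ v ∈ U, (δ₁ v ^ 2 + δ₂ v ^ 2)) / 2)
      ≤ Ex β U I (fun τ => ∑ ε, β * (hU U (act (g ε) τ) - hU U τ)) σ := by
    refine const_le_Ex (continuous_finsetSum _ fun ε _ => hc ε) (fun τ => ?_) σ
    rw [← mul_sum]
    have h1 : ∑ ε, (hU U (act (g ε) τ) - hU U τ) = ∑ v ∈ U,
        (∑ ε, (dot (act (g ε) τ) v (rt v) - dot τ v (rt v))
          + ∑ ε, (dot (act (g ε) τ) v (up v) - dot τ v (up v))) := by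
      simp only [hU, ← sum_sub_distrib, ← sum_add_distrib]
      rw [sum_comm]
      refine sum_congr rfl fun v _ => sum_congr rfl fun ε _ => by ring
    have h2 : -(2 ^ (m + 3) * (∑ v ∈ U, (δ₁ v ^ 2 + δ₂ v ^ 2)) / 2)
        ≤ ∑ ε, (hU U (act (g ε) τ) - hU U τ) := by
      rw [h1, mul_sum, sum_div, ← sum_neg_distrib]
      refine sum_le_sum fun v hv => ?_
      have a1 := sum_sgn_ge (k v) (k (rt v)) (δ₁ v) (h₁ v hv) (τ v) (τ (rt v))
      have a2 := sum_sgn_ge (k v) (k (up v)) (δ₂ v) (h₂ v hv) (τ v) (τ (up v))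
      simp only [hdot]
      simp only [dot]
      linarith
    nlinarith [mul_le_mul_of_nonneg_left h2 hβ]
  rw [Ex_sum _ fun ε _ => hc ε] at hlow
  have hup : ∑ ε, Ex β U I (fun τ => β * (hU U (act (g ε) τ) - hU U τ)) σ
      ≤ ∑ ε : Fin (m + 3) → Bool, ((if ε 0 = ε 1 then Lp else Lm) - Real.log (Z β U I σ)) :=
    sum_le_sum fun ε _ => by rw [← hZ]; exact gauge (g ε) σ
  rw [sum_sub_distrib] at hup
  simp only [sum_const, card_univ, Fintype.card_fun, Fintype.card_bool, Fintype.card_fin,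
    nsmul_eq_mul, Nat.cast_pow, Nat.cast_ofNat] at hup
  have hpow : (0 : ℝ) < 2 ^ (m + 3) := by positivity
  unfold D
  rw [← hLp, ← hLm]
  refine le_of_mul_le_mul_left ?_ hpow
  nlinarith

theorem bare (hβ : 0 ≤ β) (ψ : V → ℝ) (σ : Cfg (m + 3)) : D β U I ψ σ ≤ β * grad2 U ψ := by
  have := cheapAbs (U := U) (I := I) hβ ψ (fun v => Rz m (ψ v)) (fun _ _ _ => rfl)
    (fun v => |ψ (rt v) - ψ v|) (fun v => |ψ (up v) - ψ v|) (fun v _ z => Rz_lip m _ _ z)
    (fun v _ z => Rz_lip m _ _ z) σ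
  simpa only [sq_abs, grad2] using this

end Vale.Agent.P163
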