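import Vale.Agent.P163.Grid
import Vale.Agent.P163.SL
import Vale.Agent.P163.Embed

/-! P163, file DLR: conditioning on the outside of a block, and the resulting local bound.
Plan: `weight_split`: let `EU = U.image (v ↦ (v, rt v)) ∪ U.image (v ↦ (v, up v))` with
`U = bU b s`, `b = (x.1 - h, x.2 - h)`; `EU ⊆ E` by `Good` (points of `U` are `near x s`);
`∑ e ∈ EU, dot = hU U` (`Finset.sum_union`, `sum_image`); `R = weight β (E \ EU)`; an edge of
`E` with an endpoint in `bI b s` is a lattice edge with `e.1 ∈ U`, hence in `EU`; so `R` depends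
only on spins off `bI b s` (`indep_of_dep`).
`dlr`: `∫ F = ∫ Av I F` (`integral_Av`); `Av_pull` for `R * G`;
`|Av I (bw * sc 0 x)| ≤ η Z` from `MagBd` (`Z_pos`); and `∫ R |G| Z = ∫ weight * |G|` in the same
way; `integral_mono` with `integrable_cont`, `Av_cont`.
`local_bound`: `corr (ind E bC) ≤ corr E` (`corr_mono`, `tt_mem`, `ind_subset`), `embed`
backwards, then `dlr` with `G = sc 0 u * Ψ` (`Indep` since `u ∉ bI` and `S` avoids `bC ⊇ bI`),
`|G| ≤ Ψ` (`abs_sc_le`), `0 ≤ η` from `MagBd`. -/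

open MeasureTheory Filter Topology Finset

namespace Vale.Agent.P163

variable {m : ℕ} {β : ℝ}

lemma weight_split {n : ℕ} (β : ℝ) {E : Finset (V × V)} {x : V} {s h : ℕ} (hh : h ≤ s)
    (hE : Good E x s) :
    ∃ R : Cfg n → ℝ, Continuous R ∧ (∀ σ, 0 ≤ R σ) ∧ Indep (bI (x.1 - h, x.2 - h) s) R ∧
      ∀ σ, weight β E σ = bw β (bU (x.1 - h, x.2 - h) s) σ * R σ := by
  classical
  set U := bU (x.1 - h, x.2 - h) s with hU'
  set EU : Finset (V × V) := U.image (fun v => (v, rt v)) ∪ U.image (fun v => (v, up v)) with hEU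
  have hmem : ∀ e : V × V, e ∈ EU ↔ e.1 ∈ U ∧ (e.2 = rt e.1 ∨ e.2 = up e.1) := by
    rintro ⟨a, c⟩
    simp only [hEU, mem_union, mem_image, Prod.mk.injEq]
    constructor
    · rintro (⟨v, hv, rfl, rfl⟩ | ⟨v, hv, rfl, rfl⟩)
      exacts [⟨hv, Or.inl rfl⟩, ⟨hv, Or.inr rfl⟩]
    · rintro ⟨ha, rfl | rfl⟩
      exacts [Or.inl ⟨a, ha, rfl, rfl⟩, Or.inr ⟨a, ha, rfl, rfl⟩]
  have hnear : ∀ v ∈ U, near x s v := by
    intro v hv
    have := mem_bU.1 hv
    simp only at this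
    unfold near
    omega
  have hsub : EU ⊆ E := fun e he =>
    (hE e (Or.inl (hnear _ ((hmem e).1 he).1))).2 ((hmem e).1 he).2
  have hIU : ∀ v ∈ bI (x.1 - h, x.2 - h) s, v ∈ U := by
    intro v hv
    have := mem_bI.1 hv
    refine mem_bU.2 ?_
    omega
  have hout : ∀ e ∈ E \ EU, e.1 ∉ bI (x.1 - h, x.2 - h) s ∧ e.2 ∉ bI (x.1 - h, x.2 - h) s := by
    intro e he
    obtain ⟨h1, h2⟩ := mem_sdiff.1 he
    refine ⟨fun h3 => h2 ((hmem e).2 ⟨hIU _ h3, (hE e (Or.inl (hnear _ (hIU _ h3)))).1 h1⟩),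
      fun h3 => h2 ?_⟩
    have h4 := (hE e (Or.inr (hnear _ (hIU _ h3)))).1 h1
    refine (hmem e).2 ⟨?_, h4⟩
    have h5 := mem_bI.1 h3
    refine mem_bU.2 ?_
    rcases h4 with h4 | h4 <;> rw [h4] at h5 <;> simp only [rt, up] at h5 ⊢ <;> omega
  refine ⟨weight β (E \ EU), continuous_weight _ _, fun σ => (weight_pos _ _ σ).le, ?_,
    fun σ => ?_⟩
  · intro y σ
    unfold weight
    refine congrArg (fun t => Real.exp (β * t)) (Finset.sum_congr rfl fun e he => ?_)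
    unfold dot
    rw [Finset.piecewise_eq_of_notMem _ _ _ (hout e he).1,
      Finset.piecewise_eq_of_notMem _ _ _ (hout e he).2]
  · have hd : Disjoint (U.image fun v => (v, rt v)) (U.image fun v => (v, up v)) := by
      refine Finset.disjoint_left.2 fun e h1 h2 => ?_
      obtain ⟨v, -, rfl⟩ := mem_image.1 h1
      obtain ⟨w, -, h3⟩ := mem_image.1 h2
      simp only [Prod.mk.injEq] at h3
      obtain ⟨rfl, h3⟩ := h3
      have := congrArg Prod.fst h3
      simp only [rt, up] at this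
      omega
    have hs : ∑ e ∈ EU, dot σ e.1 e.2 = hU U σ := by
      rw [hEU, Finset.sum_union hd, Finset.sum_image (fun a _ c _ e => congrArg Prod.fst e),
        Finset.sum_image (fun a _ c _ e => congrArg Prod.fst e), hU, Finset.sum_add_distrib]
    unfold weight bw
    rw [← Real.exp_add, ← mul_add, ← hs, ← Finset.sum_sdiff hsub, add_comm]

theorem dlr {E : Finset (V × V)} {x : V} {s h : ℕ} (hh : h ≤ s) (hE : Good E x s) {η : ℝ}
    (hη : MagBd m β s h η) {G : Cfg (m + 3) → ℝ} (hG : Continuous G)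
    (hGi : Indep (bI (x.1 - h, x.2 - h) s) G) :
    ∫ σ, weight β E σ * (sc 0 x σ * G σ) ∂(ref (m + 3))
      ≤ η * ∫ σ, weight β E σ * |G σ| ∂(ref (m + 3)) := by
  obtain ⟨R, hRc, hR0, hRi, hR⟩ := weight_split (n := m + 3) β hh hE
  set U := bU (x.1 - h, x.2 - h) s
  set I := bI (x.1 - h, x.2 - h) s
  have hGa : Continuous fun σ => |G σ| := hG.abs
  have hGai : Indep I fun σ => |G σ| := fun y σ => by simp only [hGi y σ]
  have c1 : Continuous fun σ => R σ * G σ * (bw β U σ * sc 0 x σ) :=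
    (hRc.mul hG).mul ((bw_cont β U).mul (continuous_sc 0 x))
  have c2 : Continuous fun σ => R σ * |G σ| * bw β U σ := (hRc.mul hGa).mul (bw_cont β U)
  have e1 : (fun σ => weight β E σ * (sc 0 x σ * G σ))
      = fun σ => R σ * G σ * (bw β U σ * sc 0 x σ) := by
    funext σ; rw [hR]; ring
  have e2 : (fun σ => weight β E σ * |G σ|) = fun σ => R σ * |G σ| * bw β U σ := by
    funext σ; rw [hR]; ring
  rw [e1, e2, ← integral_Av I c1, ← integral_Av I c2, ← integral_const_mul]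
  refine integral_mono (integrable_cont (Av_cont c1))
    (integrable_cont (continuous_const.mul (Av_cont c2))) fun σ => ?_
  simp only
  rw [Av_pull (hRi.mul hGi), Av_pull (hRi.mul hGai)]
  have hZ := Z_pos β U I σ
  have h1 := hη x σ
  unfold Ex at h1
  rw [abs_div, abs_of_pos hZ, div_le_iff₀ hZ] at h1
  calc R σ * G σ * Av I (fun τ => bw β U τ * sc 0 x τ) σ
      ≤ |R σ * G σ * Av I (fun τ => bw β U τ * sc 0 x τ) σ| := le_abs_self _
    _ = R σ * |G σ| * |Av I (fun τ => bw β U τ * sc 0 x τ) σ| := by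
      rw [abs_mul, abs_mul, abs_of_nonneg (hR0 σ)]
    _ ≤ R σ * |G σ| * (η * Z β U I σ) :=
      mul_le_mul_of_nonneg_left h1 (mul_nonneg (hR0 σ) (abs_nonneg _))
    _ = η * (R σ * |G σ| * Av I (bw β U) σ) := by unfold Z; ring

theorem local_bound (hβ : 0 ≤ β) {Λ : Finset V} {E : Finset (V × V)}
    (hEΛ : ∀ e ∈ E, e.1 ∈ Λ ∧ e.2 ∈ Λ) {x u : V} (hx : x ∈ Λ) (hu : u ∈ Λ) {s h : ℕ}
    (hh : h ≤ s) (hE : Good E x s) {η : ℝ} (hη : MagBd m β s h η)
    (huI : u ∉ bI (x.1 - h, x.2 - h) s) {Ψ : Cfg (m + 3) → ℝ} (hΨ : Continuous Ψ)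
    (hΨ0 : ∀ σ, 0 ≤ Ψ σ) {S : Set V} (hΨd : AbsDep Ψ S)
    (hS : ∀ v ∈ bC (x.1 - h, x.2 - h) s, v ∉ S) :
    ∫ σ, weight β E σ * (ab σ x * ab σ u *
        corr Λ (tt β σ) (ind E (bC (x.1 - h, x.2 - h) s : Set V)) x u * Ψ σ) ∂(ref (m + 3))
      ≤ η * ∫ σ, weight β E σ * Ψ σ ∂(ref (m + 3)) := by
  have hη0 : 0 ≤ η := (abs_nonneg _).trans (hη x fun _ => ⟨EuclideanSpace.single 0 1, by simp⟩)
  have hΨu : AbsDep Ψ Set.univ := fun σ σ' e => hΨd σ σ' fun v _ => e v trivial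
  have hw := continuous_weight (n := m + 3) β E
  have hGc : Continuous fun σ => sc 0 u σ * Ψ σ := (continuous_sc 0 u).mul hΨ
  have hGi : Indep (bI (x.1 - h, x.2 - h) s) fun σ => sc 0 u σ * Ψ σ := by
    refine Indep.mul (fun y σ => ?_) fun y σ => hΨd _ _ fun v hv => ?_
    · unfold sc
      rw [Finset.piecewise_eq_of_notMem _ _ _ huI]
    · have : v ∉ bI (x.1 - h, x.2 - h) s := fun h1 => hS v (by
        have := mem_bI.1 h1
        refine mem_bC.2 ?_
        omega) hv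
      unfold ab sc
      rw [Finset.piecewise_eq_of_notMem _ _ _ this]
  have hc : ∀ G : Finset (V × V), Continuous fun σ : Cfg (m + 3) =>
      weight β E σ * (ab σ x * ab σ u * corr Λ (tt β σ) G x u * Ψ σ) := fun G =>
    hw.mul ((((continuous_ab x).mul (continuous_ab u)).mul (continuous_corr hβ Λ G x u)).mul hΨ)
  calc _ ≤ ∫ σ, weight β E σ * (ab σ x * ab σ u * corr Λ (tt β σ) E x u * Ψ σ) ∂(ref (m + 3)) := by
        refine integral_mono (integrable_cont (hc _)) (integrable_cont (hc _)) fun σ => ?_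
        refine mul_le_mul_of_nonneg_left (mul_le_mul_of_nonneg_right
          (mul_le_mul_of_nonneg_left ?_ (mul_nonneg (ab_nonneg σ x) (ab_nonneg σ u))) (hΨ0 σ))
          (weight_pos β E σ).le
        exact corr_mono (fun e _ => tt_mem hβ σ e) (ind_subset _ _) x u
    _ = ∫ σ, weight β E σ * (sc 0 x σ * (sc 0 u σ * Ψ σ)) ∂(ref (m + 3)) := by
        rw [← embed hβ hEΛ hx hu hΨ hΨu]
        simp only [mul_assoc]
    _ ≤ η * ∫ σ, weight β E σ * |sc 0 u σ * Ψ σ| ∂(ref (m + 3)) := dlr hh hE hη hGc hGi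
    _ ≤ _ := by
        refine mul_le_mul_of_nonneg_left (integral_mono (integrable_cont (hw.mul hGc.abs))
          (integrable_cont (hw.mul hΨ)) fun σ => ?_) hη0
        refine mul_le_mul_of_nonneg_left ?_ (weight_pos β E σ).le
        rw [abs_mul, abs_of_nonneg (hΨ0 σ)]
        exact mul_le_of_le_one_left (hΨ0 σ) (abs_sc_le 0 u σ)

end Vale.Agent.P163
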