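import Mathlib

/-! Definitions for the two-dimensional O(n) model (problem P163). -/

open MeasureTheory Filter Topology

namespace Vale.Agent.P163

/-- The unit sphere S^(n-1) in R^n. -/
abbrev Sph (n : ℕ) : Type := Metric.sphere (0 : EuclideanSpace ℝ (Fin n)) 1

/-- Spin configurations on Z^2. -/
abbrev Cfg (n : ℕ) : Type := ℤ × ℤ → Sph n

/-- The normalized uniform measure on the sphere. -/
noncomputable def unif (n : ℕ) : Measure (Sph n) :=
  ((volume : Measure (EuclideanSpace ℝ (Fin n))).toSphere Set.univ)⁻¹ •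
    (volume : Measure (EuclideanSpace ℝ (Fin n))).toSphere

/-- The product over all sites of the uniform measure. -/
noncomputable def ref (n : ℕ) : Measure (Cfg n) :=
  Measure.infinitePi (fun _ : ℤ × ℤ => unif n)

/-- The scalar product of the spins at x and y. -/
noncomputable def dot {n : ℕ} (σ : Cfg n) (x y : ℤ × ℤ) : ℝ :=
  inner ℝ (σ x : EuclideanSpace ℝ (Fin n)) (σ y : EuclideanSpace ℝ (Fin n))

/-- The box [a,b] x [c,d] in Z^2. -/
structure Box where
  a : ℤ
  b : ℤ
  c : ℤ
  d : ℤ

/-- The sites of a box. -/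
noncomputable def Box.sites (B : Box) : Finset (ℤ × ℤ) := Finset.Icc B.a B.b ×ˢ Finset.Icc B.c B.d

/-- The bonds of a box, each listed once as an ordered pair: the nearest-neighbour pairs
(x, x + e1), (x, x + e2) inside the box, and for periodic boundary conditions also the pairs
that wrap around. -/
noncomputable def Box.bonds (B : Box) (periodic : Bool) : Finset ((ℤ × ℤ) × (ℤ × ℤ)) :=
  (B.sites ×ˢ B.sites).filter fun e =>
    e.2 = (e.1.1 + 1, e.1.2) ∨ e.2 = (e.1.1, e.1.2 + 1) ∨
      (periodic = true ∧ ((e.1.1 = B.b ∧ e.2 = (B.a, e.1.2)) ∨ (e.1.2 = B.d ∧ e.2 = (e.1.1, B.c))))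

/-- The Boltzmann weight exp (β * sum over bonds of the scalar products). -/
noncomputable def weight {n : ℕ} (β : ℝ) (E : Finset ((ℤ × ℤ) × (ℤ × ℤ))) (σ : Cfg n) : ℝ :=
  Real.exp (β * ∑ e ∈ E, dot σ e.1 e.2)

/-- The finite-volume expectation of F for the bond set E (spins not touched by a bond are
independent and uniform). -/
noncomputable def expect (n : ℕ) (β : ℝ) (E : Finset ((ℤ × ℤ) × (ℤ × ℤ))) (F : Cfg n → ℝ) : ℝ :=
  (∫ σ, weight β E σ * F σ ∂(ref n)) / ∫ σ, weight β E σ ∂(ref n)

/-- Infinite-volume states: probability measures that are local weak limits of finite-volume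
measures with free or periodic boundary conditions along boxes exhausting Z^2. -/
def IsState (n : ℕ) (β : ℝ) (μ : Measure (Cfg n)) : Prop :=
  IsProbabilityMeasure μ ∧
    ∃ (B : ℕ → Box) (periodic : ℕ → Bool),
      (∀ x : ℤ × ℤ, ∀ᶠ k in atTop, x ∈ (B k).sites) ∧
      ∀ F : Cfg n → ℝ, Continuous F → (∃ K : Finset (ℤ × ℤ), DependsOn F (K : Set (ℤ × ℤ))) →
        Tendsto (fun k => expect n β ((B k).bonds (periodic k)) F) atTop (𝓝 (∫ σ, F σ ∂μ))

end Vale.Agent.P163
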