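import Vale.Agent.P163.Meas

/-! P163, file Exist: infinite-volume states exist (for each boundary condition).
Plan: `B k = ⟨-k, k, -k, k⟩`; `ν k = (ref n).tilted (fun σ => β * ∑ e ∈ bonds, dot σ e.1 e.2)` is a
probability measure (`isProbabilityMeasure_tilted`, `integrable_cont`) with
`∫ F ∂ν k = expect ..` (`integral_tilted`); `ProbabilityMeasure (Cfg n)` is compact and
metrizable (Mathlib, Prokhorov / Levy-Prokhorov), so a subsequence converges
(`CompactSpace.tendsto_subseq`); `ProbabilityMeasure.tendsto_iff_forall_integral_tendsto` with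
`BoundedContinuousFunction.mkOfCompact`; the subsequence of boxes still exhausts `ℤ × ℤ`. -/

open MeasureTheory Filter Topology Finset

namespace Vale.Agent.P163

lemma continuous_energy (n : ℕ) (β : ℝ) (E : Finset ((ℤ × ℤ) × (ℤ × ℤ))) :
    Continuous fun σ : Cfg n => β * ∑ e ∈ E, dot σ e.1 e.2 := by
  unfold dot
  fun_prop

lemma tilted_prob (n : ℕ) [NeZero n] (β : ℝ) (E : Finset ((ℤ × ℤ) × (ℤ × ℤ))) :
    IsProbabilityMeasure ((ref n).tilted fun σ : Cfg n => β * ∑ e ∈ E, dot σ e.1 e.2) :=
  isProbabilityMeasure_tilted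
    (integrable_cont (Real.continuous_exp.comp (continuous_energy n β E)))

lemma integral_tilted_eq (n : ℕ) (β : ℝ) (E : Finset ((ℤ × ℤ) × (ℤ × ℤ))) (F : Cfg n → ℝ) :
    ∫ σ, F σ ∂((ref n).tilted fun σ : Cfg n => β * ∑ e ∈ E, dot σ e.1 e.2) = expect n β E F := by
  rw [integral_tilted, expect, ← integral_div]
  refine integral_congr_ae (Eventually.of_forall fun σ => ?_)
  simp only [weight, smul_eq_mul]
  ring

theorem exists_state (n : ℕ) [NeZero n] (β : ℝ) : ∃ μ : Measure (Cfg n), IsState n β μ := by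
  let B : ℕ → Box := fun k => ⟨-k, k, -k, k⟩
  let ν : ℕ → ProbabilityMeasure (Cfg n) := fun k =>
    ⟨(ref n).tilted fun σ : Cfg n => β * ∑ e ∈ (B k).bonds false, dot σ e.1 e.2,
      tilted_prob n β _⟩
  obtain ⟨μ, φ, hφ, hlim⟩ := CompactSpace.tendsto_subseq ν
  refine ⟨μ, inferInstance, fun k => B (φ k), fun _ => false, fun x => ?_, fun F hF _ => ?_⟩
  · have h1 : ∀ᶠ k in atTop, x.1.natAbs + x.2.natAbs ≤ φ k :=
      hφ.tendsto_atTop.eventually (eventually_ge_atTop _)
    filter_upwards [h1] with k hk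
    simp only [Box.sites, B, Finset.mem_product, Finset.mem_Icc]
    omega
  · have h := (ProbabilityMeasure.tendsto_iff_forall_integral_tendsto.1 hlim)
      (BoundedContinuousFunction.mkOfCompact ⟨F, hF⟩)
    simp only [BoundedContinuousFunction.mkOfCompact_apply, ContinuousMap.coe_mk,
      Function.comp_apply] at h
    refine h.congr fun k => ?_
    exact integral_tilted_eq n β _ F

end Vale.Agent.P163
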