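import Vale.Agent.P163.Grid

/-! P163, file MagStep: the magnetization at a point of the centre block shrinks by the factor
`δ / 2` when passing from the centre block to the block three times larger.
Plan: `c = gb b w (1,1)`, `U' = bU c w`, `I' = bI c w`, `U'' = annU b w`, `I'' = annI b w`,
`I = bI b (3 w)`, `bU b (3 w) = U' ∪ U''` disjointly (`bw_union`), `ψ v = π / w * annA b w v`,
`g = tw ψ`. `annA = 0` off `I`, `annA = w` on `bC c w`, and on `touch U'' \ I''` it is `0` or `w`.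
`flip_close`: `Z'' (tw (-ψ) σ) = Z'' (tw ψ σ)` and `Z'' (tw ψ (tw ψ σ)) = Z'' σ` by
`Z_act_congr` / `Z_dep` (`Rz_periodic`, `tw_tw`), so `hann` at `σ` and at `tw ψ σ` give
`|log Z'' σ - log Z'' (g σ)| ≤ δ / 2`, and `abs_sub_le_of_log`.
`two_block`: `Av_tower` twice with `Av_pull` (`Indep.av`).
`magstep`: `N' = Av I' (bw U' * sc 0 x)`, `Z' = Z U' I'`. Numerator `= Av I (N' * Z'')` and
`Z = Av I (Z' * Z'')` by `two_block` (`bw_dep`, `touch_bU`, `indep_of_dep`). `N'` and `Z'` depend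
only on `bC c w` (`Av_dep`), where `g` is the global rotation by `π`: `N' (g τ) = - N' τ`
(`Av_act`, `bw_act_const`, `Rz_pi_apply`, `Av_neg`), `Z' (g τ) = Z' τ`. By `Av_act_inside`,
`Av I (N' Z'') = - Av I (N' * Z'' ∘ g)` and `Av I (Z' Z'') = Av I (Z' * Z'' ∘ g)`. Hence
`2 |Av I (N' Z'')| = |Av I (N' (Z'' - Z'' ∘ g))| ≤ μ (δ / 2) Av I (Z' (Z'' + Z'' ∘ g))
= μ δ Z` using `|N'| ≤ μ Z'`. -/

open MeasureTheory Filter Topology Finset

namespace Vale.Agent.P163

variable {m : ℕ} {β : ℝ}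

lemma abs_sub_le_of_log {a b η : ℝ} (ha : 0 < a) (hb : 0 < b)
    (h : |Real.log a - Real.log b| ≤ η) : |a - b| ≤ η * (a + b) := by
  have h1 := Real.log_le_sub_one_of_pos (div_pos ha hb)
  have h2 := Real.log_le_sub_one_of_pos (div_pos hb ha)
  rw [Real.log_div ha.ne' hb.ne'] at h1
  rw [Real.log_div hb.ne' ha.ne'] at h2
  have h3 := abs_le.1 h
  have hη : 0 ≤ η := (abs_nonneg _).trans h
  have e1 : b * (a / b - 1) = a - b := by field_simp
  have e2 : a * (b / a - 1) = b - a := by field_simp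
  have h4 : b * (-η) ≤ a - b := by
    rw [← e1]; exact mul_le_mul_of_nonneg_left (h3.1.trans h1) hb.le
  have h5 : a * (-η) ≤ b - a := by
    rw [← e2]; exact mul_le_mul_of_nonneg_left (by linarith [h3.2]) ha.le
  rw [abs_le]
  constructor <;> nlinarith [mul_nonneg hη ha.le, mul_nonneg hη hb.le]

lemma two_block {n : ℕ} [NeZero n] {I I' I'' : Finset V} {F G : Cfg n → ℝ} (h' : I' ⊆ I)
    (h'' : I'' ⊆ I) (hF : Continuous F) (hG : Continuous G) (hFi : Indep I'' F)
    (hGi : Indep I' G) (σ : Cfg n) :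
    Av I (fun τ => F τ * G τ) σ = Av I (fun τ => Av I' F τ * Av I'' G τ) σ := by
  have h1 : Continuous fun τ => F τ * G τ := hF.mul hG
  have h2 : Continuous fun τ => Av I' F τ * G τ := (Av_cont hF).mul hG
  have e1 : Av I'' (fun τ => F τ * G τ) = fun τ => Av I'' G τ * F τ := by
    funext τ; rw [Av_pull hFi, mul_comm]
  have h3 : Continuous fun τ => Av I'' G τ * F τ := (Av_cont hG).mul hF
  have e2 : Av I' (fun τ => Av I'' G τ * F τ) = fun τ => Av I' F τ * Av I'' G τ := by
    funext τ; rw [Av_pull (hGi.av I''), mul_comm]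
  rw [← Av_tower h'' h1, e1, ← Av_tower h' h3, e2]

lemma annA_off {b v : V} {w : ℕ} (hv : v ∉ bI b (3 * w)) : annA b w v = 0 := by
  rw [mem_bI] at hv
  unfold annA
  push_cast at hv
  omega

lemma annA_centre {b v : V} {w : ℕ} (hv : v ∈ bC (gb b w (1, 1)) w) : annA b w v = w := by
  rw [mem_bC] at hv
  simp only [gb, mul_one] at hv
  unfold annA
  omega

lemma flip_close (b : V) {w : ℕ} (hw : 0 < w) {δ : ℝ}
    (hann : ∀ σ : Cfg (m + 3), D β (annU b w) (annI b w)
      (fun v => Real.pi / w * (annA b w v : ℝ)) σ ≤ δ) (σ : Cfg (m + 3)) :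
    |Z β (annU b w) (annI b w) σ
        - Z β (annU b w) (annI b w) (tw (fun v => Real.pi / w * (annA b w v : ℝ)) σ)|
      ≤ δ / 2 * (Z β (annU b w) (annI b w) σ
        + Z β (annU b w) (annI b w) (tw (fun v => Real.pi / w * (annA b w v : ℝ)) σ)) := by
  set ψ : V → ℝ := fun v => Real.pi / w * (annA b w v : ℝ) with hψ
  have hw' : (w : ℝ) ≠ 0 := by positivity
  have hval : ∀ v, v ∉ annI b w → ψ v = 0 ∨ ψ v = Real.pi := by
    intro v hv
    rw [annI, Finset.mem_sdiff, not_and_or, not_not] at hv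
    rcases hv with hv | hv
    · left; simp only [hψ, annA_off hv]; simp
    · right; simp only [hψ, annA_centre hv]; push_cast; field_simp
  have e1 : ∀ τ : Cfg (m + 3), Z β (annU b w) (annI b w) (tw (fun v => -ψ v) τ)
      = Z β (annU b w) (annI b w) (tw ψ τ) := by
    intro τ
    refine Z_act_congr (fun v _ hv => ?_) τ
    rcases hval v hv with h | h
    · simp only [h, neg_zero]
    · have := Rz_periodic m (-Real.pi) 1
      simp only [h]
      rw [← this]
      congr 1
      push_cast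
      ring
  have e2 : Z β (annU b w) (annI b w) (tw ψ (tw ψ σ)) = Z β (annU b w) (annI b w) σ := by
    rw [tw_tw]
    conv_rhs => rw [← act_one σ]
    refine Z_act_congr (fun v _ hv => ?_) σ
    rcases hval v hv with h | h
    · simp only [h, add_zero, Rz_zero]
    · have := Rz_periodic m 0 1
      simp only [h]
      rw [← Rz_zero, ← this]
      congr 1
      push_cast
      ring
  have h1 := hann σ
  have h2 := hann (tw ψ σ)
  unfold D at h1 h2
  rw [e1] at h1 h2
  rw [e2] at h2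
  refine abs_sub_le_of_log (Z_pos _ _ _ _) (Z_pos _ _ _ _) (abs_le.2 ⟨?_, ?_⟩) <;> linarith

theorem magstep (b : V) {w : ℕ} (hw : 0 < w) {x : V} (hx : x ∈ bC (gb b w (1, 1)) w) {μ δ : ℝ}
    (hin : ∀ σ : Cfg (m + 3),
      |Ex β (bU (gb b w (1, 1)) w) (bI (gb b w (1, 1)) w) (sc 0 x) σ| ≤ μ)
    (hann : ∀ σ : Cfg (m + 3), D β (annU b w) (annI b w)
      (fun v => Real.pi / w * (annA b w v : ℝ)) σ ≤ δ) (σ : Cfg (m + 3)) :
    |Ex β (bU b (3 * w)) (bI b (3 * w)) (sc 0 x) σ| ≤ δ / 2 * μ := by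
  set c := gb b w (1, 1) with hc
  set ψ : V → ℝ := fun v => Real.pi / w * (annA b w v : ℝ) with hψ
  have hw' : (w : ℝ) ≠ 0 := by positivity
  have hc1 : c.1 = b.1 + w := by simp [hc, gb]
  have hc2 : c.2 = b.2 + w := by simp [hc, gb]
  set F : Cfg (m + 3) → ℝ := fun τ => bw β (bU c w) τ * sc 0 x τ with hF
  have hFc : Continuous F := (bw_cont β _).mul (continuous_sc 0 x)
  have hU : bU b (3 * w) = bU c w ∪ annU b w := by
    rw [annU, ← hc, Finset.union_sdiff_of_subset]
    intro v hv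
    rw [mem_bU] at hv ⊢
    push_cast
    omega
  have hdisj : Disjoint (bU c w) (annU b w) := Finset.disjoint_sdiff
  have hI' : bI c w ⊆ bI b (3 * w) := by
    intro v hv
    rw [mem_bI] at hv ⊢
    push_cast
    omega
  have hI'' : annI b w ⊆ bI b (3 * w) := Finset.sdiff_subset
  have hBd : DependsOn (bw β (bU c w) : Cfg (m + 3) → ℝ) (bC c w : Set V) :=
    (bw_dep β _).mono fun v hv => by simpa using touch_bU hv
  have hFd : DependsOn F (bC c w : Set V) := by
    intro τ τ' h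
    simp only [hF]
    rw [hBd h]
    unfold sc
    rw [h x (by simpa using hx)]
  have hav : ∀ v ∈ annI b w, v ∉ (bC c w : Set V) := by
    intro v hv
    rw [annI, Finset.mem_sdiff] at hv
    simpa using hv.2
  have hGi : Indep (bI c w) (bw β (annU b w) : Cfg (m + 3) → ℝ) := by
    refine indep_of_dep (bw_dep β _) fun v hv ht => ?_
    rw [mem_bI] at hv
    rcases ht with ht | ht | ht <;>
    · rw [annU, Finset.mem_sdiff, ← hc] at ht
      refine ht.2 ?_
      rw [mem_bU]
      try dsimp only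
      omega
  set N' := Av (bI c w) F with hN'
  set Z' : Cfg (m + 3) → ℝ := Z β (bU c w) (bI c w) with hZ'
  set Z'' : Cfg (m + 3) → ℝ := Z β (annU b w) (annI b w) with hZ''
  have hN'c : Continuous N' := Av_cont hFc
  have hZ'c : Continuous Z' := Z_cont _ _ _
  have hZ''c : Continuous Z'' := Z_cont _ _ _
  have hgc : Continuous fun τ => Z'' (tw ψ τ) := hZ''c.comp (continuous_tw ψ)
  have hnum : Av (bI b (3 * w)) (fun τ => bw β (bU b (3 * w)) τ * sc 0 x τ) σ
      = Av (bI b (3 * w)) (fun τ => N' τ * Z'' τ) σ := by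
    have := two_block hI' hI'' hFc (bw_cont β (annU b w)) (indep_of_dep hFd hav) hGi σ
    refine Eq.trans ?_ this
    refine congrArg (fun f => Av (bI b (3 * w)) f σ) ?_
    funext τ
    rw [hU, bw_union hdisj]
    simp only [hF]
    ring
  have hden : Z β (bU b (3 * w)) (bI b (3 * w)) σ
      = Av (bI b (3 * w)) (fun τ => Z' τ * Z'' τ) σ := by
    have := two_block hI' hI'' (bw_cont β (bU c w)) (bw_cont β (annU b w))
      (indep_of_dep hBd hav) hGi σ
    refine Eq.trans ?_ this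
    refine congrArg (fun f => Av (bI b (3 * w)) f σ) ?_
    funext τ
    rw [hU, bw_union hdisj]
  have hagree : ∀ τ : Cfg (m + 3), ∀ v ∈ (bC c w : Set V) \ (bI c w : Set V),
      tw ψ τ v = act (fun _ => Rz m Real.pi) τ v := by
    intro τ v hv
    refine act_apply_congr ?_ rfl
    have : ψ v = Real.pi := by
      simp only [hψ, annA_centre (show v ∈ bC c w by simpa using hv.1)]
      push_cast
      field_simp
    simp only [this]
  have hNg : ∀ τ, N' (tw ψ τ) = -N' τ := by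
    intro τ
    rw [hN', Av_dep hFd _ (hagree τ), Av_act _ hFc, ← Av_neg]
    refine congrArg (fun f => Av (bI c w) f τ) ?_
    funext τ'
    simp only [hF]
    rw [bw_act_const]
    unfold sc
    rw [act_coe, Rz_pi_apply]
    ring
  have hZg : ∀ τ, Z' (tw ψ τ) = Z' τ := by
    intro τ
    have := Av_dep hBd (bI c w) (hagree τ)
    exact this.trans (Z_act_const _ τ)
  have hout : ∀ v, v ∉ bI b (3 * w) → Rz m (ψ v) = 1 := by
    intro v hv
    simp only [hψ, annA_off hv]
    simp [Rz_zero]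
  have hc1' : Continuous fun τ => N' τ * Z'' τ := hN'c.mul hZ''c
  have hc2' : Continuous fun τ => Z' τ * Z'' τ := hZ'c.mul hZ''c
  have hc3 : Continuous fun τ => N' τ * Z'' (tw ψ τ) := hN'c.mul hgc
  have hc4 : Continuous fun τ => Z' τ * Z'' (tw ψ τ) := hZ'c.mul hgc
  have a1 : Av (bI b (3 * w)) (fun τ => N' τ * Z'' τ) σ
      = -Av (bI b (3 * w)) (fun τ => N' τ * Z'' (tw ψ τ)) σ := by
    rw [← Av_act_inside hout hc1' σ, ← Av_neg]
    refine congrArg (fun f => Av (bI b (3 * w)) f σ) ?_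
    funext τ
    have := hNg τ
    unfold tw at this ⊢
    rw [this]
    ring
  have a2 : Av (bI b (3 * w)) (fun τ => Z' τ * Z'' τ) σ
      = Av (bI b (3 * w)) (fun τ => Z' τ * Z'' (tw ψ τ)) σ := by
    rw [← Av_act_inside hout hc2' σ]
    refine congrArg (fun f => Av (bI b (3 * w)) f σ) ?_
    funext τ
    have := hZg τ
    unfold tw at this ⊢
    rw [this]
  have hNZ : ∀ τ, |N' τ| ≤ μ * Z' τ := by
    intro τ
    have h := hin τ
    have hp : 0 < Z' τ := Z_pos _ _ _ _
    unfold Ex at h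
    rw [abs_div, abs_of_pos hp, div_le_iff₀ hp] at h
    exact h
  have b1 : |Av (bI b (3 * w)) (fun τ => N' τ * Z'' τ - N' τ * Z'' (tw ψ τ)) σ|
      ≤ Av (bI b (3 * w)) (fun τ => δ / 2 * μ * (Z' τ * Z'' τ + Z' τ * Z'' (tw ψ τ))) σ := by
    have k1 : Continuous fun τ => |N' τ * Z'' τ - N' τ * Z'' (tw ψ τ)| := (hc1'.sub hc3).abs
    have k2 : Continuous fun τ => δ / 2 * μ * (Z' τ * Z'' τ + Z' τ * Z'' (tw ψ τ)) :=
      continuous_const.mul (hc2'.add hc4)
    refine (abs_Av_le _ σ).trans (Av_mono k1 k2 (fun τ => ?_) σ)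
    rw [← mul_sub, abs_mul]
    have h := flip_close b hw hann τ
    calc |N' τ| * |Z'' τ - Z'' (tw ψ τ)|
        ≤ μ * Z' τ * (δ / 2 * (Z'' τ + Z'' (tw ψ τ))) :=
          mul_le_mul (hNZ τ) h (abs_nonneg _) ((abs_nonneg _).trans (hNZ τ))
      _ = _ := by ring
  rw [Av_sub hc1' hc3, Av_const_mul, Av_add hc2' hc4, ← a2, ← hden] at b1
  have hp := Z_pos β (bU b (3 * w)) (bI b (3 * w)) σ
  unfold Ex
  rw [abs_div, abs_of_pos hp, div_le_iff₀ hp, hnum]
  have e : Av (bI b (3 * w)) (fun τ => N' τ * Z'' τ) σ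
      - Av (bI b (3 * w)) (fun τ => N' τ * Z'' (tw ψ τ)) σ
      = 2 * Av (bI b (3 * w)) (fun τ => N' τ * Z'' τ) σ := by
    linarith
  rw [e, abs_mul, abs_two] at b1
  linarith

end Vale.Agent.P163
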