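import Vale.Agent.P163.Recur
import Vale.Agent.P163.Annulus
import Vale.Agent.P163.MagStep

/-! P163, file Mag: the stiffness tends to zero and the magnetization decays faster than `s ^ -4`.
Plan: `kap_bare`: `bare`, `grad2_co`, `card_bU`. `kap_small`: choose `j` with
`c₀ = 4 β / 3 ^ j ≤ ε / 2`, `γ = exp (..) / 18 ∈ (0, 1)`; by induction on `r`,
`Kap (j + r) (c₀ + (1 - γ) ^ r β)` (`recur`; `c - γ (c - c₀) = c₀ + (1 - γ) (c - c₀)`);
`exists_pow_lt_of_lt_one`.
`mag`: take `ε = 1 / (162 * 9 π ^ 2)`, `k` from `kap_small`, `j₀ ≥ k` with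
`12 π ^ 2 β / 3 ^ (j₀ - k) ≤ 1 / 162`; for `j ≥ j₀` `annulus` gives `δ = 1 / 81`. With
`hh 0 = 0`, `hh (j+1) = hh j + 3 ^ j` (so `hh j ≤ 3 ^ j`), prove
`MagBd (3 ^ (j₀ + r)) (hh (j₀ + r)) ((1 / 162) ^ r)` by induction on `r`: start from
`abs_sc_le` (`Ex_le_const`, `const_le_Ex`); step: `magstep` with `b = x - hh (j+1)`, for which
`gb b (3 ^ j) (1,1) = x - hh j`. Finally `(1/162) ^ r ≤ δ / 81 ^ (j₀ + r)` once
`81 ^ j₀ (1/2) ^ r ≤ δ`. -/

open MeasureTheory Filter Topology Finset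

namespace Vale.Agent.P163

variable {m : ℕ} {β : ℝ}

/-- offsets of the centre -/
private def hh : ℕ → ℕ
  | 0 => 0
  | j + 1 => hh j + 3 ^ j

private lemma hh_le (j : ℕ) : hh j ≤ 3 ^ j := by
  induction j with
  | zero => simp [hh]
  | succ j ih => rw [hh, pow_succ]; omega

private lemma exists_div_pow (a : ℝ) {e : ℝ} (he : 0 < e) :
    ∃ j : ℕ, ∀ i, j ≤ i → a / 3 ^ i ≤ e := by
  obtain ⟨j, hj⟩ := pow_unbounded_of_one_lt (a / e) (by norm_num : (1 : ℝ) < 3)
  refine ⟨j, fun i hi => ?_⟩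
  have h1 : (3 : ℝ) ^ j ≤ 3 ^ i := pow_le_pow_right₀ (by norm_num) hi
  rw [div_le_iff₀ (by positivity)]
  rw [div_lt_iff₀ he] at hj
  nlinarith

lemma Kap.mono {k : ℕ} {c c' : ℝ} (h : Kap m β k c) (hc : c ≤ c') : Kap m β k c' := by
  intro b d i hi σ
  refine (h b d i hi σ).trans ?_
  gcongr

lemma kap_bare (hβ : 0 ≤ β) (k : ℕ) : Kap m β k β := by
  intro b d i _ σ
  refine (bare hβ _ σ).trans (le_of_eq ?_)
  rw [grad2_co, card_bU]
  push_cast
  rw [← pow_mul, mul_comm k 2, pow_mul]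
  norm_num [mul_assoc]

theorem kap_small (hβ : 0 ≤ β) {ε : ℝ} (hε : 0 < ε) : ∃ k, Kap m β k ε := by
  obtain ⟨j, hj⟩ := exists_div_pow (4 * β) (half_pos hε)
  have h0 : 0 ≤ 4 * β / 3 ^ j := by positivity
  have hj' := hj j le_rfl
  set γ := Real.exp (-(1728 * Real.pi ^ 2 * β * 9 ^ j)) / 18 with hγ
  have hγ0 : 0 < γ := by positivity
  have hγ1 : γ ≤ 1 := by
    have : Real.exp (-(1728 * Real.pi ^ 2 * β * 9 ^ j)) ≤ 1 :=
      Real.exp_le_one_iff.2 (neg_nonpos.2 (by positivity))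
    rw [hγ]; linarith
  have key : ∀ r, Kap m β (j + r) (4 * β / 3 ^ j + (1 - γ) ^ r * β) := by
    intro r
    induction r with
    | zero => exact (kap_bare hβ _).mono (by simpa using h0)
    | succ r ih =>
      have h1 : 0 ≤ (1 - γ) ^ r * β := mul_nonneg (pow_nonneg (by linarith) r) hβ
      refine (recur hβ (Nat.le_add_right j r) (by linarith) ih).mono (le_of_eq ?_)
      rw [← hγ]; ring
  obtain ⟨r, hr⟩ := exists_pow_lt_of_lt_one (show 0 < ε / 2 / (β + 1) by positivity)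
    (show 1 - γ < 1 by linarith)
  refine ⟨j + r, (key r).mono ?_⟩
  rw [lt_div_iff₀ (by linarith)] at hr
  have h2 : 0 ≤ (1 - γ) ^ r := pow_nonneg (by linarith) r
  nlinarith

theorem mag (hβ : 0 ≤ β) {δ : ℝ} (hδ : 0 < δ) :
    ∃ s h : ℕ, 1 ≤ s ∧ h ≤ s ∧ MagBd m β s h (δ / (s : ℝ) ^ 4) := by
  have hπ := Real.pi_pos
  have hε : (0 : ℝ) < 1 / (162 * (9 * Real.pi ^ 2)) := by positivity
  obtain ⟨k, hk⟩ := kap_small (m := m) hβ hε
  obtain ⟨i, hi⟩ := exists_div_pow (12 * Real.pi ^ 2 * β) (show (0 : ℝ) < 1 / 162 by norm_num)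
  have key : ∀ r, MagBd m β (3 ^ (k + i + r)) (hh (k + i + r)) ((1 / 162) ^ r) := by
    intro r
    induction r with
    | zero =>
      intro x σ
      rw [pow_zero, abs_le]
      exact ⟨const_le_Ex (continuous_sc _ _) (fun τ => (abs_le.1 (abs_sc_le _ _ τ)).1) σ,
        Ex_le_const (continuous_sc _ _) (fun τ => (abs_le.1 (abs_sc_le _ _ τ)).2) σ⟩
    | succ r ih =>
      intro x σ
      rw [← add_assoc]
      generalize hj : k + i + r = j at ih
      have e : gb (x.1 - hh (j + 1), x.2 - hh (j + 1)) (3 ^ j) (1, 1)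
          = (x.1 - hh j, x.2 - hh j) := by
        simp only [gb, hh]
        push_cast
        refine Prod.ext ?_ ?_ <;> simp only <;> ring
      have h1 := magstep (m := m) (β := β) (x.1 - hh (j + 1), x.2 - hh (j + 1)) (w := 3 ^ j)
        (by positivity) (x := x) (μ := (1 / 162) ^ r) (δ := 1 / 81) ?_ ?_ ?_ σ
      · rw [← pow_succ'] at h1
        refine h1.trans (le_of_eq ?_)
        ring
      · rw [e, mem_bC]
        have := hh_le j
        simp only
        omega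
      · rw [e]; exact ih x
      · intro τ
        have h2 := annulus hβ (show k ≤ j by omega) hε.le hk
          (x.1 - hh (j + 1), x.2 - hh (j + 1)) τ
        have h3 := hi (j - k) (by omega)
        have h4 : 9 * Real.pi ^ 2 * (1 / (162 * (9 * Real.pi ^ 2))) = 1 / 162 := by field_simp
        rw [Nat.cast_pow, Nat.cast_ofNat]
        linarith
  obtain ⟨r, hr⟩ := exists_pow_lt_of_lt_one (show 0 < δ / 81 ^ (k + i) by positivity)
    (show (1 / 2 : ℝ) < 1 by norm_num)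
  refine ⟨3 ^ (k + i + r), hh (k + i + r), Nat.one_le_pow _ _ (by norm_num), hh_le _, fun x σ =>
    (key r x σ).trans ?_⟩
  have h5 : (((3 ^ (k + i + r) : ℕ) : ℝ)) ^ 4 = 81 ^ (k + i) * 81 ^ r := by
    push_cast
    rw [← pow_mul, mul_comm _ 4, pow_mul, pow_add]; norm_num
  have h6 : ((1 : ℝ) / 162) ^ r * 81 ^ r = (1 / 2) ^ r := by rw [← mul_pow]; norm_num
  rw [h5, le_div_iff₀ (by positivity)]
  rw [lt_div_iff₀ (by positivity)] at hr
  calc _ = (1 / 162 : ℝ) ^ r * 81 ^ r * 81 ^ (k + i) := by ring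
    _ ≤ δ := by rw [h6]; exact hr.le

end Vale.Agent.P163
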