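import Vale.Agent.P163.Chain
import Vale.Agent.P163.Mag

/-! P163, file Final.
Plan: `sc_swap`: the global isometry permuting the coordinates `0` and `l`
(`LinearIsometryEquiv.piLpCongrLeft 2 ℝ ℝ (Equiv.swap 0 l)`), `integral_act`, `dot_act_const`.
`finite_bound`: `mag` with `δ = 1 / (2 * (196 β) ^ 2)` (note `2 (2 s + 5) ^ 2 ≤ 98 s ^ 2`),
`L = s + 2`; `dot_eq_sum`, `sc_swap`, `embed` with `Ψ = 1`, `ab y ≤ 1`, `chain` with
`Wd = univ`, `S = ∅`.
`main`: `k = dist / L`; for large boxes `good_bonds` applies; `le_of_tendsto`. -/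

open MeasureTheory Filter Topology Finset

namespace Vale.Agent.P163

variable {m : ℕ} {β : ℝ}

lemma sc_swap (β : ℝ) (E : Finset (V × V)) (l : Fin (m + 3)) (x y : V) :
    ∫ σ, weight β E σ * (sc l x σ * sc l y σ) ∂(ref (m + 3))
      = ∫ σ, weight β E σ * (sc 0 x σ * sc 0 y σ) ∂(ref (m + 3)) := by
  let g : Iso (m + 3) := LinearIsometryEquiv.piLpCongrLeft 2 ℝ ℝ (Equiv.swap 0 l)
  have hg : ∀ (v : V) (σ : Cfg (m + 3)), sc 0 v (act (fun _ => g) σ) = sc l v σ := by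
    intro v σ
    simp [sc, g, LinearIsometryEquiv.piLpCongrLeft_apply, Equiv.piCongrLeft'_apply]
  have hc : Continuous fun σ : Cfg (m + 3) => weight β E σ * (sc 0 x σ * sc 0 y σ) :=
    (continuous_weight β E).mul ((continuous_sc 0 x).mul (continuous_sc 0 y))
  rw [← integral_act (fun _ => g) hc]
  refine integral_congr_ae (Eventually.of_forall fun σ => ?_)
  simp only [hg, weight, dot_act_const]

theorem finite_bound (m : ℕ) (hβ : 0 < β) :
    ∃ L : ℕ, 0 < L ∧ ∀ (Λ : Finset V) (E : Finset (V × V)) (x y : V) (k : ℕ),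
      (∀ e ∈ E, e.1 ∈ Λ ∧ e.2 ∈ Λ) → x ∈ Λ → y ∈ Λ → Good E x (k * L) →
      ((k * L : ℕ) : ℤ) ≤ max |x.1 - y.1| |x.2 - y.2| →
      expect (m + 3) β E (fun σ => dot σ x y) ≤ (m + 3) * (1 / 2) ^ k := by
  obtain ⟨s, h, hs, hh, hη⟩ := mag (m := m) hβ.le (δ := 1 / (2 * (196 * β) ^ 2)) (by positivity)
  refine ⟨s + 2, by omega, fun Λ E x y k hE hx hy hG hd => ?_⟩
  have hZ : 0 < ∫ σ, weight β E σ ∂(ref (m + 3)) :=
    integral_pos_cont (continuous_weight β E) (weight_pos β E)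
  have hs' : (1 : ℝ) ≤ s := by exact_mod_cast hs
  have hθ0 : 0 ≤ (2 * β * (2 * (2 * (s : ℝ) + 5) ^ 2)) ^ 2
      * (1 / (2 * (196 * β) ^ 2) / (s : ℝ) ^ 4) := by positivity
  have hθ : (2 * β * (2 * (2 * (s : ℝ) + 5) ^ 2)) ^ 2
      * (1 / (2 * (196 * β) ^ 2) / (s : ℝ) ^ 4) ≤ 1 / 2 := by
    have h1 : 2 * β * (2 * (2 * (s : ℝ) + 5) ^ 2) ≤ 196 * β * (s : ℝ) ^ 2 := by
      have : (2 * (s : ℝ) + 5) ^ 2 ≤ 49 * (s : ℝ) ^ 2 := by nlinarith
      nlinarith
    calc (2 * β * (2 * (2 * (s : ℝ) + 5) ^ 2)) ^ 2 * (1 / (2 * (196 * β) ^ 2) / (s : ℝ) ^ 4)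
        ≤ (196 * β * (s : ℝ) ^ 2) ^ 2 * (1 / (2 * (196 * β) ^ 2) / (s : ℝ) ^ 4) := by
          gcongr
      _ = 1 / 2 := by field_simp
  have hind : ind E Set.univ = E := by
    ext e; simp [mem_ind]
  have hch := chain hβ.le hE hy hh hη k x Set.univ ∅ (fun _ => 1) hx (Set.mem_univ _) hG hd
    continuous_const (fun _ => zero_le_one) (fun _ _ _ => rfl) (fun _ _ _ _ h => h)
  rw [hind] at hch
  simp only [mul_one] at hch
  have hemb := embed hβ.le hE hx hy (Ψ := fun _ : Cfg (m + 3) => (1 : ℝ)) continuous_const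
    (fun _ _ _ => rfl)
  simp only [mul_one] at hemb
  have hcc := continuous_corr (m := m) hβ.le Λ E x y
  have h0 : ∫ σ, weight β E σ * (sc 0 x σ * sc 0 y σ) ∂(ref (m + 3))
      ≤ (1 / 2) ^ k * ∫ σ, weight β E σ ∂(ref (m + 3)) := by
    rw [hemb]
    refine le_trans (integral_mono
      (integrable_cont ((continuous_weight β E).mul
        (((continuous_ab x).mul (continuous_ab y)).mul hcc)))
      (integrable_cont ((continuous_weight β E).mul ((continuous_ab x).mul hcc)))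
      fun σ => ?_) (hch.trans ?_)
    · have h1 := weight_pos β E σ
      have h2 := ab_nonneg σ x
      have h3 := ab_le_one σ y
      have h4 := corr_nonneg (Λ := Λ) (G := E) (fun e _ => (tt_mem hβ.le σ e).1) x y
      refine mul_le_mul_of_nonneg_left ?_ h1.le
      refine mul_le_mul_of_nonneg_right ?_ h4
      exact mul_le_of_le_one_right h2 h3
    · exact mul_le_mul_of_nonneg_right (pow_le_pow_left₀ hθ0 hθ k) hZ.le
  unfold expect
  rw [div_le_iff₀ hZ]
  have hsum : ∫ σ, weight β E σ * dot σ x y ∂(ref (m + 3))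
      = ∑ l : Fin (m + 3), ∫ σ, weight β E σ * (sc l x σ * sc l y σ) ∂(ref (m + 3)) := by
    rw [← integral_finsetSum (f := fun (l : Fin (m + 3)) (σ : Cfg (m + 3)) =>
      weight β E σ * (sc l x σ * sc l y σ)) _ fun l _ => integrable_cont
      ((continuous_weight β E).mul ((continuous_sc l x).mul (continuous_sc l y)))]
    refine integral_congr_ae (Eventually.of_forall fun σ => ?_)
    simp only [dot_eq_sum, Finset.mul_sum]
  rw [hsum]
  simp only [sc_swap, Finset.sum_const, Finset.card_univ, Fintype.card_fin, nsmul_eq_mul]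
  push_cast
  rw [mul_assoc]
  exact mul_le_mul_of_nonneg_left h0 (by positivity)

lemma bonds_mem (B : Box) (per : Bool) : ∀ e ∈ B.bonds per, e.1 ∈ B.sites ∧ e.2 ∈ B.sites := by
  intro e he
  exact Finset.mem_product.1 (Finset.mem_filter.1 he).1

lemma good_bonds (B : Box) (per : Bool) (x : V) (r : ℕ)
    (h1 : (x.1 - r - 1, x.2 - r - 1) ∈ B.sites) (h2 : (x.1 + r + 1, x.2 + r + 1) ∈ B.sites) :
    Good (B.bonds per) x r := by
  rintro ⟨⟨a1, a2⟩, ⟨b1, b2⟩⟩ hn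
  simp only [Box.sites, mem_product, mem_Icc] at h1 h2
  simp only [near] at hn
  simp only [Box.bonds, Box.sites, mem_filter, mem_product, mem_Icc, rt, up, Prod.mk.injEq]
  constructor
  · rintro ⟨-, h | h | ⟨-, h | h⟩⟩
    · exact Or.inl h
    · exact Or.inr h
    · omega
    · omega
  · intro h
    refine ⟨by omega, ?_⟩
    rcases h with h | h
    · exact Or.inl h
    · exact Or.inr (Or.inl h)

theorem main (n : ℕ) (hn : 3 ≤ n) (β : ℝ) (hβ : 0 < β) :
    ∃ C c : ℝ, 0 < c ∧ ∀ μ : Measure (Cfg n), IsState n β μ → ∀ x y : ℤ × ℤ,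
      ∫ σ, dot σ x y ∂μ
        ≤ C * Real.exp (-c * Real.sqrt (((x.1 : ℝ) - y.1) ^ 2 + ((x.2 : ℝ) - y.2) ^ 2)) := by
  obtain ⟨m, rfl⟩ : ∃ m, n = m + 3 := ⟨n - 3, by omega⟩
  obtain ⟨L, hL, hb⟩ := finite_bound m hβ
  have hL' : (0 : ℝ) < L := by exact_mod_cast hL
  have hlog : 0 < Real.log 2 := Real.log_pos (by norm_num)
  refine ⟨2 * (m + 3), Real.log 2 / (2 * L), by positivity, ?_⟩
  rintro μ ⟨-, B, per, hB, hlim⟩ x y
  set N : ℕ := (max |x.1 - y.1| |x.2 - y.2|).toNat with hN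
  have hN' : (N : ℤ) = max |x.1 - y.1| |x.2 - y.2| :=
    Int.toNat_of_nonneg (le_max_of_le_left (abs_nonneg _))
  set k : ℕ := N / L with hk
  have hkL : k * L ≤ N := Nat.div_mul_le_self N L
  have hkL' : N < (k + 1) * L := by
    rw [hk, ← Nat.div_lt_iff_lt_mul hL]; omega
  have hdep : DependsOn (fun σ : Cfg (m + 3) => dot σ x y) (({x, y} : Finset V) : Set V) := by
    intro σ σ' h
    simp only [dot]
    rw [h x (by simp), h y (by simp)]
  have ht := hlim (fun σ => dot σ x y) (continuous_dot x y) ⟨{x, y}, hdep⟩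
  have hle : ∫ σ, dot σ x y ∂μ ≤ (m + 3) * (1 / 2) ^ k := by
    refine le_of_tendsto ht ?_
    filter_upwards [hB x, hB y, hB (x.1 - (k * L : ℕ) - 1, x.2 - (k * L : ℕ) - 1),
      hB (x.1 + (k * L : ℕ) + 1, x.2 + (k * L : ℕ) + 1)] with j h1 h2 h3 h4
    exact hb _ _ x y k (bonds_mem _ _) h1 h2 (good_bonds _ _ x _ h3 h4)
      (by rw [← hN']; exact_mod_cast hkL)
  refine hle.trans ?_
  have hx1 : |(x.1 : ℝ) - y.1| ≤ N := by
    have : |x.1 - y.1| ≤ (N : ℤ) := hN' ▸ le_max_left _ _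
    exact_mod_cast this
  have hx2 : |(x.2 : ℝ) - y.2| ≤ N := by
    have : |x.2 - y.2| ≤ (N : ℤ) := hN' ▸ le_max_right _ _
    exact_mod_cast this
  have hN0 : (0 : ℝ) ≤ N := Nat.cast_nonneg N
  have hsq : Real.sqrt (((x.1 : ℝ) - y.1) ^ 2 + ((x.2 : ℝ) - y.2) ^ 2) ≤ 2 * N := by
    refine Real.sqrt_le_iff.2 ⟨by positivity, ?_⟩
    have e1 := sq_le_sq' (abs_le.1 hx1).1 (abs_le.1 hx1).2
    have e2 := sq_le_sq' (abs_le.1 hx2).1 (abs_le.1 hx2).2
    nlinarith
  have hNk : (N : ℝ) ≤ (k + 1) * L := by exact_mod_cast hkL'.le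
  have hexp : (1 / 2 : ℝ) ^ k = 2 * Real.exp (-(((k : ℝ) + 1) * Real.log 2)) := by
    have : ((k : ℝ) + 1) * Real.log 2 = Real.log (2 ^ (k + 1)) := by
      rw [Real.log_pow]; push_cast; ring
    rw [this, Real.exp_neg, Real.exp_log (by positivity), pow_succ, one_div, inv_pow]
    field_simp
  rw [hexp, ← mul_assoc, mul_comm ((m : ℝ) + 3) 2]
  refine mul_le_mul_of_nonneg_left (Real.exp_le_exp.2 ?_) (by positivity)
  have : Real.log 2 / (2 * L) * Real.sqrt (((x.1 : ℝ) - y.1) ^ 2 + ((x.2 : ℝ) - y.2) ^ 2)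
      ≤ ((k : ℝ) + 1) * Real.log 2 := by
    calc _ ≤ Real.log 2 / (2 * L) * (2 * ((k + 1) * L)) := by
          refine mul_le_mul_of_nonneg_left (hsq.trans (by linarith)) (by positivity)
      _ = _ := by field_simp
  linarith

end Vale.Agent.P163
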