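import Vale.Agent.P163.Avg

/-! P163, file Gibbs: partition functions, Gibbs expectations, the second difference `D`.
Plan: everything is a short consequence of file Avg.
`gauge`: `Z (act g σ) = Av I (bw ∘ act g) σ` (`Av_act`), `bw (act g τ) = bw τ * exp (β (..))`,
`Av_jensen`.
`Z_tw_congr`: `tw ψ σ` and `act (fun _ => Rz c) (tw ψ' σ)` agree on `touch U \ I`
(`Rz_add`, `act_mul`), then `Z_dep`, `Z_act_const`.
`subadd`: let `q = ∏ p, Z_p`. `Z = Av I q` by `bw_biUnion` and `Av_prod` with `G = 1`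
(`bw_dep`, `indep_of_dep`, `hsep`). For `φ = ψ` and `φ = -ψ` put
`h τ = ∑ p, (log Z_p (tw φ τ) - log Z_p τ)`; `q τ * exp (h τ) = q (tw φ τ)`, so by `Av_act`
`Av I (q exp h) σ = Z (tw φ σ)`; `Av_jensen`; and `Av I (q h) = Av I (bw h)` by `Av_prod` with
`G = h` (`h` is `Indep (Ip p)`: `Z_r ∘ tw φ` depends on `touch (Up r) \ Ip r`, which avoids
`Ip p` both for `r = p` and `r ≠ p`). Add the two inequalities (`Ex_add`, `Ex_neg`). -/

open MeasureTheory Filter Topology Finset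

namespace Vale.Agent.P163

variable {n : ℕ} {β : ℝ} {U I : Finset V} {F G : Cfg n → ℝ}

lemma mem_touch_self {v : V} (h : v ∈ U) : v ∈ touch U := by
  exact Or.inl h

lemma rt_mem_touch {v : V} (h : v ∈ U) : rt v ∈ touch U := by
  refine Or.inr (Or.inl ?_)
  simpa [rt] using h

lemma up_mem_touch {v : V} (h : v ∈ U) : up v ∈ touch U := by
  refine Or.inr (Or.inr ?_)
  simpa [up] using h

lemma hU_cont (U : Finset V) : Continuous (hU U : Cfg n → ℝ) := by
  unfold hU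
  exact continuous_finsetSum U fun v _ => (continuous_dot _ _).add (continuous_dot _ _)

lemma bw_cont (β : ℝ) (U : Finset V) : Continuous (bw β U : Cfg n → ℝ) := by
  unfold bw
  exact Real.continuous_exp.comp (continuous_const.mul (hU_cont U))

lemma bw_pos (β : ℝ) (U : Finset V) (σ : Cfg n) : 0 < bw β U σ := by
  exact Real.exp_pos _

lemma hU_dep (U : Finset V) : DependsOn (hU U : Cfg n → ℝ) (touch U) := by
  intro σ σ' h
  unfold hU
  refine Finset.sum_congr rfl fun v hv => ?_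
  unfold dot
  rw [h v (mem_touch_self hv), h _ (rt_mem_touch hv), h _ (up_mem_touch hv)]

lemma bw_dep (β : ℝ) (U : Finset V) : DependsOn (bw β U : Cfg n → ℝ) (touch U) := by
  intro σ σ' h
  unfold bw
  rw [hU_dep U h]

lemma bw_act_const (g : Iso n) (σ : Cfg n) : bw β U (act (fun _ => g) σ) = bw β U σ := by
  unfold bw hU
  simp only [dot_act_const]

lemma bw_union {U U' : Finset V} (h : Disjoint U U') (σ : Cfg n) :
    bw β (U ∪ U') σ = bw β U σ * bw β U' σ := by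
  unfold bw hU
  rw [Finset.sum_union h, mul_add, Real.exp_add]

lemma bw_biUnion {κ : Type*} (T : Finset κ) (Up : κ → Finset V)
    (h : ∀ p ∈ T, ∀ q ∈ T, p ≠ q → Disjoint (Up p) (Up q)) (σ : Cfg n) :
    bw β (T.biUnion Up) σ = ∏ p ∈ T, bw β (Up p) σ := by
  unfold bw hU
  rw [Finset.sum_biUnion (fun p hp q hq hpq => h p hp q hq hpq), Finset.mul_sum, Real.exp_sum]

lemma Z_dep (β : ℝ) (U I : Finset V) :
    DependsOn (Z β U I : Cfg n → ℝ) (touch U \ (I : Set V)) := by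
  exact Av_dep (bw_dep β U) I

lemma Z_act_congr {g g' : V → Iso n} (h : ∀ v ∈ touch U, v ∉ I → g v = g' v) (σ : Cfg n) :
    Z β U I (act g σ) = Z β U I (act g' σ) := by
  refine Z_dep β U I fun v hv => ?_
  exact act_apply_congr (h v hv.1 (by simpa using hv.2)) rfl

lemma Ex_const_mul (c : ℝ) (F : Cfg n → ℝ) (σ : Cfg n) :
    Ex β U I (fun τ => c * F τ) σ = c * Ex β U I F σ := by
  unfold Ex
  have : (fun σ' => bw β U σ' * (c * F σ')) = fun σ' => c * (bw β U σ' * F σ') := by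
    funext τ; ring
  rw [this, Av_const_mul, mul_div_assoc]

lemma Ex_neg (F : Cfg n → ℝ) (σ : Cfg n) : Ex β U I (fun τ => -F τ) σ = -Ex β U I F σ := by
  have := Ex_const_mul (β := β) (U := U) (I := I) (-1) F σ
  simpa using this

variable [NeZero n]

lemma Z_pos (β : ℝ) (U I : Finset V) (σ : Cfg n) : 0 < Z β U I σ := by
  exact Av_pos (bw_cont β U) (bw_pos β U) σ

lemma Z_cont (β : ℝ) (U I : Finset V) : Continuous (Z β U I : Cfg n → ℝ) := by
  exact Av_cont (bw_cont β U)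

lemma logZ_cont (β : ℝ) (U I : Finset V) :
    Continuous fun σ : Cfg n => Real.log (Z β U I σ) := by
  exact (Z_cont β U I).log fun σ => (Z_pos β U I σ).ne'

lemma Z_act_const (g : Iso n) (σ : Cfg n) : Z β U I (act (fun _ => g) σ) = Z β U I σ := by
  unfold Z
  rw [Av_act _ (bw_cont β U)]
  simp only [bw_act_const]

lemma Ex_const (c : ℝ) (σ : Cfg n) : Ex β U I (fun _ => c) σ = c := by
  unfold Ex
  have : (fun σ' : Cfg n => bw β U σ' * c) = fun σ' => c * bw β U σ' := by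
    funext τ; ring
  rw [this, Av_const_mul]
  have := (Z_pos β U I σ).ne'
  unfold Z at this ⊢
  field_simp

lemma Ex_add (hF : Continuous F) (hG : Continuous G) (σ : Cfg n) :
    Ex β U I (fun τ => F τ + G τ) σ = Ex β U I F σ + Ex β U I G σ := by
  unfold Ex
  have h1 : Continuous fun τ => bw β U τ * F τ := (bw_cont β U).mul hF
  have h2 : Continuous fun τ => bw β U τ * G τ := (bw_cont β U).mul hG
  rw [← add_div, ← Av_add h1 h2]
  simp only [mul_add]

lemma Ex_sub (hF : Continuous F) (hG : Continuous G) (σ : Cfg n) :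
    Ex β U I (fun τ => F τ - G τ) σ = Ex β U I F σ - Ex β U I G σ := by
  unfold Ex
  have h1 : Continuous fun τ => bw β U τ * F τ := (bw_cont β U).mul hF
  have h2 : Continuous fun τ => bw β U τ * G τ := (bw_cont β U).mul hG
  rw [← sub_div, ← Av_sub h1 h2]
  simp only [mul_sub]

lemma Ex_sum {κ : Type*} (T : Finset κ) {f : κ → Cfg n → ℝ} (hf : ∀ p ∈ T, Continuous (f p))
    (σ : Cfg n) : Ex β U I (fun τ => ∑ p ∈ T, f p τ) σ = ∑ p ∈ T, Ex β U I (f p) σ := by
  unfold Ex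
  have h1 : ∀ p ∈ T, Continuous fun τ => bw β U τ * f p τ :=
    fun p hp => (bw_cont β U).mul (hf p hp)
  rw [← Finset.sum_div, ← Av_sum T h1]
  simp only [Finset.mul_sum]

lemma Ex_mono (hF : Continuous F) (hG : Continuous G) (h : ∀ τ, F τ ≤ G τ) (σ : Cfg n) :
    Ex β U I F σ ≤ Ex β U I G σ := by
  unfold Ex
  have h1 : Continuous fun τ => bw β U τ * F τ := (bw_cont β U).mul hF
  have h2 : Continuous fun τ => bw β U τ * G τ := (bw_cont β U).mul hG
  refine div_le_div_of_nonneg_right ?_ (Z_pos β U I σ).le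
  exact Av_mono h1 h2 (fun τ => mul_le_mul_of_nonneg_left (h τ) (bw_pos β U τ).le) σ

lemma Ex_le_const (hF : Continuous F) {c : ℝ} (h : ∀ τ, F τ ≤ c) (σ : Cfg n) :
    Ex β U I F σ ≤ c := by
  have := Ex_mono (β := β) (U := U) (I := I) hF (continuous_const (y := c)) h σ
  rwa [Ex_const] at this

lemma const_le_Ex (hF : Continuous F) {c : ℝ} (h : ∀ τ, c ≤ F τ) (σ : Cfg n) :
    c ≤ Ex β U I F σ := by
  have := Ex_mono (β := β) (U := U) (I := I) (continuous_const (y := c)) hF h σ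
  rwa [Ex_const] at this

lemma gauge (g : V → Iso n) (σ : Cfg n) :
    Ex β U I (fun τ => β * (hU U (act g τ) - hU U τ)) σ
      ≤ Real.log (Z β U I (act g σ)) - Real.log (Z β U I σ) := by
  have hh : Continuous fun τ : Cfg n => β * (hU U (act g τ) - hU U τ) :=
    continuous_const.mul (((hU_cont U).comp (continuous_act g)).sub (hU_cont U))
  have h := Av_jensen (I := I) (bw_cont β U) hh (bw_pos β U) σ
  have e : Av I (fun τ => bw β U τ * Real.exp (β * (hU U (act g τ) - hU U τ))) σ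
      = Z β U I (act g σ) := by
    unfold Z
    rw [Av_act g (bw_cont β U)]
    refine congrArg (fun f => Av I f σ) ?_
    funext τ
    unfold bw
    rw [← Real.exp_add]
    congr 1
    ring
  rw [e] at h
  exact h

section
variable {m : ℕ}

lemma Z_tw_congr {ψ ψ' : V → ℝ} (c : ℝ) (h : ∀ v ∈ touch U, v ∉ I → ψ v = ψ' v + c)
    (σ : Cfg (m + 3)) : Z β U I (tw ψ σ) = Z β U I (tw ψ' σ) := by
  rw [← Z_act_const (Rz m c) (tw ψ' σ)]
  unfold tw
  rw [← act_mul]
  refine Z_act_congr (fun v hv hI => ?_) σ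
  rw [h v hv hI, add_comm (ψ' v) c, Rz_add]

lemma D_cont (β : ℝ) (U I : Finset V) (ψ : V → ℝ) :
    Continuous (D β U I ψ : Cfg (m + 3) → ℝ) := by
  unfold D
  exact ((continuous_const.mul (logZ_cont β U I)).sub
    ((logZ_cont β U I).comp (continuous_tw ψ))).sub
    ((logZ_cont β U I).comp (continuous_tw fun v => -ψ v))

lemma D_congr {ψ ψ' : V → ℝ} (c : ℝ) (h : ∀ v ∈ touch U, v ∉ I → ψ v = ψ' v + c)
    (σ : Cfg (m + 3)) : D β U I ψ σ = D β U I ψ' σ := by
  unfold D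
  rw [Z_tw_congr c h, Z_tw_congr (ψ := fun v => -ψ v) (ψ' := fun v => -ψ' v) (-c)
    (fun v hv hI => by rw [h v hv hI]; ring)]

lemma D_neg (ψ : V → ℝ) (σ : Cfg (m + 3)) : D β U I (fun v => -ψ v) σ = D β U I ψ σ := by
  unfold D
  simp only [neg_neg]
  ring

lemma D_tw_congr (φ : V → ℝ) {ψ ψ' : V → ℝ} (c : ℝ)
    (h : ∀ v ∈ touch U, v ∉ I → ψ v = ψ' v + c) (σ : Cfg (m + 3)) :
    D β U I φ (tw ψ σ) = D β U I φ (tw ψ' σ) := by
  unfold D
  simp only [tw_tw]
  rw [Z_tw_congr c h,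
    Z_tw_congr (ψ := fun v => φ v + ψ v) (ψ' := fun v => φ v + ψ' v) c
      (fun v hv hI => by rw [h v hv hI]; ring),
    Z_tw_congr (ψ := fun v => -φ v + ψ v) (ψ' := fun v => -φ v + ψ' v) c
      (fun v hv hI => by rw [h v hv hI]; ring)]

lemma subadd_half {κ : Type*} (T : Finset κ) (Up Ip : κ → Finset V)
    (hdisj : ∀ p ∈ T, ∀ q ∈ T, p ≠ q → Disjoint (Up p) (Up q)) (hI : ∀ p ∈ T, Ip p ⊆ I)
    (hsep : ∀ p ∈ T, ∀ q ∈ T, p ≠ q → ∀ v ∈ Ip q, v ∉ touch (Up p))
    (φ : V → ℝ) (σ : Cfg (m + 3)) :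
    Ex β (T.biUnion Up) I (fun τ => ∑ p ∈ T,
        (Real.log (Z β (Up p) (Ip p) (tw φ τ)) - Real.log (Z β (Up p) (Ip p) τ))) σ
      ≤ Real.log (Z β (T.biUnion Up) I (tw φ σ)) - Real.log (Z β (T.biUnion Up) I σ) := by
  set q : Cfg (m + 3) → ℝ := fun τ => ∏ p ∈ T, Z β (Up p) (Ip p) τ with hq
  set h : Cfg (m + 3) → ℝ := fun τ => ∑ p ∈ T,
    (Real.log (Z β (Up p) (Ip p) (tw φ τ)) - Real.log (Z β (Up p) (Ip p) τ)) with hh
  have hqc : Continuous q := continuous_finsetProd T fun p _ => Z_cont β _ _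
  have hq0 : ∀ τ, 0 < q τ := fun τ => Finset.prod_pos fun p _ => Z_pos β _ _ τ
  have hhc : Continuous h := continuous_finsetSum T fun p _ =>
    ((logZ_cont β _ _).comp (continuous_tw φ)).sub (logZ_cont β _ _)
  have hfi : ∀ p ∈ T, ∀ r ∈ T, p ≠ r → Indep (Ip r) (bw β (Up p) : Cfg (m + 3) → ℝ) :=
    fun p hp r hr hpr => indep_of_dep (bw_dep β (Up p)) (hsep p hp r hr hpr)
  have key : ∀ G : Cfg (m + 3) → ℝ, Continuous G → (∀ p ∈ T, Indep (Ip p) G) → ∀ τ,
      Av I (fun τ => bw β (T.biUnion Up) τ * G τ) τ = Av I (fun τ => q τ * G τ) τ := by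
    intro G hG hGi τ
    have := Av_prod (I := I) T Ip (fun p => bw β (Up p)) hI (fun p _ => bw_cont β _) hfi hG hGi τ
    have e1 : (fun τ => bw β (T.biUnion Up) τ * G τ)
        = fun τ => G τ * ∏ p ∈ T, bw β (Up p) τ := by
      funext τ; rw [bw_biUnion T Up hdisj, mul_comm]
    have e2 : (fun τ => q τ * G τ) = fun τ => G τ * ∏ p ∈ T, Av (Ip p) (bw β (Up p)) τ := by
      funext τ; rw [mul_comm]; rfl
    rw [e1, e2, this]
  have hZ : ∀ τ, Z β (T.biUnion Up) I τ = Av I q τ := by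
    intro τ
    have := key (fun _ => 1) continuous_const (fun _ _ _ _ => rfl) τ
    simp only [mul_one] at this
    exact this
  have hZi : ∀ p ∈ T, ∀ r ∈ T, ∀ v ∈ Ip p, v ∉ touch (Up r) \ (Ip r : Set V) := by
    intro p hp r hr v hv hv'
    by_cases hpr : r = p
    · subst hpr; exact hv'.2 (by simpa using hv)
    · exact hsep r hr p hp hpr v hv hv'.1
  have hhi : ∀ p ∈ T, Indep (Ip p) h := by
    intro p hp y τ
    refine Finset.sum_congr rfl fun r hr => ?_
    have i1 : Indep (Ip p) (Z β (Up r) (Ip r) : Cfg (m + 3) → ℝ) :=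
      indep_of_dep (Z_dep β _ _) (hZi p hp r hr)
    rw [i1 y τ]
    unfold tw
    rw [act_piecewise, i1]
  have hj := Av_jensen (I := I) hqc hhc hq0 σ
  have e3 : Av I (fun τ => q τ * Real.exp (h τ)) σ = Z β (T.biUnion Up) I (tw φ σ) := by
    rw [hZ]
    unfold tw
    rw [Av_act _ hqc]
    refine congrArg (fun f => Av I f σ) ?_
    funext τ
    simp only [hq, hh]
    rw [Real.exp_sum, ← Finset.prod_mul_distrib]
    refine Finset.prod_congr rfl fun p _ => ?_
    rw [Real.exp_sub, Real.exp_log (Z_pos β _ _ _), Real.exp_log (Z_pos β _ _ _)]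
    have := (Z_pos β (Up p) (Ip p) τ).ne'
    unfold tw
    field_simp
  rw [e3, ← hZ, ← key h hhc hhi] at hj
  exact hj

theorem subadd {κ : Type*} (T : Finset κ) (Up Ip : κ → Finset V)
    (hdisj : ∀ p ∈ T, ∀ q ∈ T, p ≠ q → Disjoint (Up p) (Up q)) (hI : ∀ p ∈ T, Ip p ⊆ I)
    (hsep : ∀ p ∈ T, ∀ q ∈ T, p ≠ q → ∀ v ∈ Ip q, v ∉ touch (Up p))
    (ψ : V → ℝ) (σ : Cfg (m + 3)) :
    D β (T.biUnion Up) I ψ σ
      ≤ Ex β (T.biUnion Up) I (fun τ => ∑ p ∈ T, D β (Up p) (Ip p) ψ τ) σ := by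
  have h1 := subadd_half (β := β) T Up Ip hdisj hI hsep ψ σ
  have h2 := subadd_half (β := β) T Up Ip hdisj hI hsep (fun v => -ψ v) σ
  have hc : ∀ φ : V → ℝ, Continuous fun τ : Cfg (m + 3) => ∑ p ∈ T,
      (Real.log (Z β (Up p) (Ip p) (tw φ τ)) - Real.log (Z β (Up p) (Ip p) τ)) :=
    fun φ => continuous_finsetSum T fun p _ =>
      ((logZ_cont β _ _).comp (continuous_tw φ)).sub (logZ_cont β _ _)
  have h3 := Ex_add (β := β) (U := T.biUnion Up) (I := I) (hc ψ) (hc fun v => -ψ v) σ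
  have h4 := Ex_neg (β := β) (U := T.biUnion Up) (I := I)
    (fun τ => ∑ p ∈ T, D β (Up p) (Ip p) ψ τ) σ
  have e : (fun τ => -∑ p ∈ T, D β (Up p) (Ip p) ψ τ) = fun τ : Cfg (m + 3) =>
      ∑ p ∈ T, (Real.log (Z β (Up p) (Ip p) (tw ψ τ)) - Real.log (Z β (Up p) (Ip p) τ))
      + ∑ p ∈ T, (Real.log (Z β (Up p) (Ip p) (tw (fun v => -ψ v) τ))
        - Real.log (Z β (Up p) (Ip p) τ)) := by
    funext τ
    rw [← Finset.sum_add_distrib, ← Finset.sum_neg_distrib]
    refine Finset.sum_congr rfl fun p _ => ?_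
    unfold D
    ring
  rw [e, h3] at h4
  unfold D at h4 ⊢
  linarith

end

end Vale.Agent.P163
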