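import Vale.Agent.P163.Basic

/-! P163, file Ising: Griffiths inequalities for the Ising model in high-temperature form.
Plan: `sum_shift`: `A ↦ symmDiff A B` is an involution of `Λ.powerset` (`Finset.sum_nbij'`,
`symmDiff_symmDiff_cancel_right`, `Finset.mem_symmDiff`).
`sum_ch_nonneg`: if `χ B = 1` for all `B ⊆ Λ` each term is 1; otherwise some `χ B = -1` and
`sum_shift` gives `S = - S`.
`gks_gen`: induction on `G` generalizing `χ` (`Finset.prod_insert`, `Ch.mul`, `ch_sp`).
`gks2`: `ZI (χ χ') * ZI 1 - ZI χ * ZI χ' = ∑ A, ∑ A', χ A (χ' A - χ' A') W A W A'`; substitute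
`A' = symmDiff A B` (`sum_shift`, `symmDiff_comm`), swap the sums; for fixed `B` with
`q e = sp B e.1 * sp B e.2 = ±1` one has
`W A * W (A ∆ B) = ∏ e, ((1 + t e ^ 2 q e) + t e (1 + q e) * s e)` (as `s e ^ 2 = 1`), and the
inner sum is `(1 - χ' B) * (gks_gen for χ χ')`.
`ZI_one_pos`: induction with `ZI_insert`, `gks1`; for `G = ∅` it is `2 ^ card`.
`gks_mono`: add one edge at a time (`Finset.induction_on` on `G \ G'` or strong induction): with
`ZI_insert`, the inequality for `insert e G` is `gks2` for `χ' = s e` after clearing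
denominators. -/

open Finset

namespace Vale.Agent.P163

variable {ι : Type} [DecidableEq ι] {Λ : Finset ι} {t : ι × ι → ℝ} {G G' : Finset (ι × ι)}
  {χ χ' : Finset ι → ℝ}

lemma sp_symmDiff (A B : Finset ι) (v : ι) : sp (symmDiff A B) v = sp A v * sp B v := by
  unfold sp
  by_cases h1 : v ∈ A <;> by_cases h2 : v ∈ B <;> simp [Finset.mem_symmDiff, h1, h2]

lemma sp_mul_self (A : Finset ι) (v : ι) : sp A v * sp A v = 1 := by
  unfold sp
  split_ifs <;> norm_num

lemma ch_sp (v : ι) : Ch fun A : Finset ι => sp A v := by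
  refine ⟨fun A B => sp_symmDiff A B v, fun A => ?_⟩
  by_cases h : v ∈ A <;> simp [sp, h]

lemma ch_one : Ch fun _ : Finset ι => (1 : ℝ) := by
  exact ⟨fun _ _ => (mul_one _).symm, fun _ => Or.inl rfl⟩

lemma Ch.mul (h : Ch χ) (h' : Ch χ') : Ch fun A => χ A * χ' A := by
  refine ⟨fun A B => ?_, fun A => ?_⟩
  · simp only [h.1, h'.1]; ring
  · rcases h.2 A with e | e <;> rcases h'.2 A with e' | e' <;> simp [e, e']

lemma sum_shift {B : Finset ι} (hB : B ⊆ Λ) (f : Finset ι → ℝ) :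
    ∑ A ∈ Λ.powerset, f (symmDiff A B) = ∑ A ∈ Λ.powerset, f A := by
  have hm : ∀ A ∈ Λ.powerset, symmDiff A B ∈ Λ.powerset := fun A hA =>
    mem_powerset.2 fun v hv => by
      rcases Finset.mem_symmDiff.1 hv with h | h
      exacts [mem_powerset.1 hA h.1, hB h.1]
  exact Finset.sum_nbij' (fun A => symmDiff A B) (fun A => symmDiff A B) hm hm
    (fun A _ => symmDiff_symmDiff_cancel_right B A) (fun A _ => symmDiff_symmDiff_cancel_right B A)
    fun _ _ => rfl

lemma sum_ch_nonneg (h : Ch χ) : 0 ≤ ∑ A ∈ Λ.powerset, χ A := by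
  by_cases hB : ∃ B ⊆ Λ, χ B = -1
  · obtain ⟨B, hB, e⟩ := hB
    have h1 := sum_shift hB χ
    simp only [h.1, e, mul_neg, mul_one, Finset.sum_neg_distrib] at h1
    linarith
  · refine Finset.sum_nonneg fun A hA => ?_
    rcases h.2 A with e | e
    · rw [e]; exact zero_le_one
    · exact absurd ⟨A, mem_powerset.1 hA, e⟩ hB

lemma gks_gen (a b : ι × ι → ℝ) (ha : ∀ e ∈ G, 0 ≤ a e) (hb : ∀ e ∈ G, 0 ≤ b e) (h : Ch χ) :
    0 ≤ ∑ A ∈ Λ.powerset, χ A * ∏ e ∈ G, (a e + b e * (sp A e.1 * sp A e.2)) := by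
  induction G using Finset.induction_on generalizing χ with
  | empty => simpa using sum_ch_nonneg h
  | insert e G he ih =>
    have ha' := fun e' he' => ha e' (mem_insert_of_mem he')
    have hb' := fun e' he' => hb e' (mem_insert_of_mem he')
    have h1 := mul_nonneg (ha e (mem_insert_self _ _)) (ih ha' hb' h)
    have h2 := mul_nonneg (hb e (mem_insert_self _ _))
      (ih ha' hb' (h.mul ((ch_sp e.1).mul (ch_sp e.2))))
    refine (add_nonneg h1 h2).trans (le_of_eq ?_)
    rw [Finset.mul_sum, Finset.mul_sum, ← Finset.sum_add_distrib]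
    refine Finset.sum_congr rfl fun A _ => ?_
    rw [Finset.prod_insert he]
    ring

lemma ZI_insert {e : ι × ι} (he : e ∉ G) (f : Finset ι → ℝ) :
    ZI Λ t (insert e G) f
      = ZI Λ t G f + t e * ZI Λ t G (fun A => f A * (sp A e.1 * sp A e.2)) := by
  unfold ZI W
  rw [Finset.mul_sum, ← Finset.sum_add_distrib]
  refine Finset.sum_congr rfl fun A _ => ?_
  rw [Finset.prod_insert he]
  ring

theorem gks1 (ht : ∀ e ∈ G, 0 ≤ t e) (h : Ch χ) : 0 ≤ ZI Λ t G χ := by
  exact gks_gen (fun _ => 1) t (fun _ _ => zero_le_one) ht h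

lemma ZI_one_pos (ht : ∀ e ∈ G, 0 ≤ t e) : 0 < ZI Λ t G fun _ => 1 := by
  induction G using Finset.induction_on with
  | empty => simp [ZI, W]
  | insert e G he ih =>
    have ht' := fun e' he' => ht e' (mem_insert_of_mem he')
    rw [ZI_insert he]
    exact add_pos_of_pos_of_nonneg (ih ht') (mul_nonneg (ht e (mem_insert_self _ _))
      (gks1 ht' (ch_one.mul ((ch_sp e.1).mul (ch_sp e.2)))))

theorem gks2 (ht : ∀ e ∈ G, 0 ≤ t e ∧ t e ≤ 1) (h : Ch χ) (h' : Ch χ') :
    ZI Λ t G χ * ZI Λ t G χ' ≤ ZI Λ t G (fun A => χ A * χ' A) * ZI Λ t G fun _ => 1 := by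
  have h1 : ∀ B ∈ Λ.powerset, 0 ≤ ∑ A ∈ Λ.powerset,
      (χ A * χ' A * W t G A * (1 * W t G (symmDiff B A)) -
        χ A * W t G A * (χ' (symmDiff B A) * W t G (symmDiff B A))) := fun B _ => by
    have hq : ∀ e : ι × ι, sp B e.1 * sp B e.2 = 1 ∨ sp B e.1 * sp B e.2 = -1 := fun e =>
      ((ch_sp e.1).mul (ch_sp e.2)).2 B
    have h2 := gks_gen (Λ := Λ) (G := G) (fun e => 1 + t e ^ 2 * (sp B e.1 * sp B e.2))
      (fun e => t e * (1 + sp B e.1 * sp B e.2))
      (fun e he => by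
        obtain ⟨h0, h1⟩ := ht e he
        rcases hq e with q | q <;> rw [q] <;> nlinarith)
      (fun e he => by
        obtain ⟨h0, h1⟩ := ht e he
        rcases hq e with q | q <;> rw [q] <;> nlinarith) (h.mul h')
    have h3 : 0 ≤ 1 - χ' B := by rcases h'.2 B with e | e <;> rw [e] <;> norm_num
    refine (mul_nonneg h3 h2).trans (le_of_eq ?_)
    rw [Finset.mul_sum]
    refine Finset.sum_congr rfl fun A _ => ?_
    have h4 : ∏ e ∈ G, (1 + t e ^ 2 * (sp B e.1 * sp B e.2) +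
        t e * (1 + sp B e.1 * sp B e.2) * (sp A e.1 * sp A e.2)) =
        W t G A * W t G (symmDiff B A) := by
      unfold W
      rw [← Finset.prod_mul_distrib]
      refine Finset.prod_congr rfl fun e _ => ?_
      rw [sp_symmDiff, sp_symmDiff]
      linear_combination (-(t e ^ 2 * (sp B e.1 * sp B e.2) * (sp A e.2 * sp A e.2))) *
        sp_mul_self A e.1 - t e ^ 2 * (sp B e.1 * sp B e.2) * sp_mul_self A e.2
    rw [h4, h'.1]
    ring
  have h5 := Finset.sum_nonneg h1
  rw [Finset.sum_comm] at h5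
  rw [← sub_nonneg]
  refine h5.trans (le_of_eq ?_)
  unfold ZI
  rw [Finset.sum_mul, Finset.sum_mul, ← Finset.sum_sub_distrib]
  refine Finset.sum_congr rfl fun A hA => ?_
  rw [Finset.sum_sub_distrib, ← Finset.mul_sum _ _ (χ A * χ' A * W t G A),
    ← Finset.mul_sum _ _ (χ A * W t G A),
    sum_shift (mem_powerset.1 hA) fun A' => 1 * W t G A',
    sum_shift (mem_powerset.1 hA) fun A' => χ' A' * W t G A']

theorem gks_mono (ht : ∀ e ∈ G, 0 ≤ t e ∧ t e ≤ 1) (hG : G' ⊆ G) (h : Ch χ) :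
    ZI Λ t G' χ / ZI Λ t G' (fun _ => 1) ≤ ZI Λ t G χ / ZI Λ t G fun _ => 1 := by
  have key : ∀ H : Finset (ι × ι), Disjoint H G' → H ∪ G' ⊆ G →
      ZI Λ t G' χ / ZI Λ t G' (fun _ => 1) ≤
        ZI Λ t (H ∪ G') χ / ZI Λ t (H ∪ G') fun _ => 1 := fun H => by
    induction H using Finset.induction_on with
    | empty => intro _ _; rw [empty_union]
    | insert e H he ih =>
      intro hd hs
      rw [insert_union] at hs ⊢
      rw [disjoint_insert_left] at hd
      have hs' : H ∪ G' ⊆ G := (subset_insert _ _).trans hs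
      have heH : e ∉ H ∪ G' := fun h' => (mem_union.1 h').elim he hd.1
      have htH := fun e' he' => ht e' (hs' he')
      refine (ih hd.2 hs').trans ?_
      rw [div_le_div_iff₀ (ZI_one_pos fun e' he' => (htH e' he').1)
        (ZI_one_pos fun e' he' => (ht e' (hs he')).1), ZI_insert heH, ZI_insert heH]
      have h2 := mul_le_mul_of_nonneg_left
        (gks2 (Λ := Λ) htH h ((ch_sp e.1).mul (ch_sp e.2))) (ht e (hs (mem_insert_self _ _))).1
      simp only [one_mul]
      linarith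
  have h1 := key (G \ G') sdiff_disjoint (by rw [sdiff_union_of_subset hG])
  rwa [sdiff_union_of_subset hG] at h1

lemma corr_nonneg (ht : ∀ e ∈ G, 0 ≤ t e) (x y : ι) : 0 ≤ corr Λ t G x y := by
  exact div_nonneg (gks1 ht ((ch_sp x).mul (ch_sp y))) (ZI_one_pos ht).le

lemma corr_le_one (ht : ∀ e ∈ G, 0 ≤ t e ∧ t e ≤ 1) (x y : ι) : corr Λ t G x y ≤ 1 := by
  rw [corr, div_le_one (ZI_one_pos fun e he => (ht e he).1)]
  refine Finset.sum_le_sum fun A _ => mul_le_mul_of_nonneg_right ?_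
    (Finset.prod_nonneg fun e he => ?_)
  · rcases ((ch_sp x).mul (ch_sp y)).2 A with q | q <;> simp only [q] <;> norm_num
  · obtain ⟨h0, h1⟩ := ht e he
    rcases ((ch_sp e.1).mul (ch_sp e.2)).2 A with q | q <;> simp only [q] <;> linarith

lemma corr_symm (x y : ι) : corr Λ t G x y = corr Λ t G y x := by
  simp only [corr, mul_comm]

lemma corr_self (ht : ∀ e ∈ G, 0 ≤ t e) (x : ι) : corr Λ t G x x = 1 := by
  simp only [corr, sp_mul_self]
  exact div_self (ZI_one_pos ht).ne'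

lemma corr_mono (ht : ∀ e ∈ G, 0 ≤ t e ∧ t e ≤ 1) (hG : G' ⊆ G) (x y : ι) :
    corr Λ t G' x y ≤ corr Λ t G x y := by
  exact gks_mono ht hG ((ch_sp x).mul (ch_sp y))

lemma corr_congr {t' : ι × ι → ℝ} (h : ∀ e ∈ G, t e = t' e) (x y : ι) :
    corr Λ t G x y = corr Λ t' G x y := by
  have hW : W t G = W t' G := funext fun A => Finset.prod_congr rfl fun e he => by rw [h e he]
  simp only [corr, ZI, hW]

end Vale.Agent.P163
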