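import Vale.Agent.P163.Gibbs

/-! P163, file Quasi: quasi-invariance of the Gibbs measure under twists supported inside.
Plan: `abs_sin_sub_le`: for `|u| ≤ 1` use `Real.sin_bound` or `Real.sin_gt_sub_cube`, `Real.sin_le`;
for `|u| ≥ 1`, `|sin u - u| ≤ 1 + |u| ≤ 2 u ^ 2`.
`hU_tw_ge`: bondwise by `dot_tw` with `A = ψ x - ψ y`: the change is
`(cos (t A) - 1) P + sin (t A) Q ≥ t A Q - 3 (t A) ^ 2` (`abs_P_le`, `abs_Q_le` with `ne01`,
`Real.one_sub_sq_div_two_le_cos`); `ℓ = ∑ A Q`.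
`bw_tw_ge`: with `L t = β hU (tw (t ψ) τ)`, `L t ≥ L 0 + t ℓ' - 3 t ^ 2 B` for all `t`; apply it
at `T` if `ℓ' ≥ 0` and at `-T` otherwise to get `T |ℓ'| ≤ max (L T) (L (-T)) - L 0 + 3 T ^ 2 B`;
so `L t ≥ 2 L 0 - max (L T) (L (-T)) - 6 B T ^ 2`; exponentiate: with `u = q₊ + q₋ ≥ exp max`,
`q t ≥ e q ^ 2 / u ≥ e (q - u / 4)`.
`quasi`: for each `i`, `Av I (bw * f) σ = Av I ((bw * f) ∘ tw (t i ψ)) σ` by `Av_act_inside`
(`Rz_zero`); average with the weights `w i`; pointwise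
`∑ w i bw (tw ..) f (tw ..) ≥ e (q - u / 4)₊ κ ≥ e κ (q - u / 4)`; finally
`Av I q₊ σ = Av I q₋ σ = Z` again by `Av_act_inside`, so the average is `≥ e κ Z / 2`. -/

open MeasureTheory Filter Topology Finset

namespace Vale.Agent.P163

variable {m : ℕ} {β : ℝ} {U I : Finset V}

lemma abs_sin_sub_le (u : ℝ) : |Real.sin u - u| ≤ 2 * u ^ 2 := by
  have key : ∀ x : ℝ, 0 ≤ x → |Real.sin x - x| ≤ 2 * x ^ 2 := by
    intro x hx
    have h1 := Real.sin_le hx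
    rw [abs_sub_comm, abs_of_nonneg (by linarith)]
    rcases hx.eq_or_lt with rfl | hx'
    · simp
    by_cases h : x ≤ 1
    · have := Real.sin_gt_sub_cube hx'
      nlinarith [mul_nonneg (sq_nonneg x) (sub_nonneg.2 h)]
    · have := Real.neg_one_le_sin x
      nlinarith
  rcases le_total 0 u with h | h
  · exact key u h
  · have := key (-u) (by linarith)
    rw [Real.sin_neg, neg_sub_neg, abs_sub_comm, neg_sq] at this
    exact this

lemma dot_tw_ge (ψ : V → ℝ) (τ : Cfg (m + 3)) (t : ℝ) (x y : V) :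
    dot τ x y + t * ((ψ x - ψ y) * (sc 0 x τ * sc 1 y τ - sc 1 x τ * sc 0 y τ))
      - 3 * t ^ 2 * (ψ y - ψ x) ^ 2 ≤ dot (tw (fun v => t * ψ v) τ) x y := by
  rw [dot_tw]
  have hP : |sc 0 x τ * sc 0 y τ + sc 1 x τ * sc 1 y τ| ≤ 1 := abs_P_le (ne01 m) (τ x) (τ y)
  have hQ : |sc 0 x τ * sc 1 y τ - sc 1 x τ * sc 0 y τ| ≤ 1 := abs_Q_le (ne01 m) (τ x) (τ y)
  set P := sc 0 x τ * sc 0 y τ + sc 1 x τ * sc 1 y τ
  set Q := sc 0 x τ * sc 1 y τ - sc 1 x τ * sc 0 y τ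
  set u := t * ψ x - t * ψ y with hu
  have e1 : t * ((ψ x - ψ y) * Q) = u * Q := by rw [hu]; ring
  have e2 : 3 * t ^ 2 * (ψ y - ψ x) ^ 2 = 3 * u ^ 2 := by rw [hu]; ring
  rw [e1, e2]
  have h1 := Real.one_sub_sq_div_two_le_cos (x := u)
  have h2 := Real.cos_le_one u
  have h3 : |(Real.sin u - u) * Q| ≤ 2 * u ^ 2 * 1 := by
    rw [abs_mul]
    exact mul_le_mul (abs_sin_sub_le u) hQ (abs_nonneg _) (by positivity)
  have h4 := (abs_le.1 h3).1
  have h5 := (abs_le.1 hP).2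
  nlinarith [mul_nonneg (sub_nonneg.2 h2) (sub_nonneg.2 h5), sq_nonneg u]

lemma hU_tw_ge (U : Finset V) (ψ : V → ℝ) (τ : Cfg (m + 3)) :
    ∃ ℓ : ℝ, ∀ t : ℝ,
      hU U τ + t * ℓ - 3 * t ^ 2 * grad2 U ψ ≤ hU U (tw (fun v => t * ψ v) τ) := by
  refine ⟨∑ v ∈ U, ((ψ v - ψ (rt v)) * (sc 0 v τ * sc 1 (rt v) τ - sc 1 v τ * sc 0 (rt v) τ)
    + (ψ v - ψ (up v)) * (sc 0 v τ * sc 1 (up v) τ - sc 1 v τ * sc 0 (up v) τ)), fun t => ?_⟩
  simp only [hU, grad2, mul_sum, ← sum_add_distrib, ← sum_sub_distrib]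
  refine sum_le_sum fun v _ => ?_
  have h1 := dot_tw_ge ψ τ t v (rt v)
  have h2 := dot_tw_ge ψ τ t v (up v)
  linarith

lemma bw_tw_ge (hβ : 0 ≤ β) (ψ : V → ℝ) {B T t : ℝ} (hB : β * grad2 U ψ ≤ B) (ht : |t| ≤ T)
    (τ : Cfg (m + 3)) :
    Real.exp (-(6 * B * T ^ 2)) * (bw β U τ
        - (bw β U (tw (fun v => T * ψ v) τ) + bw β U (tw (fun v => -T * ψ v) τ)) / 4)
      ≤ bw β U (tw (fun v => t * ψ v) τ) := by
  obtain ⟨ℓ, hℓ⟩ := hU_tw_ge U ψ τ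
  have hL : ∀ r : ℝ, β * hU U τ + r * (β * ℓ) - 3 * r ^ 2 * B
      ≤ β * hU U (tw (fun v => r * ψ v) τ) := by
    intro r
    have h1 := mul_le_mul_of_nonneg_left (hℓ r) hβ
    nlinarith [mul_le_mul_of_nonneg_left hB (sq_nonneg r)]
  have hg : 0 ≤ grad2 U ψ := sum_nonneg fun v _ => by positivity
  have hB0 : 0 ≤ B := le_trans (mul_nonneg hβ hg) hB
  have hT : 0 ≤ T := (abs_nonneg t).trans ht
  have ht2 : t ^ 2 ≤ T ^ 2 := by rw [← sq_abs]; exact pow_le_pow_left₀ (abs_nonneg t) ht 2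
  unfold bw
  set L0 := β * hU U τ
  set Lp := β * hU U (tw (fun v => T * ψ v) τ) with hLp
  set Lm := β * hU U (tw (fun v => -T * ψ v) τ) with hLm
  set Lt := β * hU U (tw (fun v => t * ψ v) τ) with hLt
  have hp := hL T
  have hm := hL (-T)
  have h0 := hL t
  rw [← hLp] at hp
  rw [← hLm] at hm
  rw [← hLt] at h0
  have htl : -(T * |β * ℓ|) ≤ t * (β * ℓ) := by
    have h1 : |t * (β * ℓ)| ≤ T * |β * ℓ| := by
      rw [abs_mul]; exact mul_le_mul_of_nonneg_right ht (abs_nonneg _)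
    exact (abs_le.1 h1).1
  obtain ⟨Lx, hLx, hx⟩ : ∃ Lx, Real.exp Lx ≤ Real.exp Lp + Real.exp Lm ∧
      2 * L0 - Lx - 6 * B * T ^ 2 ≤ Lt := by
    rcases le_total 0 (β * ℓ) with h | h
    · refine ⟨Lp, by linarith [Real.exp_pos Lm], ?_⟩
      rw [abs_of_nonneg h] at htl
      nlinarith [mul_le_mul_of_nonneg_left ht2 hB0]
    · refine ⟨Lm, by linarith [Real.exp_pos Lp], ?_⟩
      rw [abs_of_nonpos h] at htl
      nlinarith [mul_le_mul_of_nonneg_left ht2 hB0]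
  refine le_trans ?_ (Real.exp_le_exp.2 hx)
  have e : Real.exp (2 * L0 - Lx - 6 * B * T ^ 2)
      = Real.exp (-(6 * B * T ^ 2)) * (Real.exp L0 ^ 2 / Real.exp Lx) := by
    rw [← Real.exp_nat_mul, ← Real.exp_sub, ← Real.exp_add]
    congr 1; push_cast; ring
  rw [e]
  refine mul_le_mul_of_nonneg_left ?_ (Real.exp_pos _).le
  have hx0 := Real.exp_pos Lx
  rw [le_div_iff₀ hx0]
  nlinarith [sq_nonneg (Real.exp L0 - Real.exp Lx / 2), mul_le_mul_of_nonneg_left hLx hx0.le]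

theorem quasi (hβ : 0 ≤ β) (ψ : V → ℝ) (hψ : ∀ v, v ∉ I → ψ v = 0) {B T κ : ℝ}
    (hB : β * grad2 U ψ ≤ B) (hκ : 0 ≤ κ) {ι : Type*} (N : Finset ι) (t w : ι → ℝ)
    (ht : ∀ i ∈ N, |t i| ≤ T) (hw : ∀ i ∈ N, 0 ≤ w i) (hw1 : ∑ i ∈ N, w i = 1)
    (f : Cfg (m + 3) → ℝ) (hf : Continuous f) (hf0 : ∀ τ, 0 ≤ f τ)
    (hfκ : ∀ τ, κ ≤ ∑ i ∈ N, w i * f (tw (fun v => t i * ψ v) τ)) (σ : Cfg (m + 3)) :
    κ * Real.exp (-(6 * B * T ^ 2)) / 2 ≤ Ex β U I f σ := by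
  have hin : ∀ (r : ℝ) {F : Cfg (m + 3) → ℝ}, Continuous F →
      Av I (fun τ => F (tw (fun v => r * ψ v) τ)) σ = Av I F σ := fun r F hF =>
    Av_act_inside (g := fun v => Rz m (r * ψ v))
      (fun v hv => by rw [hψ v hv, mul_zero, Rz_zero]) hF σ
  have hq : Continuous fun τ : Cfg (m + 3) => bw β U τ * f τ := (bw_cont β U).mul hf
  have hct : ∀ r : ℝ, Continuous fun τ : Cfg (m + 3) => bw β U (tw (fun v => r * ψ v) τ) :=
    fun r => (bw_cont β U).comp (continuous_tw _)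
  have hci : ∀ i, Continuous fun τ : Cfg (m + 3) => w i *
      (bw β U (tw (fun v => t i * ψ v) τ) * f (tw (fun v => t i * ψ v) τ)) :=
    fun i => continuous_const.mul (hq.comp (continuous_tw _))
  have h1 : Av I (fun τ => bw β U τ * f τ) σ = Av I (fun τ => ∑ i ∈ N, w i *
      (bw β U (tw (fun v => t i * ψ v) τ) * f (tw (fun v => t i * ψ v) τ))) σ := by
    rw [Av_sum N fun i _ => hci i]
    have : ∀ i ∈ N, Av I (fun τ => w i * (bw β U (tw (fun v => t i * ψ v) τ)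
        * f (tw (fun v => t i * ψ v) τ))) σ = w i * Av I (fun τ => bw β U τ * f τ) σ := by
      intro i _
      rw [Av_const_mul, hin (t i) hq]
    rw [sum_congr rfl this, ← sum_mul, hw1, one_mul]
  set E := Real.exp (-(6 * B * T ^ 2)) with hE
  have hcs : Continuous fun τ : Cfg (m + 3) =>
      bw β U (tw (fun v => T * ψ v) τ) + bw β U (tw (fun v => -T * ψ v) τ) :=
    (hct T).add (hct (-T))
  have hcq : Continuous fun τ : Cfg (m + 3) => 1 / 4 *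
      (bw β U (tw (fun v => T * ψ v) τ) + bw β U (tw (fun v => -T * ψ v) τ)) :=
    continuous_const.mul hcs
  have h2 : Av I (fun τ => κ * E * (bw β U τ - 1 / 4 *
      (bw β U (tw (fun v => T * ψ v) τ) + bw β U (tw (fun v => -T * ψ v) τ)))) σ
      = κ * E / 2 * Z β U I σ := by
    rw [Av_const_mul, Av_sub (bw_cont β U) hcq, Av_const_mul, Av_add (hct T) (hct (-T)),
      hin T (bw_cont β U), hin (-T) (bw_cont β U)]
    unfold Z; ring
  unfold Ex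
  rw [le_div_iff₀ (Z_pos β U I σ), h1, ← h2]
  refine Av_mono (continuous_const.mul ((bw_cont β U).sub hcq))
    (continuous_finsetSum _ fun i _ => hci i) (fun τ => ?_) σ
  set A := E * (bw β U τ
    - (bw β U (tw (fun v => T * ψ v) τ) + bw β U (tw (fun v => -T * ψ v) τ)) / 4) with hA
  have h3 : ∀ i ∈ N, max A 0 * (w i * f (tw (fun v => t i * ψ v) τ)) ≤ w i *
      (bw β U (tw (fun v => t i * ψ v) τ) * f (tw (fun v => t i * ψ v) τ)) := by
    intro i hi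
    have a1 : max A 0 ≤ bw β U (tw (fun v => t i * ψ v) τ) :=
      max_le (bw_tw_ge hβ ψ hB (ht i hi) τ) (bw_pos _ _ _).le
    have a2 := mul_le_mul_of_nonneg_right a1 (mul_nonneg (hw i hi) (hf0 (tw (fun v => t i * ψ v) τ)))
    linarith
  refine le_trans ?_ (sum_le_sum h3)
  rw [← mul_sum]
  have a3 := mul_le_mul_of_nonneg_left (hfκ τ) (le_max_right A 0)
  have a4 := mul_le_mul_of_nonneg_right (le_max_left A 0) hκ
  have a5 : κ * E * (bw β U τ - 1 / 4 *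
      (bw β U (tw (fun v => T * ψ v) τ) + bw β U (tw (fun v => -T * ψ v) τ))) = A * κ := by
    rw [hA]; ring
  exact a5.le.trans (a4.trans a3)

end Vale.Agent.P163
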