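import Vale.Agent.P163.Unwind
import Vale.Agent.P163.Quasi

/-! P163, file Recur: the stiffness decreases from scale `3 ^ k` to scale `3 ^ (k + 1)`.
Plan: `fejer`, `fejer_one`: induction on `N` (`Ioo (-(N+1)) (N+1)` versus `Ioo (-N) N`; it helps
to prove first the telescoping `∑ i ∈ Ioo (-(N+1)) (N+1), (2 f i - f (i+1) - f (i-1))
= f N - f (N+1) + f (-N) - f (-(N+1))`); `fejer_one` is `fejer` for `f i = - i ^ 2 / 2`.
`gain`: `s = M w`, `τ = π / 3 ^ i`, `T = 4 π / w = N τ`; centre block `c = gb b s (1,1)`;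
`f τ' = c₀ τ ^ 2 s ^ 2 - D_c (τ co d) τ' ≥ 0`; `ψ = shf b s d` (cast to reals), which vanishes off
`bI b (3 s)`, has `|∇ψ| ≤ 1` (omega), so `grad2 ≤ 18 s ^ 2` (`grad2_le`, `card_bU`), and equals
`co d v - co d c` on `bC c s`. Apply `quasi` with `N = Ioo (-N) N`, `t i = i τ`,
`w i = (N - |i|) / N ^ 2`, `B = 18 β s ^ 2`. With `F i = log Z_c (tw (i τ co d) τ')`,
`D_tw_congr` and `tw_tw` give `D_c (τ co d) (tw (i τ ψ) τ') = 2 F i - F (i+1) - F (i-1)`; `fejer`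
turns the weighted sum into `D_c (T co d) τ' ≤ 64 π ^ 2 β M` (`cheapBlock`, `tw_zero`).
So `κ = τ ^ 2 s ^ 2 (c₀ - 4 β / M)` and `6 B T ^ 2 = 1728 π ^ 2 β M ^ 2`.
`recur`: `bU b (3 s) = gU ([0,3) × [0,3)) b s` (`gU_box`), `subadd_grid`; pointwise the sum of the
nine `D` is at most `9 c τ ^ 2 s ^ 2 - f`; `Ex_mono`, `Ex_sub`, `Ex_const`, `gain` with
`M = 3 ^ j`, `w = 3 ^ (k - j)`, `N = 4 * 3 ^ (i - k + j)`. -/

open MeasureTheory Filter Topology Finset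

namespace Vale.Agent.P163

variable {m : ℕ} {β : ℝ}

lemma sum_Ioo_succ (g : ℤ → ℝ) (N : ℕ) :
    ∑ i ∈ Ioo (-((N + 1 + 1 : ℕ) : ℤ)) ((N + 1 + 1 : ℕ) : ℤ), g i
      = ∑ i ∈ Ioo (-((N + 1 : ℕ) : ℤ)) ((N + 1 : ℕ) : ℤ), g i + g (N + 1) + g (-(N + 1)) := by
  have h : Ioo (-((N + 1 + 1 : ℕ) : ℤ)) ((N + 1 + 1 : ℕ) : ℤ)
      = insert (-((N : ℤ) + 1)) (insert ((N : ℤ) + 1)
        (Ioo (-((N + 1 : ℕ) : ℤ)) ((N + 1 : ℕ) : ℤ))) := by
    ext i; simp only [mem_Ioo, mem_insert]; omega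
  rw [h, sum_insert, sum_insert]
  · ring
  · simp only [mem_Ioo]; omega
  · simp only [mem_Ioo, mem_insert]; omega

lemma tele (f : ℤ → ℝ) (N : ℕ) :
    ∑ i ∈ Ioo (-((N + 1 : ℕ) : ℤ)) ((N + 1 : ℕ) : ℤ), (2 * f i - f (i + 1) - f (i - 1))
      = f N - f (N + 1) + f (-N) - f (-(N + 1)) := by
  induction N with
  | zero =>
    have : Ioo (-((0 + 1 : ℕ) : ℤ)) ((0 + 1 : ℕ) : ℤ) = {0} := by
      ext i; simp only [mem_Ioo, mem_singleton]; omega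
    rw [this]; simp; ring
  | succ N ih =>
    rw [sum_Ioo_succ, ih]
    push_cast
    have e1 : (N : ℤ) + 1 - 1 = N := by ring
    have e2 : -((N : ℤ) + 1) + 1 = -N := by ring
    have e3 : -((N : ℤ) + 1) - 1 = -(N + 1 + 1) := by ring
    rw [e1, e2, e3]; ring

lemma fejer (f : ℤ → ℝ) (N : ℕ) :
    ∑ i ∈ Ioo (-(N : ℤ)) N, ((N : ℝ) - |(i : ℝ)|) * (2 * f i - f (i + 1) - f (i - 1))
      = 2 * f 0 - f N - f (-N) := by
  induction N with
  | zero => simp; ring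
  | succ N ih =>
    have h1 : ∑ i ∈ Ioo (-((N + 1 : ℕ) : ℤ)) ((N + 1 : ℕ) : ℤ),
        ((N : ℝ) - |(i : ℝ)|) * (2 * f i - f (i + 1) - f (i - 1))
        = ∑ i ∈ Ioo (-(N : ℤ)) N, ((N : ℝ) - |(i : ℝ)|) * (2 * f i - f (i + 1) - f (i - 1)) := by
      symm
      refine sum_subset (fun i hi => ?_) fun i hi hi' => ?_
      · simp only [mem_Ioo] at hi ⊢; omega
      · simp only [mem_Ioo] at hi hi'
        have : i = N ∨ i = -N := by omega
        rcases this with rfl | rfl <;> simp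
    have h2 := tele f N
    have h3 : ∑ i ∈ Ioo (-((N + 1 : ℕ) : ℤ)) ((N + 1 : ℕ) : ℤ),
        (((N + 1 : ℕ) : ℝ) - |(i : ℝ)|) * (2 * f i - f (i + 1) - f (i - 1))
        = ∑ i ∈ Ioo (-((N + 1 : ℕ) : ℤ)) ((N + 1 : ℕ) : ℤ),
          ((N : ℝ) - |(i : ℝ)|) * (2 * f i - f (i + 1) - f (i - 1))
          + ∑ i ∈ Ioo (-((N + 1 : ℕ) : ℤ)) ((N + 1 : ℕ) : ℤ), (2 * f i - f (i + 1) - f (i - 1)) := by
      rw [← sum_add_distrib]
      refine sum_congr rfl fun i _ => ?_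
      push_cast; ring
    rw [h3, h1, ih, h2]
    push_cast; ring

lemma fejer_one (N : ℕ) : ∑ i ∈ Ioo (-(N : ℤ)) N, ((N : ℝ) - |(i : ℝ)|) = (N : ℝ) ^ 2 := by
  have h := fejer (fun i => -(i : ℝ) ^ 2 / 2) N
  have h' : ∀ i : ℤ, 2 * (-(i : ℝ) ^ 2 / 2) - -((i + 1 : ℤ) : ℝ) ^ 2 / 2
      - -((i - 1 : ℤ) : ℝ) ^ 2 / 2 = 1 := by
    intro i; push_cast; ring
  simp only [h', mul_one] at h
  rw [h]; push_cast; ring

/-- The shift profile on the block `(b, 3 s)`. -/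
def shf (b : V) (s : ℕ) (d : Bool) (v : V) : ℤ :=
  max 0 (min (min (co d v - co d b - s) (co d b + 3 * s - co d v))
    (min (co (!d) v - co (!d) b) (co (!d) b + 3 * s - co (!d) v)))

lemma shf_zero (b : V) (s : ℕ) (d : Bool) {v : V} (hv : v ∉ bI b (3 * s)) : shf b s d v = 0 := by
  rw [mem_bI] at hv
  push_cast at hv
  cases d <;> simp only [shf, co, Bool.not_true, Bool.not_false, if_true, Bool.false_eq_true,
    if_false] <;> omega

lemma shf_lip (b : V) (s : ℕ) (d : Bool) (v : V) :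
    |shf b s d (rt v) - shf b s d v| ≤ 1 ∧ |shf b s d (up v) - shf b s d v| ≤ 1 := by
  cases d <;> simp only [shf, co, rt, up, Bool.not_true, Bool.not_false, if_true,
    Bool.false_eq_true, if_false, abs_le] <;> omega

lemma shf_centre (b : V) (s : ℕ) (d : Bool) {v : V} (hv : v ∈ bC (gb b s (1, 1)) s) :
    shf b s d v = co d v - co d b - s := by
  rw [mem_bC] at hv
  simp only [gb, mul_one] at hv
  cases d <;> simp only [shf, co, Bool.not_true, Bool.not_false, if_true, Bool.false_eq_true,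
    if_false] <;> omega

theorem gain (hβ : 0 ≤ β) (b : V) (d : Bool) (M w N : ℕ) (hM : 0 < M) (hw : 0 < w) (hN : 0 < N)
    (τ c : ℝ) (hτ : N * τ = 4 * Real.pi / w) (hc : 4 * β / M ≤ c)
    (hD : ∀ σ : Cfg (m + 3), D β (bU (gb b (M * w) (1, 1)) (M * w))
      (bI (gb b (M * w) (1, 1)) (M * w)) (fun v => τ * (co d v : ℝ)) σ
        ≤ c * τ ^ 2 * ((M : ℝ) * w) ^ 2) (σ : Cfg (m + 3)) :
    τ ^ 2 * ((M : ℝ) * w) ^ 2 * (c - 4 * β / M)
        * Real.exp (-(1728 * Real.pi ^ 2 * β * (M : ℝ) ^ 2)) / 2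
      ≤ Ex β (bU b (3 * (M * w))) (bI b (3 * (M * w)))
        (fun τ' => c * τ ^ 2 * ((M : ℝ) * w) ^ 2 - D β (bU (gb b (M * w) (1, 1)) (M * w))
          (bI (gb b (M * w) (1, 1)) (M * w)) (fun v => τ * (co d v : ℝ)) τ') σ := by
  have hM' : (0 : ℝ) < M := by exact_mod_cast hM
  have hw' : (0 : ℝ) < w := by exact_mod_cast hw
  have hN' : (0 : ℝ) < N := by exact_mod_cast hN
  have hpi := Real.pi_pos
  have hτ0 : 0 < τ := by
    have : 0 < N * τ := by rw [hτ]; positivity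
    exact (mul_pos_iff_of_pos_left hN').1 this
  set s : ℕ := M * w with hs
  set cb : V := gb b s (1, 1) with hcb
  have hB : β * grad2 (bU b (3 * s)) (fun v => (shf b s d v : ℝ))
      ≤ 18 * β * ((M : ℝ) * w) ^ 2 := by
    have h1 := grad2_le (U := bU b (3 * s)) (ψ := fun v => (shf b s d v : ℝ)) (a := 1)
      fun v _ => by
        have := shf_lip b s d v
        exact ⟨by exact_mod_cast this.1, by exact_mod_cast this.2⟩
    rw [card_bU] at h1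
    have h2 : (((3 * s) ^ 2 : ℕ) : ℝ) = 9 * ((M : ℝ) * w) ^ 2 := by
      rw [hs]; push_cast; ring
    rw [h2] at h1
    nlinarith [mul_le_mul_of_nonneg_left h1 hβ]
  have hκ : 0 ≤ τ ^ 2 * ((M : ℝ) * w) ^ 2 * (c - 4 * β / M) :=
    mul_nonneg (by positivity) (by linarith)
  have key := quasi (m := m) (U := bU b (3 * s)) (I := bI b (3 * s)) hβ
    (fun v => (shf b s d v : ℝ)) (fun v hv => by rw [shf_zero b s d hv]; simp) (T := N * τ) hB hκ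
    (Ioo (-(N : ℤ)) N) (fun i => (i : ℝ) * τ) (fun i => ((N : ℝ) - |(i : ℝ)|) / (N : ℝ) ^ 2)
    (fun i hi => ?_) (fun i hi => ?_) ?_
    (fun τ' => c * τ ^ 2 * ((M : ℝ) * w) ^ 2
      - D β (bU cb s) (bI cb s) (fun v => τ * (co d v : ℝ)) τ')
    (continuous_const.sub (D_cont _ _ _ _)) (fun τ' => sub_nonneg.2 (hD τ')) (fun τ' => ?_) σ
  · have e : 6 * (18 * β * ((M : ℝ) * w) ^ 2) * (N * τ) ^ 2
        = 1728 * Real.pi ^ 2 * β * (M : ℝ) ^ 2 := by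
      rw [hτ]; field_simp; ring
    rw [e] at key
    exact key
  · rw [abs_mul, abs_of_pos hτ0]
    refine mul_le_mul_of_nonneg_right ?_ hτ0.le
    rw [mem_Ioo] at hi
    have : |i| ≤ (N : ℤ) := abs_le.2 ⟨hi.1.le, hi.2.le⟩
    exact_mod_cast this
  · rw [mem_Ioo] at hi
    have : |i| ≤ (N : ℤ) := abs_le.2 ⟨hi.1.le, hi.2.le⟩
    have : |(i : ℝ)| ≤ N := by exact_mod_cast this
    exact div_nonneg (by linarith) (by positivity)
  · rw [← sum_div, fejer_one]; field_simp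
  · set F : ℤ → ℝ := fun i => Real.log (Z β (bU cb s) (bI cb s)
      (tw (fun v => (i : ℝ) * τ * (co d v : ℝ)) τ')) with hF
    have hDi : ∀ i : ℤ, D β (bU cb s) (bI cb s) (fun v => τ * (co d v : ℝ))
        (tw (fun v => (i : ℝ) * τ * (shf b s d v : ℝ)) τ') = 2 * F i - F (i + 1) - F (i - 1) := by
      intro i
      rw [D_tw_congr (ψ' := fun v => (i : ℝ) * τ * (co d v : ℝ)) _
        (-((i : ℝ) * τ * ((co d b : ℝ) + s))) fun v hv _ => by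
          rw [shf_centre b s d (touch_bU hv)]; push_cast; ring]
      have e1 : (fun v => τ * (co d v : ℝ) + (i : ℝ) * τ * (co d v : ℝ))
          = fun v => ((i + 1 : ℤ) : ℝ) * τ * (co d v : ℝ) := by
        funext v; push_cast; ring
      have e2 : (fun v => -(τ * (co d v : ℝ)) + (i : ℝ) * τ * (co d v : ℝ))
          = fun v => ((i - 1 : ℤ) : ℝ) * τ * (co d v : ℝ) := by
        funext v; push_cast; ring
      simp only [D, tw_tw, hF]
      rw [e1, e2]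
    have hDT : 2 * F 0 - F N - F (-N) ≤ 64 * Real.pi ^ 2 * β * M := by
      have h1 := cheapBlock (m := m) hβ cb d M w hw τ'
      have e0 : (fun v => ((0 : ℤ) : ℝ) * τ * (co d v : ℝ)) = fun _ => 0 := by
        funext v; simp
      have e1 : (fun v => (((N : ℤ)) : ℝ) * τ * (co d v : ℝ))
          = fun v => 4 * Real.pi / w * (co d v : ℝ) := by
        funext v; rw [← hτ]; push_cast; ring
      have e2 : (fun v => ((-(N : ℤ) : ℤ) : ℝ) * τ * (co d v : ℝ))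
          = fun v => -(4 * Real.pi / w * (co d v : ℝ)) := by
        funext v; rw [← hτ]; push_cast; ring
      simp only [hF]
      rw [e0, e1, e2, tw_zero]
      exact h1
    simp only [hDi]
    have hsum : ∑ i ∈ Ioo (-(N : ℤ)) N, ((N : ℝ) - |(i : ℝ)|) / (N : ℝ) ^ 2 *
        (c * τ ^ 2 * ((M : ℝ) * w) ^ 2 - (2 * F i - F (i + 1) - F (i - 1)))
        = c * τ ^ 2 * ((M : ℝ) * w) ^ 2 - (2 * F 0 - F N - F (-N)) / (N : ℝ) ^ 2 := by
      rw [← fejer F N]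
      have : ∀ i : ℤ, ((N : ℝ) - |(i : ℝ)|) / (N : ℝ) ^ 2 *
          (c * τ ^ 2 * ((M : ℝ) * w) ^ 2 - (2 * F i - F (i + 1) - F (i - 1)))
          = c * τ ^ 2 * ((M : ℝ) * w) ^ 2 / (N : ℝ) ^ 2 * ((N : ℝ) - |(i : ℝ)|)
            - ((N : ℝ) - |(i : ℝ)|) * (2 * F i - F (i + 1) - F (i - 1)) / (N : ℝ) ^ 2 := by
        intro i; ring
      simp only [this]
      rw [sum_sub_distrib, ← mul_sum, fejer_one, ← sum_div]
      field_simp
    rw [hsum]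
    have h2 : (2 * F 0 - F N - F (-N)) / (N : ℝ) ^ 2
        ≤ 64 * Real.pi ^ 2 * β * M / (N : ℝ) ^ 2 := by gcongr
    have h3 : 64 * Real.pi ^ 2 * β * M / (N : ℝ) ^ 2
        = τ ^ 2 * ((M : ℝ) * w) ^ 2 * (4 * β / M) := by
      have : τ = 4 * Real.pi / w / N := by rw [← hτ]; field_simp
      rw [this]; field_simp; ring
    nlinarith

theorem recur (hβ : 0 ≤ β) {j k : ℕ} (hjk : j ≤ k) {c : ℝ} (hc : 4 * β / 3 ^ j ≤ c)
    (h : Kap m β k c) :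
    Kap m β (k + 1)
      (c - Real.exp (-(1728 * Real.pi ^ 2 * β * 9 ^ j)) / 18 * (c - 4 * β / 3 ^ j)) := by
  intro b d i hi σ
  obtain ⟨r, rfl⟩ : ∃ r, k = j + r := ⟨k - j, by omega⟩
  obtain ⟨q, rfl⟩ : ∃ q, i = r + q := ⟨i - r, by omega⟩
  set τ : ℝ := Real.pi / 3 ^ (r + q) with hτ
  have hs : (3 : ℕ) ^ (j + r) = 3 ^ j * 3 ^ r := pow_add _ _ _
  have hs' : (3 : ℕ) ^ (j + r + 1) = 3 * (3 ^ j * 3 ^ r) := by rw [pow_succ, hs]; ring
  have h9 : (9 : ℝ) ^ (j + r) = (((3 ^ j : ℕ) : ℝ) * ((3 ^ r : ℕ) : ℝ)) ^ 2 := by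
    push_cast
    rw [← pow_add, ← pow_mul, mul_comm, pow_mul]; norm_num
  have h9j : (9 : ℝ) ^ j = ((3 ^ j : ℕ) : ℝ) ^ 2 := by
    push_cast
    rw [← pow_mul, mul_comm, pow_mul]; norm_num
  have hK : ∀ (b' : V) (σ' : Cfg (m + 3)), D β (bU b' (3 ^ j * 3 ^ r)) (bI b' (3 ^ j * 3 ^ r))
      (fun v => τ * (co d v : ℝ)) σ'
        ≤ c * τ ^ 2 * (((3 ^ j : ℕ) : ℝ) * ((3 ^ r : ℕ) : ℝ)) ^ 2 := by
    intro b' σ'
    have := h b' d (r + q) (by omega) σ'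
    rwa [hs, h9] at this
  have hg := gain (m := m) hβ b d (3 ^ j) (3 ^ r) (4 * 3 ^ q) (by positivity) (by positivity)
    (by positivity) τ c (by rw [hτ]; push_cast; rw [pow_add]; field_simp)
    (by push_cast; exact hc) (hK _) σ
  have hpos : 0 < 3 ^ j * 3 ^ r := by positivity
  have hsub := subadd_grid (m := m) β (Ico (0 : ℤ) (3 : ℕ) ×ˢ Ico (0 : ℤ) (3 : ℕ)) b
    (3 ^ j * 3 ^ r) (bI b (3 * (3 ^ j * 3 ^ r))) (fun p hp => bI_subset_box b _ 3 hp)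
    (fun v => τ * (co d v : ℝ)) σ
  rw [gU_box b hpos 3] at hsub
  rw [hs']
  set S2 : ℝ := (((3 ^ j : ℕ) : ℝ) * ((3 ^ r : ℕ) : ℝ)) ^ 2 with hS2
  set s : ℕ := 3 ^ j * 3 ^ r
  have hmem : ((1, 1) : V) ∈ Ico (0 : ℤ) (3 : ℕ) ×ˢ Ico (0 : ℤ) (3 : ℕ) := by simp
  have hpt : ∀ τ' : Cfg (m + 3), ∑ p ∈ Ico (0 : ℤ) (3 : ℕ) ×ˢ Ico (0 : ℤ) (3 : ℕ),
      D β (bU (gb b s p) s) (bI (gb b s p) s) (fun v => τ * (co d v : ℝ)) τ'
      ≤ 9 * (c * τ ^ 2 * S2) - (c * τ ^ 2 * S2 - D β (bU (gb b s (1, 1)) s)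
        (bI (gb b s (1, 1)) s) (fun v => τ * (co d v : ℝ)) τ') := by
    intro τ'
    rw [← add_sum_erase _ _ hmem]
    have h1 := sum_le_card_nsmul ((Ico (0 : ℤ) (3 : ℕ) ×ˢ Ico (0 : ℤ) (3 : ℕ)).erase (1, 1))
      (fun p => D β (bU (gb b s p) s) (bI (gb b s p) s) (fun v => τ * (co d v : ℝ)) τ')
      (c * τ ^ 2 * S2) fun p _ => hK _ _
    rw [card_erase_of_mem hmem] at h1
    have h2 : (Ico (0 : ℤ) (3 : ℕ) ×ˢ Ico (0 : ℤ) (3 : ℕ)).card - 1 = 8 := by simp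
    rw [h2, nsmul_eq_mul, Nat.cast_ofNat (R := ℝ)] at h1
    linarith
  have hc1 : Continuous fun τ' : Cfg (m + 3) => c * τ ^ 2 * S2 - D β (bU (gb b s (1, 1)) s)
      (bI (gb b s (1, 1)) s) (fun v => τ * (co d v : ℝ)) τ' :=
    continuous_const.sub (D_cont _ _ _ _)
  have hle := Ex_mono (β := β) (U := bU b (3 * s)) (I := bI b (3 * s))
    (G := fun τ' => 9 * (c * τ ^ 2 * S2) - (c * τ ^ 2 * S2 - D β (bU (gb b s (1, 1)) s)
        (bI (gb b s (1, 1)) s) (fun v => τ * (co d v : ℝ)) τ'))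
    (continuous_finsetSum _ fun p _ => D_cont _ _ _ _) (continuous_const.sub hc1) hpt σ
  rw [Ex_sub continuous_const hc1, Ex_const] at hle
  have e9 : (9 : ℝ) ^ (j + r + 1) = 9 * S2 := by rw [pow_succ, h9]; ring
  rw [e9, h9j]
  have e3 : ((3 ^ j : ℕ) : ℝ) = 3 ^ j := by push_cast; rfl
  rw [← e3]
  nlinarith

end Vale.Agent.P163
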