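import Vale.Agent.P163.Basic

/-! P163, file Rot: elementary facts on rotations, sign changes and their action.
Plan: group identities by `ext z l` (`LinearIsometryEquiv.ext`, then coordinates with `rot_apply`,
`rotL_apply`, `sgn_apply`, `split_ifs`, `Real.cos_add`, `Real.sin_add`; `(g * h) z = g (h z)` is
`LinearIsometryEquiv.mul_apply`/`rfl`); `ne01 ne12 ne02` give distinctness of the indices.
`rot_lip`: the square of the left side is `2 (1 - cos (θ - φ)) (z i ^ 2 + z j ^ 2)` by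
`norm_sub_sq_real`, `rot_inner`; use `Real.one_sub_sq_div_two_le_cos`, `sq_add_sq_le`.
`abs_P_le`, `abs_Q_le`: `P ^ 2 + Q ^ 2 = (a i ^ 2 + a j ^ 2) (b i ^ 2 + b j ^ 2) ≤ 1`. -/

open MeasureTheory Filter Topology Finset

namespace Vale.Agent.P163

variable {n : ℕ}

lemma rot_inner {i j : Fin n} (h : i ≠ j) (θ φ : ℝ) (a b : Euc n) :
    inner ℝ (rot i j h θ a) (rot i j h φ b) = inner ℝ a b
      + (Real.cos (θ - φ) - 1) * (a i * b i + a j * b j)
      + Real.sin (θ - φ) * (a i * b j - a j * b i) := rotL_inner h θ φ a b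

lemma rot_add {i j : Fin n} (h : i ≠ j) (θ φ : ℝ) :
    rot i j h (θ + φ) = rot i j h θ * rot i j h φ := by
  ext z l
  simp only [LinearIsometryEquiv.coe_mul, Function.comp, rot_apply, rotL_apply, if_true, h.symm,
    if_false, Real.cos_add, Real.sin_add]
  split_ifs <;> ring

lemma rot_zero {i j : Fin n} (h : i ≠ j) : rot i j h 0 = 1 := by
  ext z l
  simp only [rot_apply, rotL_apply, Real.cos_zero, Real.sin_zero]
  split_ifs with h1 h2 <;> simp [*]

lemma rot_periodic {i j : Fin n} (h : i ≠ j) (θ : ℝ) (k : ℤ) :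
    rot i j h (θ + k * (2 * Real.pi)) = rot i j h θ := by
  ext z l
  simp only [rot_apply, rotL_apply, Real.cos_add_int_mul_two_pi, Real.sin_add_int_mul_two_pi]

lemma sq_add_sq_le {i j : Fin n} (h : i ≠ j) (z : Euc n) : z i ^ 2 + z j ^ 2 ≤ ‖z‖ ^ 2 := by
  rw [← real_inner_self_eq_norm_sq, inner_eq_sum, sum_split_two h, sq, sq]
  exact le_add_of_nonneg_right (sum_nonneg fun _ _ => mul_self_nonneg _)

lemma rot_lip {i j : Fin n} (h : i ≠ j) (θ φ : ℝ) (z : Euc n) :
    ‖rot i j h θ z - rot i j h φ z‖ ≤ |θ - φ| * ‖z‖ := by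
  refine abs_le_of_sq_le_sq' ?_ (by positivity) |>.2
  rw [norm_sub_sq_real, rot_inner, LinearIsometryEquiv.norm_map, LinearIsometryEquiv.norm_map,
    real_inner_self_eq_norm_sq, mul_pow, sq_abs]
  have h1 := Real.one_sub_sq_div_two_le_cos (x := θ - φ)
  have h2 := mul_le_mul_of_nonneg_left (sq_add_sq_le h z) (sq_nonneg (θ - φ))
  nlinarith [mul_le_mul_of_nonneg_right h1 (add_nonneg (sq_nonneg (z i)) (sq_nonneg (z j)))]

lemma sph_norm (a : Sph n) : ‖(a : Euc n)‖ = 1 := by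
  exact mem_sphere_zero_iff_norm.1 a.2

lemma abs_P_le {i j : Fin n} (h : i ≠ j) (a b : Sph n) :
    |(a : Euc n) i * (b : Euc n) i + (a : Euc n) j * (b : Euc n) j| ≤ 1 := by
  have h1 := sq_add_sq_le h (a : Euc n)
  have h2 := sq_add_sq_le h (b : Euc n)
  rw [sph_norm, one_pow] at h1 h2
  rw [← sq_le_one_iff_abs_le_one]
  nlinarith [mul_le_one₀ h1 (by positivity) h2,
    sq_nonneg ((a : Euc n) i * (b : Euc n) j - (a : Euc n) j * (b : Euc n) i)]

lemma abs_Q_le {i j : Fin n} (h : i ≠ j) (a b : Sph n) :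
    |(a : Euc n) i * (b : Euc n) j - (a : Euc n) j * (b : Euc n) i| ≤ 1 := by
  have h1 := sq_add_sq_le h (a : Euc n)
  have h2 := sq_add_sq_le h (b : Euc n)
  rw [sph_norm, one_pow] at h1 h2
  rw [← sq_le_one_iff_abs_le_one]
  nlinarith [mul_le_one₀ h1 (by positivity) h2,
    sq_nonneg ((a : Euc n) i * (b : Euc n) i + (a : Euc n) j * (b : Euc n) j)]

lemma Rz_add (m : ℕ) (θ φ : ℝ) : Rz m (θ + φ) = Rz m θ * Rz m φ := rot_add _ θ φ
lemma Rz_zero (m : ℕ) : Rz m 0 = 1 := rot_zero _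
lemma Rz_periodic (m : ℕ) (θ : ℝ) (k : ℤ) : Rz m (θ + k * (2 * Real.pi)) = Rz m θ :=
  rot_periodic _ θ k
lemma Rz_lip (m : ℕ) (θ φ : ℝ) (z : Euc (m + 3)) : ‖Rz m θ z - Rz m φ z‖ ≤ |θ - φ| * ‖z‖ :=
  rot_lip _ θ φ z
lemma Rx_add (m : ℕ) (θ φ : ℝ) : Rx m (θ + φ) = Rx m θ * Rx m φ := rot_add _ θ φ
lemma Rx_zero (m : ℕ) : Rx m 0 = 1 := rot_zero _
lemma Rx_lip (m : ℕ) (θ φ : ℝ) (z : Euc (m + 3)) : ‖Rx m θ z - Rx m φ z‖ ≤ |θ - φ| * ‖z‖ :=
  rot_lip _ θ φ z

lemma Rx_conj (m : ℕ) (φ : ℝ) : Rx m Real.pi * Rz m φ * Rx m (-Real.pi) = Rz m (-φ) := by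
  ext z l
  simp only [LinearIsometryEquiv.coe_mul, Function.comp, Rx, Rz, rot_apply, rotL_apply, if_true,
    ne01, ne12, ne02, (ne01 m).symm, (ne12 m).symm, (ne02 m).symm, if_false, Real.cos_neg,
    Real.sin_neg, Real.cos_pi, Real.sin_pi]
  by_cases h0 : l = 0
  · simp [h0, ne02]
  by_cases h1 : l = 1
  · simp [h1]
    ring
  by_cases h2 : l = 2 <;> simp [h0, h1, h2, (ne12 m).symm, (ne02 m).symm]

lemma Rz_pi_apply (m : ℕ) (z : Euc (m + 3)) : Rz m Real.pi z 0 = -z 0 := by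
  simp [Rz, rot_apply, rotL_apply]

lemma sgn_mul_self (ε : Fin n → Bool) : sgn ε * sgn ε = 1 := by
  ext z l
  simp only [LinearIsometryEquiv.coe_mul, Function.comp, sgn_apply]
  split_ifs <;> simp

lemma sgn_conj (m : ℕ) (ε : Fin (m + 3) → Bool) (θ : ℝ) :
    sgn ε * Rz m θ * sgn ε = Rz m (if ε 0 = ε 1 then θ else -θ) := by
  ext z l
  simp only [LinearIsometryEquiv.coe_mul, Function.comp, sgn_apply, Rz, rot_apply, rotL_apply]
  by_cases h0 : l = 0
  · subst h0
    cases ε 0 <;> cases ε 1 <;> simp <;> ring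
  by_cases h1 : l = 1
  · subst h1
    cases ε 0 <;> cases ε 1 <;> simp <;> ring
  cases ε l <;> simp [h0, h1]

lemma act_mul (g h : V → Iso n) (σ : Cfg n) :
    act (fun v => g v * h v) σ = act g (act h σ) := by
  rfl

lemma act_one (σ : Cfg n) : act (fun _ => 1) σ = σ := by
  rfl

lemma act_apply_congr {g g' : V → Iso n} {σ σ' : Cfg n} {v : V} (hg : g v = g' v)
    (hσ : σ v = σ' v) : act g σ v = act g' σ' v := by
  simp only [act, hg, hσ]

lemma act_apply_of_eq_one {g : V → Iso n} (σ : Cfg n) {v : V} (hg : g v = 1) :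
    act g σ v = σ v := by
  simp only [act, hg]
  rfl

lemma act_piecewise (g : V → Iso n) (I : Finset V) (y σ : Cfg n) :
    act g (I.piecewise y σ) = I.piecewise (act g y) (act g σ) := by
  funext v
  by_cases h : v ∈ I <;> simp [act, h]

lemma continuous_actS (g : Iso n) : Continuous (actS g) := by
  exact (g.continuous.comp continuous_subtype_val).subtype_mk _

lemma continuous_act (g : V → Iso n) : Continuous (act g) := by
  exact continuous_pi fun v => (continuous_actS _).comp (continuous_apply v)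

lemma continuous_sc (l : Fin n) (v : V) : Continuous (sc l v : Cfg n → ℝ) := by
  unfold sc
  fun_prop

lemma abs_sc_le (l : Fin n) (v : V) (σ : Cfg n) : |sc l v σ| ≤ 1 := by
  exact (PiLp.norm_apply_le (σ v : Euc n) l).trans_eq (sph_norm _)

lemma continuous_dot (x y : V) : Continuous fun σ : Cfg n => dot σ x y := by
  unfold dot
  fun_prop

lemma dot_eq_sum (σ : Cfg n) (x y : V) : dot σ x y = ∑ l, sc l x σ * sc l y σ := by
  exact inner_eq_sum _ _

lemma dot_act_const (g : Iso n) (σ : Cfg n) (x y : V) :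
    dot (act (fun _ => g) σ) x y = dot σ x y := by
  exact g.inner_map_map _ _

lemma continuous_weight (β : ℝ) (E : Finset (V × V)) :
    Continuous (weight β E : Cfg n → ℝ) := by
  exact Real.continuous_exp.comp
    (continuous_const.mul (continuous_finsetSum _ fun _ _ => continuous_dot _ _))

lemma weight_pos (β : ℝ) (E : Finset (V × V)) (σ : Cfg n) : 0 < weight β E σ := by
  exact Real.exp_pos _

variable {m : ℕ}

lemma continuous_tw (ψ : V → ℝ) : Continuous (tw ψ : Cfg (m + 3) → Cfg (m + 3)) := by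
  exact continuous_act _

lemma tw_tw (ψ φ : V → ℝ) (σ : Cfg (m + 3)) :
    tw ψ (tw φ σ) = tw (fun v => ψ v + φ v) σ := by
  simp only [tw, Rz_add, act_mul]

lemma tw_zero (σ : Cfg (m + 3)) : tw (fun _ => 0) σ = σ := by
  simp only [tw, Rz_zero, act_one]

lemma dot_tw (ψ : V → ℝ) (σ : Cfg (m + 3)) (x y : V) :
    dot (tw ψ σ) x y = dot σ x y
      + (Real.cos (ψ x - ψ y) - 1) * (sc 0 x σ * sc 0 y σ + sc 1 x σ * sc 1 y σ)
      + Real.sin (ψ x - ψ y) * (sc 0 x σ * sc 1 y σ - sc 1 x σ * sc 0 y σ) := by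
  exact rot_inner _ _ _ _ _

end Vale.Agent.P163
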