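import Vale.Agent.P163.Cheap
import Vale.Agent.P163.Grid

/-! P163, file Unwind: a twist winding `2 M` times across a block of side `M w` costs only
`O(M)`, because the loop can be unwound in SO(3).
Plan: put `s = M * w`, `x v = co d v - co d b`, `y v = co (!d) v - co (!d) b`,
`ℓ v = min w (min (y v) (s - y v))` (an integer), `φ v = 2 π / w * x v`, `l v = π / w * ℓ v`,
`k v = kk (φ v) (l v)`. First `D_congr` replaces `ψ` by `4 π / w * x v = 2 φ v`.
On `touch (bU b s) \ bI b s` (`touch_bU`, `mem_bC`, `mem_bI`, cases on `d`): either `y = 0` or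
`y = s` (then `ℓ = 0`, `kk_zero`) or `x = 0` or `x = s` (then `φ = 2 π * (0 or M)`, `kk_period`
and `Rz_periodic`, `Rz_zero` give `k v = 1 = Rz (2 φ)`).
Along a bond `|Δ x| + |Δ ℓ| ≤ 1` (omega after cases on `d`), so `kk_lip` gives `δ = 4 π / w`;
if `w ≤ y v` and `y v + 1 ≤ s - w` both endpoints have `ℓ = w` and `k = 1` (`kk_pi`), `δ = 0`.
So take `δ₁ v = δ₂ v = if y v < w ∨ s - w ≤ y v then 4 π / w else 0` in `cheapAbs`; the number of
such `v` in `bU b s` is at most `2 w s` (`card_strip`), and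
`2 w s * 2 * (4 π / w) ^ 2 = 64 π ^ 2 M`. -/

open MeasureTheory Filter Topology Finset

namespace Vale.Agent.P163

variable {m : ℕ}

/-- The unwinding homotopy. -/
noncomputable def kk (m : ℕ) (φ l : ℝ) : Iso (m + 3) := Rz m φ * Rx m l * Rz m φ * Rx m (-l)

lemma kk_zero (φ : ℝ) : kk m φ 0 = Rz m (2 * φ) := by
  rw [kk, neg_zero, Rx_zero, mul_one, mul_one, two_mul, Rz_add]

lemma kk_pi (φ : ℝ) : kk m φ Real.pi = 1 := by
  have : kk m φ Real.pi = Rz m φ * (Rx m Real.pi * Rz m φ * Rx m (-Real.pi)) := by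
    simp only [kk, mul_assoc]
  rw [this, Rx_conj, ← Rz_add, add_neg_cancel, Rz_zero]

lemma kk_period (k : ℤ) (l : ℝ) : kk m (k * (2 * Real.pi)) l = 1 := by
  have : Rz m (k * (2 * Real.pi)) = 1 := by
    have := Rz_periodic m 0 k
    rwa [zero_add, Rz_zero] at this
  rw [kk, this, one_mul, mul_one, ← Rx_add, add_neg_cancel, Rx_zero]

lemma mul_lip {n : ℕ} {A A' B B' : Iso n} {a b : ℝ} (hA : ∀ z, ‖A z - A' z‖ ≤ a * ‖z‖)
    (hB : ∀ z, ‖B z - B' z‖ ≤ b * ‖z‖) (z : Euc n) :
    ‖(A * B) z - (A' * B') z‖ ≤ (a + b) * ‖z‖ := by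
  have e : (A * B) z - (A' * B') z = (A (B z) - A' (B z)) + A' (B z - B' z) := by
    rw [map_sub]
    change A (B z) - A' (B' z) = _
    abel
  rw [e]
  have h1 := hA (B z)
  rw [B.norm_map] at h1
  have h2 := hB z
  have h3 := norm_add_le (A (B z) - A' (B z)) (A' (B z - B' z))
  rw [A'.norm_map] at h3
  linarith

lemma kk_lip (φ φ' l l' : ℝ) (z : Euc (m + 3)) :
    ‖kk m φ l z - kk m φ' l' z‖ ≤ (2 * |φ - φ'| + 2 * |l - l'|) * ‖z‖ := by
  have h := mul_lip (mul_lip (mul_lip (Rz_lip m φ φ') (Rx_lip m l l')) (Rz_lip m φ φ'))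
    (Rx_lip m (-l) (-l')) z
  rw [neg_sub_neg, abs_sub_comm l' l] at h
  unfold kk
  linarith

lemma card_strip (b : V) (s w : ℕ) (d : Bool) :
    ((bU b s).filter fun v => co d v - co d b < w ∨ (s : ℤ) - w ≤ co d v - co d b).card
      ≤ 2 * w * s := by
  cases d
  · refine le_trans (card_le_card (t := Ico b.1 (b.1 + s) ×ˢ Ico b.2 (b.2 + w)
      ∪ Ico b.1 (b.1 + s) ×ˢ Ico (b.2 + s - w) (b.2 + s)) fun v hv => ?_) ?_
    · simp only [mem_filter, mem_bU, co, Bool.false_eq_true, if_false] at hv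
      simp only [mem_union, mem_product, mem_Ico]
      omega
    · refine (card_union_le _ _).trans (le_of_eq ?_)
      simp only [card_product, Int.card_Ico, add_sub_cancel_left, sub_sub_cancel, Int.toNat_natCast]
      ring
  · refine le_trans (card_le_card (t := Ico b.1 (b.1 + w) ×ˢ Ico b.2 (b.2 + s)
      ∪ Ico (b.1 + s - w) (b.1 + s) ×ˢ Ico b.2 (b.2 + s)) fun v hv => ?_) ?_
    · simp only [mem_filter, mem_bU, co, if_true] at hv
      simp only [mem_union, mem_product, mem_Ico]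
      omega
    · refine (card_union_le _ _).trans (le_of_eq ?_)
      simp only [card_product, Int.card_Ico, add_sub_cancel_left, sub_sub_cancel, Int.toNat_natCast]
      ring

lemma kk_step {w : ℝ} (hw : 0 < w) {x x' l l' : ℤ} (h : |x' - x| + |l' - l| ≤ 1)
    (z : Euc (m + 3)) :
    ‖kk m (2 * Real.pi / w * x') (Real.pi / w * l') z
      - kk m (2 * Real.pi / w * x) (Real.pi / w * l) z‖ ≤ 4 * Real.pi / w * ‖z‖ := by
  refine (kk_lip _ _ _ _ z).trans (mul_le_mul_of_nonneg_right ?_ (norm_nonneg _))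
  have hpi := Real.pi_pos
  have h' : |(x' : ℝ) - x| + |(l' : ℝ) - l| ≤ 1 := by exact_mod_cast h
  have hp : 0 < Real.pi / w := by positivity
  have e1 : 2 * Real.pi / w = 2 * (Real.pi / w) := by ring
  have e2 : 4 * Real.pi / w = 4 * (Real.pi / w) := by ring
  rw [← mul_sub, ← mul_sub, abs_mul, abs_mul, e1, e2, abs_of_pos hp,
    abs_of_pos (by positivity : 0 < 2 * (Real.pi / w))]
  nlinarith [abs_nonneg ((x' : ℝ) - x), abs_nonneg ((l' : ℝ) - l),
    mul_le_mul_of_nonneg_left h' hp.le, mul_nonneg hp.le (abs_nonneg ((l' : ℝ) - l))]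

theorem cheapBlock {β : ℝ} (hβ : 0 ≤ β) (b : V) (d : Bool) (M w : ℕ) (hw : 0 < w)
    (σ : Cfg (m + 3)) :
    D β (bU b (M * w)) (bI b (M * w)) (fun v => 4 * Real.pi / w * (co d v : ℝ)) σ
      ≤ 64 * Real.pi ^ 2 * β * M := by
  have hw' : (0 : ℝ) < w := by exact_mod_cast hw
  have hpi := Real.pi_pos
  set s : ℕ := M * w with hs
  set x : V → ℤ := fun v => co d v - co d b with hx
  set ℓ : V → ℤ := fun v => min (w : ℤ)
    (min (co (!d) v - co (!d) b) ((s : ℤ) - (co (!d) v - co (!d) b))) with hℓ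
  set k : V → Iso (m + 3) := fun v => kk m (2 * Real.pi / w * (x v : ℝ)) (Real.pi / w * (ℓ v : ℝ))
    with hk
  set δ : V → ℝ := fun v => if co (!d) v - co (!d) b < w ∨ (s : ℤ) - w ≤ co (!d) v - co (!d) b
    then 4 * Real.pi / w else 0 with hδ
  rw [D_congr (ψ' := fun v => 2 * (2 * Real.pi / w * (x v : ℝ))) (4 * Real.pi / w * (co d b : ℝ))
    fun v _ _ => by simp only [hx]; push_cast; ring]
  have hedge : ∀ v v' : V, |x v' - x v| + |ℓ v' - ℓ v| ≤ 1 →
      (¬ (co (!d) v - co (!d) b < w ∨ (s : ℤ) - w ≤ co (!d) v - co (!d) b) →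
        ℓ v = w ∧ ℓ v' = w) → ∀ z, ‖k v' z - k v z‖ ≤ δ v * ‖z‖ := by
    intro v v' h1 h2 z
    simp only [hδ]
    split_ifs with h
    · exact kk_step hw' h1 z
    · obtain ⟨e1, e2⟩ := h2 h
      have e : Real.pi / w * ((w : ℤ) : ℝ) = Real.pi := by push_cast; field_simp
      simp only [hk]
      rw [e1, e2, e, kk_pi, kk_pi]
      simp
  refine (cheapAbs hβ _ k (fun v hv hI => ?_) δ δ (fun v hv => hedge v (rt v) ?_ ?_)
    (fun v hv => hedge v (up v) ?_ ?_) σ).trans ?_
  · have hC := touch_bU hv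
    rw [mem_bC] at hC
    rw [mem_bI] at hI
    have : ℓ v = 0 ∨ x v = 0 ∨ x v = s := by
      cases d <;> simp only [hℓ, hx, co, Bool.not_true, Bool.not_false, if_true,
        Bool.false_eq_true, if_false] <;> omega
    simp only [hk]
    rcases this with h | h | h
    · rw [h, Int.cast_zero, mul_zero, kk_zero]
    · have e := kk_period (m := m) 0 (Real.pi / w * (ℓ v : ℝ))
      rw [Int.cast_zero, zero_mul] at e
      rw [h, Int.cast_zero, mul_zero, mul_zero, e, Rz_zero]
    · have e1 : 2 * Real.pi / w * (((s : ℕ) : ℤ) : ℝ) = ((M : ℤ) : ℝ) * (2 * Real.pi) := by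
        rw [hs]; push_cast; field_simp
      have e2 := Rz_periodic m 0 (2 * M)
      rw [zero_add, Rz_zero] at e2
      rw [h, e1, kk_period, ← e2]
      congr 1; push_cast; ring
  · cases d <;> simp only [hℓ, hx, co, rt, Bool.not_true, Bool.not_false, if_true,
      Bool.false_eq_true, if_false, Int.abs_eq_natAbs] <;> omega
  · cases d <;> simp only [hℓ, co, rt, Bool.not_true, Bool.not_false, if_true,
      Bool.false_eq_true, if_false] <;> omega
  · cases d <;> simp only [hℓ, hx, co, up, Bool.not_true, Bool.not_false, if_true,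
      Bool.false_eq_true, if_false, Int.abs_eq_natAbs] <;> omega
  · cases d <;> simp only [hℓ, co, up, Bool.not_true, Bool.not_false, if_true,
      Bool.false_eq_true, if_false] <;> omega
  · have h1 : ∑ v ∈ bU b s, (δ v ^ 2 + δ v ^ 2) = ∑ v ∈ (bU b s).filter fun v =>
        co (!d) v - co (!d) b < w ∨ (s : ℤ) - w ≤ co (!d) v - co (!d) b,
          2 * (4 * Real.pi / w) ^ 2 := by
      rw [sum_filter]
      refine sum_congr rfl fun v _ => ?_
      simp only [hδ]
      split_ifs <;> ring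
    rw [h1, sum_const, nsmul_eq_mul]
    have h2 : (((bU b s).filter fun v =>
        co (!d) v - co (!d) b < w ∨ (s : ℤ) - w ≤ co (!d) v - co (!d) b).card : ℝ)
        ≤ 2 * w * (M * w) := by exact_mod_cast card_strip b s w (!d)
    calc β * (_ * (2 * (4 * Real.pi / w) ^ 2))
        ≤ β * (2 * w * (M * w) * (2 * (4 * Real.pi / w) ^ 2)) := by gcongr
      _ = 64 * Real.pi ^ 2 * β * M := by field_simp; ring

end Vale.Agent.P163
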